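import Vale.Agent.P327.Strings

/-!
Baire category tools.
-/

open Filter Topology Set

namespace P327

section General

variable {Y Z : Type*} [TopologicalSpace Y] [TopologicalSpace Z]

/-- Kuratowski–Ulam, the easy direction. -/
theorem ku [SecondCountableTopology Z] {P : Y × Z → Prop}
    (h : ∀ᶠ p in residual (Y × Z), P p) :
    ∀ᶠ y in residual Y, ∀ᶠ z in residual Z, P (y, z) := by
  rw [Filter.Eventually, mem_residual_iff] at h
  obtain ⟨S, hSo, hSd, hSc, hSP⟩ := h
  have key : ∀ D ∈ S, ∀ᶠ y in residual Y, ∀ᶠ z in residual Z, (y, z) ∈ D := by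
    intro D hD
    have hDo := hSo D hD
    have hDd := hSd D hD
    have h1 : ∀ V ∈ TopologicalSpace.countableBasis Z, ∀ᶠ y in residual Y,
        ∃ z ∈ V, (y, z) ∈ D := by
      intro V hV
      have hVo := TopologicalSpace.isOpen_of_mem_countableBasis hV
      have hVn := TopologicalSpace.nonempty_of_mem_countableBasis hV
      have ho : IsOpen (Prod.fst '' (D ∩ (univ ×ˢ V))) :=
        isOpenMap_fst _ (hDo.inter (isOpen_univ.prod hVo))
      have hd : Dense (Prod.fst '' (D ∩ ((univ : Set Y) ×ˢ V))) := by
        rw [dense_iff_inter_open]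
        intro U hU hUn
        obtain ⟨p, hp1, hp2⟩ := hDd.inter_open_nonempty (U ×ˢ V) (hU.prod hVo) (hUn.prod hVn)
        exact ⟨p.1, hp1.1, p, ⟨hp2, mem_univ _, hp1.2⟩, rfl⟩
      filter_upwards [residual_of_dense_open ho hd] with y hy
      obtain ⟨p, ⟨hp1, -, hp2⟩, rfl⟩ := hy
      exact ⟨p.2, hp2, hp1⟩
    have h2 : ∀ᶠ y in residual Y, ∀ V ∈ TopologicalSpace.countableBasis Z, ∃ z ∈ V, (y, z) ∈ D :=
      (eventually_countable_ball (TopologicalSpace.countable_countableBasis Z)).2 h1
    filter_upwards [h2] with y hy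
    apply residual_of_dense_open
    · exact hDo.preimage (Continuous.prodMk_right y)
    · rw [(TopologicalSpace.isBasis_countableBasis Z).dense_iff]
      intro V hV _
      obtain ⟨z, hz, hz'⟩ := hy V hV
      exact ⟨z, hz, hz'⟩
  have h3 : ∀ᶠ y in residual Y, ∀ D ∈ S, ∀ᶠ z in residual Z, (y, z) ∈ D :=
    (eventually_countable_ball hSc).2 key
  filter_upwards [h3] with y hy
  filter_upwards [(eventually_countable_ball hSc).2 hy] with z hz
  exact hSP hz

/-- Category dichotomy for Borel sets: a nonmeagre Borel set is comeagre in some nonempty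
open set. -/
theorem exists_open_of_not_meagre [BaireSpace Y] [MeasurableSpace Y] [BorelSpace Y] {B : Set Y}
    (hB : MeasurableSet B) (h : ¬ IsMeagre B) :
    ∃ U : Set Y, IsOpen U ∧ U.Nonempty ∧ ∀ᶠ y in residual Y, y ∈ U → y ∈ B := by
  obtain ⟨U, hU, hUB⟩ := hB.residualEq_isOpen
  refine ⟨U, hU, ?_, ?_⟩
  · rw [Set.nonempty_iff_ne_empty]
    rintro rfl
    apply h
    show Bᶜ ∈ residual Y
    filter_upwards [hUB] with y hy
    intro hyB
    exact hy.mp hyB
  · filter_upwards [hUB] with y hy
    exact hy.mpr

theorem isMeagre_iff_ev {s : Set Y} : IsMeagre s ↔ ∀ᶠ y in residual Y, y ∉ s := Iff.rfl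

/-- In a Baire space, a comeagre property holds somewhere in each nonempty open set. -/
theorem exists_mem_of_ev [BaireSpace Y] {U : Set Y} (hU : IsOpen U) (hne : U.Nonempty)
    {P : Y → Prop} (h : ∀ᶠ y in residual Y, y ∈ U → P y) : ∃ y ∈ U, P y := by
  obtain ⟨y, hy, hy'⟩ := (dense_of_mem_residual h).inter_open_nonempty U hU hne
  exact ⟨y, hy, hy' hy⟩

/-- If comeagrely many points of a nonempty open set lie in a countable union of Borel sets, one
of the Borel sets is comeagre in some nonempty open subset. -/
theorem exists_open_of_cover [BaireSpace Y] [MeasurableSpace Y] [BorelSpace Y] {B : ℕ → Set Y}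
    (hB : ∀ i, MeasurableSet (B i)) {U : Set Y} (hU : IsOpen U) (hne : U.Nonempty)
    (h : ∀ᶠ y in residual Y, y ∈ U → ∃ i, y ∈ B i) :
    ∃ i, ∃ V : Set Y, V ⊆ U ∧ IsOpen V ∧ V.Nonempty ∧ ∀ᶠ y in residual Y, y ∈ V → y ∈ B i := by
  have h1 : ∃ i, ¬ IsMeagre (B i ∩ U) := by
    by_contra hcon
    push Not at hcon
    have h2 : ∀ᶠ y in residual Y, ∀ i, y ∉ B i ∩ U :=
      eventually_countable_forall.2 fun i => isMeagre_iff_ev.1 (hcon i)
    obtain ⟨y, hy, hy'⟩ := exists_mem_of_ev hU hne
      (P := fun y => (∃ i, y ∈ B i) ∧ ∀ i, y ∉ B i ∩ U)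
      (by filter_upwards [h, h2] with y h3 h4 h5 using ⟨h3 h5, h4⟩)
    obtain ⟨⟨i, hi⟩, h3⟩ := hy'
    exact h3 i ⟨hi, hy⟩
  obtain ⟨i, hi⟩ := h1
  obtain ⟨W, hW, hWn, hWB⟩ := exists_open_of_not_meagre ((hB i).inter hU.measurableSet) hi
  refine ⟨i, W ∩ U, inter_subset_right, hW.inter hU, ?_, ?_⟩
  · obtain ⟨y, hy, hy'⟩ := exists_mem_of_ev hW hWn hWB
    exact ⟨y, hy, hy'.2⟩
  · filter_upwards [hWB] with y hy hy'
    exact (hy hy'.1).1

/-- `A` is everywhere nonmeagre in `O`. -/
def ENM (A O : Set Y) : Prop :=
  ∀ U : Set Y, IsOpen U → U.Nonempty → U ⊆ O → ¬ IsMeagre (A ∩ U)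

theorem ENM.mono {A A' O O' : Set Y} (h : ENM A O) (hA : A ∩ O' ⊆ A') (hO : O' ⊆ O) :
    ENM A' O' := by
  intro U hU hne hUO hm
  refine h U hU hne (hUO.trans hO) (hm.mono ?_)
  rintro y ⟨hy1, hy2⟩
  exact ⟨hA ⟨hy1, hUO hy2⟩, hy2⟩

/-- A nonmeagre set is everywhere nonmeagre in some nonempty open set. -/
theorem exists_ENM [SecondCountableTopology Y] {A O : Set Y} (hO : IsOpen O)
    (h : ¬ IsMeagre (A ∩ O)) :
    ∃ U : Set Y, U ⊆ O ∧ IsOpen U ∧ U.Nonempty ∧ ENM A U := by
  by_contra hcon
  push Not at hcon
  apply h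
  have h0 : ∀ U : Set Y, U ⊆ O → IsOpen U → U.Nonempty → ∃ V ∈ TopologicalSpace.countableBasis Y,
      V ⊆ U ∧ IsMeagre (A ∩ V) := by
    intro U hUO hU hne
    have h1 := hcon U hUO hU hne
    unfold ENM at h1
    push Not at h1
    obtain ⟨V, hV, hVn, hVU, hm⟩ := h1
    obtain ⟨y, hy⟩ := hVn
    obtain ⟨V', hV', hyV', hVV'⟩ :=
      (TopologicalSpace.isBasis_countableBasis Y).exists_subset_of_mem_open hy hV
    exact ⟨V', hV', hVV'.trans hVU, hm.mono (inter_subset_inter_right _ hVV')⟩
  set T : Set (Set Y) := {V ∈ TopologicalSpace.countableBasis Y | IsMeagre (A ∩ V)} with hT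
  have hTc : T.Countable := (TopologicalSpace.countable_countableBasis Y).mono fun V hV => hV.1
  have hWo : IsOpen (⋃₀ T) := isOpen_sUnion fun V hV =>
    TopologicalSpace.isOpen_of_mem_countableBasis hV.1
  have h2 : ∀ᶠ y in residual Y, ∀ V ∈ T, y ∉ A ∩ V :=
    (eventually_countable_ball hTc).2 fun V hV => isMeagre_iff_ev.1 hV.2
  have h3 : ∀ᶠ y in residual Y, y ∈ ⋃₀ T ∪ (closure O)ᶜ := by
    apply residual_of_dense_open
    · exact hWo.union isClosed_closure.isOpen_compl
    · rw [dense_iff_inter_open]
      intro U hU hUn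
      by_cases hUO : (U ∩ O).Nonempty
      · obtain ⟨V, hV, hVU, hm⟩ := h0 (U ∩ O) inter_subset_right (hU.inter hO) hUO
        obtain ⟨y, hy⟩ := TopologicalSpace.nonempty_of_mem_countableBasis hV
        exact ⟨y, (hVU hy).1, Or.inl ⟨V, ⟨hV, hm⟩, hy⟩⟩
      · obtain ⟨y, hy⟩ := hUn
        refine ⟨y, hy, Or.inr fun hyO => hUO ?_⟩
        exact mem_closure_iff.1 hyO U hU hy
  rw [isMeagre_iff_ev]
  filter_upwards [h2, h3] with y hy1 hy2 hy3
  rcases hy2 with hy2 | hy2
  · obtain ⟨V, hV, hyV⟩ := hy2
    exact hy1 V hV ⟨hy3.1, hyV⟩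
  · exact hy2 (subset_closure hy3.2)

/-- Countable decomposition of an everywhere nonmeagre set. -/
theorem exists_ENM_of_cover [SecondCountableTopology Y] {A O : Set Y} {C : ℕ → Set Y}
    (hO : IsOpen O) (hne : O.Nonempty) (h : ENM A O) (hc : ∀ y ∈ A ∩ O, ∃ i, y ∈ C i) :
    ∃ i, ∃ U : Set Y, U ⊆ O ∧ IsOpen U ∧ U.Nonempty ∧ ENM (A ∩ C i) U := by
  have h1 : ∃ i, ¬ IsMeagre ((A ∩ C i) ∩ O) := by
    by_contra hcon
    push Not at hcon
    apply h O hO hne Subset.rfl
    have h2 : ∀ᶠ y in residual Y, ∀ i, y ∉ (A ∩ C i) ∩ O :=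
      eventually_countable_forall.2 fun i => isMeagre_iff_ev.1 (hcon i)
    rw [isMeagre_iff_ev]
    filter_upwards [h2] with y hy hy'
    obtain ⟨i, hi⟩ := hc y hy'
    exact hy i ⟨⟨hy'.1, hi⟩, hy'.2⟩
  obtain ⟨i, hi⟩ := h1
  exact ⟨i, exists_ENM hO hi⟩

/-- A Borel set containing an everywhere nonmeagre set (relative to `O`) is comeagre in `O`. -/
theorem comeagre_of_ENM [BaireSpace Y] [MeasurableSpace Y] [BorelSpace Y] {A B O : Set Y}
    (hO : IsOpen O) (hB : MeasurableSet B) (h : ENM A O) (hAB : A ∩ O ⊆ B) :
    ∀ᶠ y in residual Y, y ∈ O → y ∈ B := by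
  by_contra hcon
  have h1 : ¬ IsMeagre (O \ B) := by
    intro hm
    apply hcon
    filter_upwards [isMeagre_iff_ev.1 hm] with y hy hyO
    by_contra hyB
    exact hy ⟨hyO, hyB⟩
  obtain ⟨W, hW, hWn, hWB⟩ := exists_open_of_not_meagre (hO.measurableSet.diff hB) h1
  obtain ⟨y, hy, hy'⟩ := exists_mem_of_ev hW hWn hWB
  apply h (W ∩ O) (hW.inter hO) ⟨y, hy, hy'.1⟩ inter_subset_right
  rw [isMeagre_iff_ev]
  filter_upwards [hWB] with z hz hz'
  exact (hz hz'.2.1).2 (hAB ⟨hz'.1, hz'.2.2⟩)

/-- An everywhere nonmeagre set meets every comeagre set in every nonempty open set. -/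
theorem ENM.exists_mem {A O : Set Y} (h : ENM A O) (hO : IsOpen O) (hne : O.Nonempty)
    {P : Y → Prop} (hP : ∀ᶠ y in residual Y, y ∈ O → P y) : ∃ y ∈ A ∩ O, P y := by
  by_contra hcon
  push Not at hcon
  apply h O hO hne Subset.rfl
  rw [isMeagre_iff_ev]
  filter_upwards [hP] with y hy hy'
  exact hcon y hy' (hy hy'.2)

end General

/-! ### Cantor space -/

/-- An open set contains a cylinder around each of its points. -/
theorem exists_cyl {U : Set X} (hU : IsOpen U) {x : X} (hx : x ∈ U) :
    ∃ k, ∀ y : X, (∀ i, i < k → y i = x i) → y ∈ U := by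
  obtain ⟨I, u, h1, h2⟩ := isOpen_pi_iff.1 hU x hx
  refine ⟨I.sup id + 1, fun y hy => h2 fun a ha => ?_⟩
  have h3 : a ≤ I.sup id := Finset.le_sup (f := id) ha
  rw [hy a (by omega)]
  exact (h1 a ha).2

/-- The set of reals agreeing with `x` up to `k` is open. -/
theorem isOpen_agree (x : X) (k : ℕ) : IsOpen {y : X | ∀ i, i < k → y i = x i} := by
  have : {y : X | ∀ i, i < k → y i = x i} = ⋂ i ∈ Finset.range k, (fun y : X => y i) ⁻¹' {x i} := by
    ext y
    simp
  rw [this]
  exact isOpen_biInter_finset fun i _ => (isOpen_discrete _).preimage (continuous_apply i)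

/-- Each nonempty open subset of Cantor space contains a cylinder, parametrised by `ins`. -/
theorem exists_ins {U : Set X} (hU : IsOpen U) (hne : U.Nonempty) :
    ∃ (a : X) (k : ℕ), ∀ w, ins a k w ∈ U := by
  obtain ⟨x, hx⟩ := hne
  obtain ⟨k, hk⟩ := exists_cyl hU hx
  refine ⟨x, k, fun w => hk _ fun i hi => ?_⟩
  simp [ins, hi]

/-- The same for products, with cylinders of the same length. -/
theorem exists_ins2 {U : Set (X × X)} (hU : IsOpen U) (hne : U.Nonempty) :
    ∃ (a b : X) (k : ℕ), ∀ w c, (ins a k w, ins b k c) ∈ U := by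
  obtain ⟨⟨x, y⟩, hx⟩ := hne
  obtain ⟨u, v, hu, hv, hxu, hyv, huv⟩ := isOpen_prod_iff.1 hU x y hx
  obtain ⟨k, hk⟩ := exists_cyl hu hxu
  obtain ⟨l, hl⟩ := exists_cyl hv hyv
  refine ⟨x, y, max k l, fun w c => huv ⟨hk _ fun i hi => ?_, hl _ fun i hi => ?_⟩⟩
  · have : i < max k l := lt_of_lt_of_le hi (le_max_left _ _)
    simp only [ins, if_pos this]
  · have : i < max k l := lt_of_lt_of_le hi (le_max_right _ _)
    simp only [ins, if_pos this]

theorem continuous_ins (a : X) (k : ℕ) : Continuous (ins a k) := by
  refine continuous_pi fun n => ?_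
  unfold ins
  by_cases h : n < k
  · simp only [if_pos h]
    exact continuous_const
  · simp only [if_neg h]
    exact continuous_apply _

theorem isOpenMap_ins (a : X) (k : ℕ) : IsOpenMap (ins a k) := by
  intro U hU
  have : ins a k '' U = {y : X | ∀ i, i < k → y i = a i} ∩ (fun y : X => fun n => y (n + k)) ⁻¹' U := by
    ext y
    constructor
    · rintro ⟨w, hw, rfl⟩
      refine ⟨fun i hi => by simp [ins, hi], ?_⟩
      have : (fun n => ins a k w (n + k)) = w := by
        funext n
        simp [ins]
      rw [mem_preimage, this]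
      exact hw
    · rintro ⟨h1, h2⟩
      refine ⟨fun n => y (n + k), h2, ?_⟩
      funext n
      by_cases h : n < k
      · simp only [ins, if_pos h]
        exact (h1 n h).symm
      · simp only [ins, if_neg h]
        congr 1
        omega
  rw [this]
  exact (isOpen_agree a k).inter (hU.preimage (continuous_pi fun n => continuous_apply _))

/-- the pull back of a comeagre property to a cylinder -/
theorem eventually_ins {P : X → Prop} (a : X) (k : ℕ) (h : ∀ᶠ x in residual X, P x) :
    ∀ᶠ w in residual X, P (ins a k w) :=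
  (tendsto_residual_of_isOpenMap (continuous_ins a k) (isOpenMap_ins a k)).eventually h

theorem eventually_ins2 {P : X × X → Prop} (a b : X) (k : ℕ)
    (h : ∀ᶠ x in residual (X × X), P x) :
    ∀ᶠ w in residual (X × X), P (ins a k w.1, ins b k w.2) :=
  (tendsto_residual_of_isOpenMap ((continuous_ins a k).prodMap (continuous_ins b k))
    ((isOpenMap_ins a k).prodMap (isOpenMap_ins b k))).eventually h

theorem continuous_sh : Continuous sh := continuous_pi fun n => continuous_apply (n + 1)

theorem isOpenMap_sh : IsOpenMap sh := by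
  intro U hU
  have : sh '' U = ⋃ b : Bool, ins (fun _ => b) 1 ⁻¹' U := by
    ext y
    constructor
    · rintro ⟨x, hx, rfl⟩
      refine mem_iUnion.2 ⟨x 0, ?_⟩
      have : ins (fun _ => x 0) 1 (sh x) = x := by
        funext n
        rcases n with _ | n
        · simp [ins]
        · simp [ins, sh]
      rw [mem_preimage, this]
      exact hx
    · intro hy
      obtain ⟨b, hb⟩ := mem_iUnion.1 hy
      refine ⟨_, hb, ?_⟩
      funext n
      simp [ins, sh]
  rw [this]
  exact isOpen_iUnion fun b => hU.preimage (continuous_ins _ _)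

theorem eventually_sh {P : X × X → Prop} (h : ∀ᶠ x in residual (X × X), P x) :
    ∀ᶠ w in residual (X × X), P (sh w.1, w.2) :=
  (tendsto_residual_of_isOpenMap (continuous_sh.prodMap continuous_id)
    (isOpenMap_sh.prodMap IsOpenMap.id)).eventually h

/-- pull back of comeagre properties under homeomorphisms -/
theorem eventually_of_inverse {Y : Type*} [TopologicalSpace Y] {P : Y → Prop} (f g : Y → Y)
    (hf : Continuous f) (hg : Continuous g) (hfg : ∀ y, f (g y) = y) (hgf : ∀ y, g (f y) = y)
    (h : ∀ᶠ y in residual Y, P y) : ∀ᶠ y in residual Y, P (f y) := by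
  refine (tendsto_residual_of_isOpenMap hf ?_).eventually h
  intro U hU
  rw [Set.image_eq_preimage_of_inverse (g := g) hgf hfg]
  exact hU.preimage hg

theorem continuous_xr {Y : Type*} [TopologicalSpace Y] {f g : Y → X} (hf : Continuous f)
    (hg : Continuous g) : Continuous fun y => xr (f y) (g y) := by
  refine continuous_pi fun n => ?_
  unfold xr
  have h1 : Continuous fun y => f y n := (continuous_apply n).comp hf
  have h2 : Continuous fun y => g y n := (continuous_apply n).comp hg
  exact (continuous_of_discreteTopology (f := fun p : Bool × Bool => xor p.1 p.2)).comp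
    (h1.prodMk h2)

theorem xr_xr_cancel (x d : X) : xr (xr x d) d = x := by
  funext n
  simp [xr]

/-- translations -/
theorem eventually_xr {P : X → Prop} (d : X) (h : ∀ᶠ x in residual X, P x) :
    ∀ᶠ x in residual X, P (xr x d) :=
  eventually_of_inverse (fun x => xr x d) (fun x => xr x d)
    (continuous_xr continuous_id continuous_const)
    (continuous_xr continuous_id continuous_const)
    (fun x => xr_xr_cancel x d) (fun x => xr_xr_cancel x d) h

/-- translation of the first coordinate of pairs -/
theorem eventually_xr_fst {P : X × X → Prop} (d : X) (h : ∀ᶠ x in residual (X × X), P x) :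
    ∀ᶠ w in residual (X × X), P (xr w.1 d, w.2) :=
  eventually_of_inverse (fun w : X × X => (xr w.1 d, w.2)) (fun w => (xr w.1 d, w.2))
    ((continuous_xr continuous_fst continuous_const).prodMk continuous_snd)
    ((continuous_xr continuous_fst continuous_const).prodMk continuous_snd)
    (fun w => by simp only [xr_xr_cancel]) (fun w => by simp only [xr_xr_cancel]) h

/-- an affine change of variables on pairs -/
theorem eventually_xr2 {P : X × X → Prop} (d : X) (h : ∀ᶠ x in residual (X × X), P x) :
    ∀ᶠ w in residual (X × X), P (xr w.1 w.2, xr w.2 d) :=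
  eventually_of_inverse (fun w : X × X => (xr w.1 w.2, xr w.2 d))
    (fun w => (xr w.1 (xr w.2 d), xr w.2 d))
    ((continuous_xr continuous_fst continuous_snd).prodMk
      (continuous_xr continuous_snd continuous_const))
    ((continuous_xr continuous_fst (continuous_xr continuous_snd continuous_const)).prodMk
      (continuous_xr continuous_snd continuous_const))
    (fun w => by simp only [xr_xr_cancel]) (fun w => by simp only [xr_xr_cancel]) h

theorem eventually_fst {P : X → Prop} (h : ∀ᶠ x in residual X, P x) :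
    ∀ᶠ w in residual (X × X), P w.1 :=
  (tendsto_residual_of_isOpenMap continuous_fst isOpenMap_fst).eventually h

theorem eventually_snd {P : X → Prop} (h : ∀ᶠ x in residual X, P x) :
    ∀ᶠ w in residual (X × X), P w.2 :=
  (tendsto_residual_of_isOpenMap continuous_snd isOpenMap_snd).eventually h

/-- replace the first `n` coordinates by those of `p` -/
def glue (p : ℕ → X) (n : ℕ) (y : ℕ → X) : ℕ → X := fun i => if i < n then p i else y i

theorem continuous_glue (p : ℕ → X) (n : ℕ) : Continuous (glue p n) := by
  refine continuous_pi fun i => ?_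
  unfold glue
  by_cases h : i < n
  · simp only [if_pos h]
    exact continuous_const
  · simp only [if_neg h]
    exact continuous_apply _

theorem isOpenMap_update (n : ℕ) :
    IsOpenMap (fun q : X × (ℕ → X) => Function.update q.2 n q.1) := by
  rw [isOpenMap_iff_nhds_le]
  rintro ⟨t, y⟩
  rw [nhds_prod_eq]
  intro S hS
  rw [Filter.mem_map, Filter.mem_prod_iff] at hS
  obtain ⟨V1, hV1, V2, hV2, hV⟩ := hS
  have h1 : ∀ᶠ z in 𝓝 (Function.update y n t), z n ∈ V1 := by
    have : Filter.Tendsto (fun z : ℕ → X => z n) (𝓝 (Function.update y n t)) (𝓝 t) := by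
      have h := (continuous_apply (A := fun _ : ℕ => X) n).tendsto (Function.update y n t)
      simpa using h
    exact this hV1
  have h2 : ∀ᶠ z in 𝓝 (Function.update y n t), Function.update z n (y n) ∈ V2 := by
    have hc : Continuous fun z : ℕ → X => Function.update z n (y n) :=
      continuous_id.update n continuous_const
    have h := hc.tendsto (Function.update y n t)
    have h3 : Function.update (Function.update y n t) n (y n) = y := by
      simp
    rw [h3] at h
    exact h hV2
  filter_upwards [h1, h2] with z hz1 hz2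
  have := hV (mk_mem_prod hz1 hz2)
  simpa using this

/-- one step of the fusion -/
theorem glue_step (p : ℕ → X) (n : ℕ) {P : (ℕ → X) → Prop}
    (h : ∀ᶠ y in residual (ℕ → X), P (glue p n y)) :
    ∀ᶠ t in residual X, ∀ᶠ y in residual (ℕ → X), P (glue (Function.update p n t) (n + 1) y) := by
  have hc : Continuous (fun q : X × (ℕ → X) => Function.update q.2 n q.1) :=
    continuous_snd.update n continuous_fst
  have h1 := (tendsto_residual_of_isOpenMap hc (isOpenMap_update n)).eventually h
  have h2 := ku h1
  filter_upwards [h2] with t ht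
  filter_upwards [ht] with y hy
  have : glue (Function.update p n t) (n + 1) y = glue p n (Function.update y n t) := by
    funext i
    unfold glue
    by_cases hi : i < n
    · rw [if_pos (by omega), if_pos hi, Function.update_of_ne (by omega)]
    · rw [if_neg hi]
      by_cases hin : i = n
      · subst hin
        simp
      · rw [if_neg (by omega), Function.update_of_ne hin]
  rw [this]
  exact hy

/-- A product of everywhere nonmeagre sets is nonmeagre in every nonempty open set. -/
theorem not_meagre_pi (A : ℕ → Set X) (hA : ∀ n, ENM (A n) univ) :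
    ENM {x : ℕ → X | ∀ n, x n ∈ A n} univ := by
  intro U hU hUn _ hm
  -- a sequence of dense open sets
  obtain ⟨D, hDo, hDd, hD⟩ : ∃ D : ℕ → Set (ℕ → X), (∀ m, IsOpen (D m)) ∧ (∀ m, Dense (D m)) ∧
      ∀ x, (∀ m, x ∈ D m) → x ∉ {x : ℕ → X | ∀ n, x n ∈ A n} ∩ U := by
    have h1 : ({x : ℕ → X | ∀ n, x n ∈ A n} ∩ U)ᶜ ∈ residual (ℕ → X) := hm
    rw [mem_residual_iff] at h1
    obtain ⟨S, hSo, hSd, hSc, hSP⟩ := h1
    rcases S.eq_empty_or_nonempty with rfl | hSn
    · refine ⟨fun _ => univ, fun _ => isOpen_univ, fun _ => dense_univ, fun x _ => ?_⟩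
      exact hSP (by simp)
    · obtain ⟨D, rfl⟩ := hSc.exists_eq_range hSn
      exact ⟨D, fun m => hSo _ ⟨m, rfl⟩, fun m => hSd _ ⟨m, rfl⟩, fun x hx =>
        hSP (mem_sInter.2 (by rintro _ ⟨m, rfl⟩; exact hx m))⟩
  let P : (ℕ → X) → Prop := fun z => ∀ m, z ∈ D m
  have hP : ∀ᶠ z in residual (ℕ → X), P z :=
    eventually_countable_forall.2 fun m => residual_of_dense_open (hDo m) (hDd m)
  let Good : ℕ → (ℕ → X) × Set (ℕ → X) → Prop := fun n s =>
    IsOpen s.2 ∧ (∃ y, glue s.1 n y ∈ s.2) ∧ ∀ᶠ y in residual (ℕ → X), P (glue s.1 n y)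
  have step : ∀ n s, Good n s → ∃ s', Good (n + 1) s' ∧ closure s'.2 ⊆ s.2 ∩ D n ∧
      s'.1 n ∈ A n ∧ ∀ i, i < n → s'.1 i = s.1 i := by
    rintro n ⟨p, O⟩ ⟨hO, hy, hPp⟩
    simp only at hO hy hPp
    -- a point in `O ∩ D n`
    obtain ⟨y0, hy0, hy0'⟩ := exists_mem_of_ev (hO.preimage (continuous_glue p n)) hy
      (P := fun y => P (glue p n y)) (hPp.mono fun y h _ => h)
    obtain ⟨T, hT, hTc, hTO⟩ := exists_mem_nhds_isClosed_subset
      ((hO.inter (hDo n)).mem_nhds ⟨hy0, hy0' n⟩)
    have hint : glue p n y0 ∈ interior T := mem_interior_iff_mem_nhds.2 hT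
    -- the open set of admissible values of coordinate `n`
    have hVo : IsOpen {t : X | glue p n (Function.update y0 n t) ∈ interior T} :=
      isOpen_interior.preimage ((continuous_glue p n).comp (continuous_const.update n continuous_id))
    have hVn : {t : X | glue p n (Function.update y0 n t) ∈ interior T}.Nonempty :=
      ⟨y0 n, by simpa using hint⟩
    obtain ⟨t, ⟨htA, htV⟩, htP⟩ := ((hA n).mono (A' := A n) inter_subset_left
      (subset_univ {t : X | glue p n (Function.update y0 n t) ∈ interior T})).exists_mem hVo hVn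
      ((glue_step p n hPp).mono fun t h _ => h)
    refine ⟨(Function.update p n t, interior T), ⟨isOpen_interior, ⟨y0, ?_⟩, htP⟩, ?_, ?_, ?_⟩
    · simp only
      have : glue (Function.update p n t) (n + 1) y0 = glue p n (Function.update y0 n t) := by
        funext i
        unfold glue
        by_cases hi : i < n
        · rw [if_pos (by omega), if_pos hi, Function.update_of_ne (by omega)]
        · rw [if_neg hi]
          by_cases hin : i = n
          · subst hin
            simp
          · rw [if_neg (by omega), Function.update_of_ne hin]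
      rw [this]
      exact htV
    · exact (closure_minimal interior_subset hTc).trans hTO
    · simpa using htA
    · intro i hi
      simp only
      rw [Function.update_of_ne (by omega)]
  choose! next hnext using step
  obtain ⟨u0, hu0⟩ := hUn
  let s : ℕ → (ℕ → X) × Set (ℕ → X) := fun n => Nat.rec (u0, U) (fun n s => next n s) n
  have hgood : ∀ n, Good n (s n) := by
    intro n
    induction n with
    | zero =>
      refine ⟨hU, ⟨u0, ?_⟩, ?_⟩
      · have : glue u0 0 u0 = u0 := by funext i; simp [glue]
        show glue u0 0 u0 ∈ U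
        rw [this]
        exact hu0
      · have : ∀ y : ℕ → X, glue u0 0 y = y := fun y => by funext i; simp [glue]
        show ∀ᶠ y in residual (ℕ → X), P (glue u0 0 y)
        filter_upwards [hP] with y hy
        rw [this]
        exact hy
    | succ n ih => exact (hnext n (s n) ih).1
  have hcl : ∀ n, closure (s (n + 1)).2 ⊆ (s n).2 ∩ D n := fun n => (hnext n (s n) (hgood n)).2.1
  have hmem : ∀ n, (s (n + 1)).1 n ∈ A n := fun n => (hnext n (s n) (hgood n)).2.2.1
  have hag : ∀ n i, i < n → (s (n + 1)).1 i = (s n).1 i :=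
    fun n => (hnext n (s n) (hgood n)).2.2.2
  let x : ℕ → X := fun n => (s (n + 1)).1 n
  have hx : ∀ n i, i < n → (s n).1 i = x i := by
    intro n
    induction n with
    | zero => intro i hi; omega
    | succ n ih =>
      intro i hi
      rcases Nat.lt_succ_iff_lt_or_eq.mp hi with h | h
      · rw [hag n i h, ih i h]
      · subst h; rfl
  -- points of the open sets converging to `x`
  have hz : ∀ n, ∃ z ∈ (s n).2, ∀ i, i < n → z i = x i := by
    intro n
    obtain ⟨-, ⟨y, hy⟩, -⟩ := hgood n
    refine ⟨_, hy, fun i hi => ?_⟩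
    unfold glue
    rw [if_pos hi]
    exact hx n i hi
  choose z hz hzx using hz
  have hlim : Filter.Tendsto z atTop (𝓝 x) := by
    rw [tendsto_pi_nhds]
    intro i
    apply tendsto_const_nhds.congr'
    filter_upwards [eventually_gt_atTop i] with n hn
    exact (hzx n i hn).symm
  have hmono : ∀ n m, n ≤ m → (s m).2 ⊆ (s n).2 := by
    intro n m hnm
    induction m, hnm using Nat.le_induction with
    | base => exact Subset.rfl
    | succ m _ ih =>
      exact (subset_closure.trans ((hcl m).trans inter_subset_left)).trans ih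
  have hxc : ∀ n, x ∈ closure (s n).2 := by
    intro n
    apply mem_closure_of_tendsto hlim
    filter_upwards [eventually_ge_atTop n] with m hm
    exact hmono n m hm (hz m)
  refine hD x (fun m => (hcl m (hxc (m + 1))).2) ⟨fun n => hmem n, ?_⟩
  exact (hcl 0 (hxc 1)).1

/-! ### Measurability of reducibility -/

theorem measurable_jn {α : Type*} [MeasurableSpace α] {f g : α → X} (hf : Measurable f)
    (hg : Measurable g) : Measurable (fun a => jn (f a) (g a)) := by
  refine measurable_pi_lambda _ fun n => ?_
  unfold jn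
  by_cases h : n % 2 = 0
  · simp only [if_pos h]
    exact (measurable_pi_apply _).comp hf
  · simp only [if_neg h]
    exact (measurable_pi_apply _).comp hg

theorem continuous_cd : Continuous cd :=
  continuous_pi fun _ => (continuous_apply _).comp (continuous_apply _)

theorem measurable_cd : Measurable cd :=
  measurable_pi_lambda _ fun _ => (measurable_pi_apply _).comp (measurable_pi_apply _)

theorem measurableSet_pre {α : Type*} [MeasurableSpace α] {f : α → X} (hf : Measurable f)
    (k : ℕ) (τ : List Bool) : MeasurableSet {a | pre (f a) k = τ} := by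
  by_cases hτ : τ.length = k
  · have : {a | pre (f a) k = τ} = ⋂ i ∈ Finset.range k, {a | f a i = τ.getD i false} := by
      ext a
      simp only [mem_ofPred_eq, Finset.mem_range, mem_iInter]
      constructor
      · rintro h i hi
        rw [← h, getD_pre _ _ _ hi]
      · intro h
        apply List.ext_getElem?
        intro i
        rw [getElem?_pre]
        by_cases hi : i < k
        · rw [if_pos hi, h i hi, List.getD_eq_getElem?_getD]
          rw [List.getElem?_eq_getElem (by omega)]
          rfl
        · rw [if_neg hi]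
          symm
          simp only [List.getElem?_eq_none_iff]
          omega
    rw [this]
    refine Finset.measurableSet_biInter _ fun i _ => ?_
    exact ((measurable_pi_apply i).comp hf) (measurableSet_singleton _)
  · have : {a | pre (f a) k = τ} = ∅ := by
      ext a
      simp only [mem_ofPred_eq, mem_empty_iff_false, iff_false]
      rintro rfl
      simp at hτ
    rw [this]
    exact MeasurableSet.empty

theorem measurableSet_of_pre {α : Type*} [MeasurableSpace α] {f : α → X} (hf : Measurable f)
    (k : ℕ) {Q : List Bool → α → Prop} (hQ : ∀ τ, MeasurableSet {a | Q τ a}) :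
    MeasurableSet {a | Q (pre (f a) k) a} := by
  have : {a | Q (pre (f a) k) a} = ⋃ τ : List Bool, {a | pre (f a) k = τ} ∩ {a | Q τ a} := by
    ext a
    simp
  rw [this]
  exact MeasurableSet.iUnion fun τ => (measurableSet_pre hf k τ).inter (hQ τ)

theorem measurableSet_rel {α : Type*} [MeasurableSpace α] {F : List Bool → List Bool}
    {f g : α → X} (hf : Measurable f) (hg : Measurable g) :
    MeasurableSet {a | Rel F (f a) (g a)} := by
  unfold Rel
  refine MeasurableSet.inter (s₁ := {a | ∀ k i b, (F (pre (f a) k))[i]? = some b → g a i = b})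
    (s₂ := {a | ∀ n, ∃ K, ∀ k, K ≤ k → n < (F (pre (f a) k)).length}) ?_ ?_
  · simp only [ofPred_forall]
    refine MeasurableSet.iInter fun k => MeasurableSet.iInter fun i => MeasurableSet.iInter
      fun b => ?_
    apply measurableSet_of_pre (Q := fun τ a => (F τ)[i]? = some b → g a i = b) hf k
    intro τ
    by_cases h : (F τ)[i]? = some b
    · simp only [h, true_implies]
      exact ((measurable_pi_apply i).comp hg) (measurableSet_singleton _)
    · simp only [h, false_implies]
      exact MeasurableSet.univ
  · simp only [ofPred_forall, ofPred_exists]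
    refine MeasurableSet.iInter fun n => MeasurableSet.iUnion fun K => MeasurableSet.iInter
      fun k => MeasurableSet.iInter fun _ => ?_
    apply measurableSet_of_pre (Q := fun τ a => n < (F τ).length) hf k
    intro τ
    exact MeasurableSet.const _

theorem measurableSet_tle {α : Type*} [MeasurableSpace α] {f g : α → X} (hf : Measurable f)
    (hg : Measurable g) : MeasurableSet {a | TLE (f a) (g a)} := by
  have : {a | TLE (f a) (g a)} = ⋃ i, {a | Rel (en i) (g a) (f a)} := by
    ext a
    simp only [mem_ofPred_eq, mem_iUnion]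
    exact tle_iff_en
  rw [this]
  exact MeasurableSet.iUnion fun i => measurableSet_rel hg hf

/-! ### Elimination of generic parameters -/

/-- If comeagrely many `h` in a cylinder compute `r` with the help of `y` by one functional, then
`r` is reducible to `y`. -/
theorem tle_of_rel {r y : X} {F : List Bool → List Bool} (hF : Primrec F) (a : X) (k : ℕ)
    (h : ∀ᶠ c in residual X, Rel F (jn y (ins a k c)) r) : TLE r y := by
  have hil : ∀ (c : X) (m l : ℕ), il (pre y m) (pre a k ++ pre c l) =
      pre (jn y (ins a k c)) (2 * min m (k + l)) := by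
    intro c m l
    have h1 : pre a k ++ pre c l = pre (ins a k c) (k + l) := by
      have := (Rel.ins a k c).pre_eq l
      simp only [List.length_append, length_pre] at this
      exact this
    rw [h1, il_pre]
  apply TLE.of_search (fun s τ => F (il s (pre a k ++ τ)))
  · exact hF.comp (primrec_il.comp Primrec.fst
      (Primrec.list_append.comp (Primrec.const (pre a k)) Primrec.snd))
  · intro m τ i b hb
    have hne : {c : X | ∀ i, i < τ.length → c i = (fun j => τ.getD j false) i}.Nonempty :=
      ⟨fun j => τ.getD j false, fun i _ => rfl⟩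
    obtain ⟨c, hc, hc'⟩ := exists_mem_of_ev (isOpen_agree (fun j => τ.getD j false) τ.length) hne
      (h.mono fun c hc _ => hc)
    have h1 : pre c τ.length = τ := by
      apply List.ext_getElem?
      intro j
      rw [getElem?_pre]
      by_cases hj : j < τ.length
      · rw [if_pos hj, hc j hj]
        simp [hj]
      · rw [if_neg hj]
        symm
        simpa using hj
    rw [← h1, hil] at hb
    exact hc'.1 _ i b hb
  · intro i
    obtain ⟨c, -, hc⟩ := exists_mem_of_ev (isOpen_univ (X := X)) univ_nonempty
      (h.mono fun c hc _ => hc)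
    obtain ⟨K, hK⟩ := hc.2 i
    refine ⟨pre c K, K, fun m hm => ?_⟩
    rw [hil]
    exact hK _ (by omega)

/-- If nonmeagrely many `h` compute `r` with the help of `y`, then `r` is reducible to `y`. -/
theorem tle_of_not_meagre {r y : X} (h : ¬ IsMeagre {c : X | TLE r (jn y c)}) : TLE r y := by
  have h1 : ∃ i, ¬ IsMeagre {c : X | Rel (en i) (jn y c) r} := by
    by_contra hcon
    push Not at hcon
    apply h
    have h2 : ∀ᶠ c in residual X, ∀ i, c ∉ {c : X | Rel (en i) (jn y c) r} :=
      eventually_countable_forall.2 fun i => isMeagre_iff_ev.1 (hcon i)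
    rw [isMeagre_iff_ev]
    filter_upwards [h2] with c hc hc'
    obtain ⟨i, hi⟩ := tle_iff_en.1 hc'
    exact hc i hi
  obtain ⟨i, hi⟩ := h1
  obtain ⟨U, hU, hUn, hUB⟩ := exists_open_of_not_meagre
    (measurableSet_rel (measurable_jn measurable_const measurable_id) measurable_const) hi
  obtain ⟨a, k, hak⟩ := exists_ins hU hUn
  apply tle_of_rel (primrec_en i) a k
  filter_upwards [eventually_ins a k hUB] with w hw
  exact hw (hak w)

theorem tle_of_eventually {r y : X} (h : ∀ᶠ c in residual X, TLE r (jn y c)) : TLE r y := by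
  apply tle_of_not_meagre
  intro hm
  obtain ⟨c, -, hc, hc'⟩ := exists_mem_of_ev (isOpen_univ (X := X)) univ_nonempty
    (P := fun c => TLE r (jn y c) ∧ ¬ TLE r (jn y c))
    (by filter_upwards [h, isMeagre_iff_ev.1 hm] with c h1 h2 _ using ⟨h1, h2⟩)
  exact hc' hc

/-- the search used in `exists_code_of_measurable` -/
def codeBit (s : List Bool) (n : ℕ) : Option Bool :=
  ((List.range s.length).filterMap fun j =>
    if (odds s)[Nat.pair (Nat.pair n 1) (Encodable.encode ((evens s).take j))]? = some true then
      some true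
    else if (odds s)[Nat.pair (Nat.pair n 0) (Encodable.encode ((evens s).take j))]? = some true
      then some false
    else none).head?

theorem primrec_codeBit : Primrec₂ codeBit := by
  unfold codeBit
  refine Primrec.list_head?.comp (Primrec.listFilterMap
    (Primrec.list_range.comp (Primrec.list_length.comp Primrec.fst)) ?_)
  have hs : Primrec (fun p : (List Bool × ℕ) × ℕ => p.1.1) := Primrec.fst.comp Primrec.fst
  have hn : Primrec (fun p : (List Bool × ℕ) × ℕ => p.1.2) := Primrec.snd.comp Primrec.fst
  have hc : ∀ b : ℕ, PrimrecPred (fun p : (List Bool × ℕ) × ℕ =>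
      (odds p.1.1)[Nat.pair (Nat.pair p.1.2 b) (Encodable.encode ((evens p.1.1).take p.2))]?
        = some true) := by
    intro b
    refine Primrec.eq.comp (Primrec.list_getElem?.comp (primrec_odds.comp hs) ?_) (Primrec.const _)
    refine Primrec₂.natPair.comp (Primrec₂.natPair.comp hn (Primrec.const b)) ?_
    exact Primrec.encode.comp (Primrec.list_take.comp Primrec.snd (primrec_evens.comp hs))
  exact Primrec.ite (hc 1) (Primrec.const _) (Primrec.ite (hc 0) (Primrec.const _)
    (Primrec.const _))

/-- Borel maps are reducible to their argument together with one fixed real, comeagrely often. -/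
theorem exists_code_of_measurable {F : X → X} (hF : Measurable F) :
    ∃ Z : X, ∀ᶠ x in residual X, TLE (F x) (jn x Z) := by
  classical
  have h1 : ∀ (n : ℕ) (b : Bool), ∃ U : Set X, IsOpen U ∧
      ∀ᶠ x in residual X, F x n = b ↔ x ∈ U := by
    intro n b
    have hm : MeasurableSet {x : X | F x n = b} :=
      ((measurable_pi_apply n).comp hF) (measurableSet_singleton b)
    obtain ⟨U, hU, hUB⟩ := hm.residualEq_isOpen
    refine ⟨U, hU, ?_⟩
    filter_upwards [hUB] with x hx
    exact ⟨hx.mp, hx.mpr⟩
  choose U hU hUF using h1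
  let Z : X := fun m => decide (∀ x : X, pre x ((Encodable.decode (α := List Bool)
    m.unpair.2).getD []).length = (Encodable.decode (α := List Bool) m.unpair.2).getD [] →
      x ∈ U m.unpair.1.unpair.1 (m.unpair.1.unpair.2 == 1))
  have hZ : ∀ n b τ, Z (Nat.pair (Nat.pair n b) (Encodable.encode τ)) = true ↔
      ∀ x : X, pre x τ.length = τ → x ∈ U n (b == 1) := by
    intro n b τ
    simp [Z]
  refine ⟨Z, ?_⟩
  have h2 : ∀ᶠ x in residual X, ∀ n b, F x n = b ↔ x ∈ U n b :=
    eventually_countable_forall.2 fun n => eventually_countable_forall.2 fun b => hUF n b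
  filter_upwards [h2] with x hx
  have hev : ∀ m, ∃ l, evens (pre (jn x Z) m) = pre x l := fun m => ⟨_, (Rel.evens x Z).pre_eq m⟩
  have hod : ∀ m, ∃ l, odds (pre (jn x Z) m) = pre Z l := fun m => ⟨_, (Rel.odds x Z).pre_eq m⟩
  have htake : ∀ l j, ∃ l', (pre x l).take j = pre x l' := by
    intro l j
    by_cases h : j ≤ l
    · exact ⟨j, take_pre x h⟩
    · exact ⟨l, List.take_of_length_le (by rw [length_pre]; omega)⟩
  have hsound : ∀ m j n b, (odds (pre (jn x Z) m))[Nat.pair (Nat.pair n b)
      (Encodable.encode ((evens (pre (jn x Z) m)).take j))]? = some true → F x n = (b == 1) := by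
    intro m j n b h
    obtain ⟨l, hl⟩ := hev m
    obtain ⟨l2, hl2⟩ := hod m
    obtain ⟨l3, hl3⟩ := htake l j
    rw [hl, hl2, hl3, getElem?_pre_eq_some, hZ] at h
    rw [hx]
    exact h.2 x (by rw [length_pre])
  apply TLE.of_bits codeBit primrec_codeBit
  · intro m n b h
    unfold codeBit at h
    have h3 := List.mem_of_mem_head? h
    rw [List.mem_filterMap] at h3
    obtain ⟨j, -, hj⟩ := h3
    split_ifs at hj with c1 c2
    · have := hsound m j n 1 c1
      simp at hj
      rw [this, hj]
      rfl
    · have := hsound m j n 0 c2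
      simp at hj
      rw [this, hj]
      rfl
  · intro n
    obtain ⟨j, hj⟩ := exists_cyl (hU n (F x n)) ((hx n _).1 rfl)
    set b : ℕ := if F x n then 1 else 0 with hb
    have hb' : (b == 1) = F x n := by
      rw [hb]
      cases F x n <;> simp
    set N := Nat.pair (Nat.pair n b) (Encodable.encode (pre x j)) with hN
    have hZN : Z N = true := by
      rw [hN, hZ, hb']
      intro y hy
      apply hj
      intro i hi
      rw [length_pre] at hy
      have := congrArg (fun s => s.getD i false) hy
      rwa [getD_pre _ _ _ hi, getD_pre _ _ _ hi] at this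
    obtain ⟨K1, hK1⟩ := (Rel.evens x Z).2 j
    obtain ⟨K2, hK2⟩ := (Rel.odds x Z).2 N
    refine ⟨max (j + 1) (max K1 K2), fun m hm => ?_⟩
    have hm1 := hK1 m (by omega)
    have hm2 := hK2 m (by omega)
    unfold codeBit
    rw [List.isSome_head?]
    have hev' : (evens (pre (jn x Z) m)).take j = pre x j := by
      rw [(Rel.evens x Z).pre_eq m]
      exact take_pre x hm1.le
    have hod' : (odds (pre (jn x Z) m))[N]? = some true := by
      rw [(Rel.odds x Z).pre_eq m, getElem?_pre_eq_some]
      exact ⟨hm2, hZN⟩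
    have hne : ∃ v, v ∈ ((List.range (pre (jn x Z) m).length).filterMap fun j =>
        if (odds (pre (jn x Z) m))[Nat.pair (Nat.pair n 1)
          (Encodable.encode ((evens (pre (jn x Z) m)).take j))]? = some true then
          some true
        else if (odds (pre (jn x Z) m))[Nat.pair (Nat.pair n 0)
          (Encodable.encode ((evens (pre (jn x Z) m)).take j))]? = some true
          then some false
        else none) := by
      refine ⟨if (odds (pre (jn x Z) m))[Nat.pair (Nat.pair n 1)
          (Encodable.encode ((evens (pre (jn x Z) m)).take j))]? = some true then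
          true else false, ?_⟩
      rw [List.mem_filterMap]
      refine ⟨j, ?_, ?_⟩
      · rw [List.mem_range, length_pre]
        omega
      · rw [hev']
        split_ifs with c1 c2
        · rfl
        · rfl
        · exfalso
          rw [hN] at hod'
          by_cases hF' : F x n = true
          · apply c1
            rw [← hod', hb, if_pos hF']
          · apply c2
            rw [← hod', hb, if_neg hF']
    obtain ⟨v, hv⟩ := hne
    exact List.ne_nil_of_mem hv

end P327
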