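import Vale.Agent.P327.Strings

/-!
Cantor space: cylinders, measurability of reducibility, elimination of generic parameters,
and codes for measurable maps.  (The general category facts used here are taken from Mathlib.)
-/

open Filter Topology Set

namespace P327.CatB

/-! ### Cylinders -/

/-- The cylinder of a string. -/
def cyl (t : List Bool) : Set X := {x | ∀ i b, t[i]? = some b → x i = b}

theorem mem_cyl_pre {x y : X} {k : ℕ} : y ∈ cyl (pre x k) ↔ ∀ i, i < k → y i = x i := by
  constructor
  · intro h i hi
    exact h i (x i) (getElem?_pre_eq_some.mpr ⟨hi, rfl⟩)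
  · intro h i b hb
    rw [getElem?_pre_eq_some] at hb
    rw [h i hb.1, hb.2]

theorem self_mem_cyl (x : X) (k : ℕ) : x ∈ cyl (pre x k) := mem_cyl_pre.mpr fun _ _ => rfl

theorem isOpen_cyl (t : List Bool) : IsOpen (cyl t) := by
  have : cyl t = (↑(Finset.range t.length) : Set ℕ).pi (fun i => {t.getD i false}) := by
    ext x
    simp only [cyl, Set.mem_ofPred_eq, Set.mem_pi, Finset.coe_range, Set.mem_Iio,
      Set.mem_singleton_iff]
    constructor
    · intro h i hi
      rw [List.getD_eq_getElem?_getD, List.getElem?_eq_getElem hi]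
      exact h i _ (List.getElem?_eq_getElem hi)
    · intro h i b hb
      obtain ⟨hi, hb'⟩ := List.getElem?_eq_some_iff.mp hb
      rw [h i hi, List.getD_eq_getElem?_getD, hb]
      rfl
  rw [this]
  exact isOpen_set_pi (Finset.finite_toSet _) (fun _ _ => isOpen_discrete _)

theorem nonempty_cyl (t : List Bool) : (cyl t).Nonempty := by
  refine ⟨fun i => t.getD i false, fun i b hb => ?_⟩
  simp only
  rw [List.getD_eq_getElem?_getD, hb]
  rfl

/-- Open sets are unions of cylinders. -/
theorem exists_cyl_subset {U : Set X} (hU : IsOpen U) {x : X} (hx : x ∈ U) :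
    ∃ k, cyl (pre x k) ⊆ U := by
  rw [isOpen_pi_iff] at hU
  obtain ⟨I, u, hu, hIU⟩ := hU x hx
  refine ⟨I.sup id + 1, fun y hy => hIU fun i hi => ?_⟩
  have hi' : i < I.sup id + 1 := Nat.lt_succ_of_le (Finset.le_sup (f := id) hi)
  rw [mem_cyl_pre.mp hy i hi']
  exact (hu i hi).2

theorem exists_mem_of_eventually {P : X → Prop} (h : ∀ᶠ x in residual X, P x) {U : Set X}
    (hU : IsOpen U) (hne : U.Nonempty) : ∃ x ∈ U, P x := by
  obtain ⟨x, hx, hx'⟩ := (dense_of_mem_residual h).inter_open_nonempty U hU hne
  exact ⟨x, hx, hx'⟩

/-! ### Measurability of reducibility -/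

theorem measurable_jn {α : Type*} [MeasurableSpace α] {f g : α → X} (hf : Measurable f)
    (hg : Measurable g) : Measurable (fun a => jn (f a) (g a)) := by
  rw [measurable_pi_iff] at hf hg ⊢
  intro n
  unfold jn
  by_cases h : n % 2 = 0
  · simp only [h, if_true]; exact hf _
  · simp only [h, if_false]; exact hg _

theorem continuous_cd : Continuous cd := by
  apply continuous_pi
  intro p
  unfold cd
  exact (continuous_apply _).comp (continuous_apply _)

theorem measurable_cd : Measurable cd := by
  rw [measurable_pi_iff]
  intro p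
  unfold cd
  exact (measurable_pi_apply _).comp (measurable_pi_apply _)

theorem measurableSet_bit {α : Type*} [MeasurableSpace α] {f : α → X} (hf : Measurable f) (i : ℕ)
    (Q : Bool → Prop) : MeasurableSet {a | Q (f a i)} :=
  ((measurable_pi_apply i).comp hf) (MeasurableSpace.measurableSet_top (s := {b | Q b}))

theorem measurableSet_pre_eq {α : Type*} [MeasurableSpace α] {f : α → X} (hf : Measurable f)
    (k : ℕ) (t : List Bool) : MeasurableSet {a | pre (f a) k = t} := by
  have h : {a | pre (f a) k = t} = ⋂ i : ℕ, {a | (pre (f a) k)[i]? = t[i]?} := by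
    ext a
    simp only [Set.mem_ofPred_eq, Set.mem_iInter]
    exact ⟨fun h i => by rw [h], fun h => List.ext_getElem? h⟩
  rw [h]
  refine MeasurableSet.iInter fun i => ?_
  simp only [getElem?_pre]
  by_cases hi : i < k
  · simp only [hi, if_true]
    exact measurableSet_bit hf i (fun b => some b = t[i]?)
  · simp only [hi, if_false]
    exact MeasurableSet.const _

/-- A property of initial segments is measurable. -/
theorem measurableSet_pre {α : Type*} [MeasurableSpace α] {f : α → X} (hf : Measurable f) (k : ℕ)
    (Q : List Bool → Prop) : MeasurableSet {a | Q (pre (f a) k)} := by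
  have h : {a | Q (pre (f a) k)} = ⋃ t : List Bool, {a | pre (f a) k = t ∧ Q t} := by
    ext a
    simp only [Set.mem_ofPred_eq, Set.mem_iUnion]
    exact ⟨fun h => ⟨_, rfl, h⟩, fun ⟨t, h, h'⟩ => h ▸ h'⟩
  rw [h]
  refine MeasurableSet.iUnion fun t => ?_
  exact (measurableSet_pre_eq hf k t).inter (MeasurableSet.const _)

theorem measurableSet_rel {α : Type*} [MeasurableSpace α] {F : List Bool → List Bool}
    {f g : α → X} (hf : Measurable f) (hg : Measurable g) :
    MeasurableSet {a | Rel F (f a) (g a)} := by
  have h : {a | Rel F (f a) (g a)} =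
      (⋂ k : ℕ, ⋂ i : ℕ, ⋂ b : Bool, {a | (F (pre (f a) k))[i]? = some b → g a i = b}) ∩
      (⋂ n : ℕ, ⋃ K : ℕ, ⋂ k : ℕ, {a | K ≤ k → n < (F (pre (f a) k)).length}) := by
    ext a
    simp only [Rel, Set.mem_ofPred_eq, Set.mem_inter_iff, Set.mem_iInter, Set.mem_iUnion]
  rw [h]
  refine MeasurableSet.inter ?_ ?_
  · refine MeasurableSet.iInter fun k => MeasurableSet.iInter fun i =>
      MeasurableSet.iInter fun b => ?_
    have h2 : {a | (F (pre (f a) k))[i]? = some b → g a i = b} =
        {a | (F (pre (f a) k))[i]? = some b}ᶜ ∪ {a | g a i = b} := by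
      ext a
      simp only [Set.mem_ofPred_eq, Set.mem_union, Set.mem_compl_iff]
      tauto
    rw [h2]
    exact (measurableSet_pre hf k (fun t => (F t)[i]? = some b)).compl.union
      (measurableSet_bit hg i (fun c => c = b))
  · refine MeasurableSet.iInter fun n => MeasurableSet.iUnion fun K =>
      MeasurableSet.iInter fun k => ?_
    exact measurableSet_pre hf k (fun t => K ≤ k → n < (F t).length)

theorem measurableSet_tle {α : Type*} [MeasurableSpace α] {f g : α → X} (hf : Measurable f)
    (hg : Measurable g) : MeasurableSet {a | TLE (f a) (g a)} := by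
  have h : {a | TLE (f a) (g a)} = ⋃ i : ℕ, {a | Rel (en i) (g a) (f a)} := by
    ext a
    simp only [Set.mem_ofPred_eq, Set.mem_iUnion]
    exact tle_iff_en
  rw [h]
  exact MeasurableSet.iUnion fun i => measurableSet_rel hg hf

/-! ### Elimination of generic parameters -/

theorem pre_ins_of_agree {a c : X} {k : ℕ} {t : List Bool}
    (h : ∀ i b, t[i]? = some b → c i = b) : pre a k ++ t = pre (ins a k c) (k + t.length) := by
  apply List.ext_getElem?
  intro i
  rw [List.getElem?_append, getElem?_pre, getElem?_pre, length_pre]
  simp only [ins]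
  by_cases h1 : i < k
  · rw [if_pos h1, if_pos h1, if_pos (by omega), if_pos h1]
  · rw [if_neg h1, if_neg h1]
    by_cases h2 : i < k + t.length
    · rw [if_pos h2]
      have h3 : i - k < t.length := by omega
      rw [h (i - k) _ (List.getElem?_eq_getElem h3), List.getElem?_eq_getElem h3]
    · rw [if_neg h2]
      exact List.getElem?_eq_none (by omega)

/-- If densely many `c` compute `r` with the help of `y` by one functional, then `r` is
reducible to `y`. -/
theorem tle_of_dense {r y : X} {F : List Bool → List Bool} (hF : Primrec F) (a : X) (k : ℕ)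
    (h : ∀ t : List Bool, ∃ c : X, (∀ i b, t[i]? = some b → c i = b) ∧
      Rel F (jn y (ins a k c)) r) : TLE r y := by
  apply TLE.of_search (fun s t => F (il s (pre a k ++ t)))
  · exact hF.comp (primrec_il.comp Primrec.fst
      (Primrec.list_append.comp (Primrec.const _) Primrec.snd))
  · intro m t i b hb
    obtain ⟨c, hc, hr⟩ := h t
    rw [pre_ins_of_agree hc, il_pre] at hb
    exact hr.1 _ _ _ hb
  · intro i
    obtain ⟨c, -, hr⟩ := h []
    obtain ⟨K, hK⟩ := hr.2 i
    refine ⟨pre c K, k + K, fun m hm => ?_⟩
    have hc : ∀ i b, (pre c K)[i]? = some b → c i = b := fun i b hb =>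
      (getElem?_pre_eq_some.mp hb).2
    rw [pre_ins_of_agree hc, il_pre, length_pre]
    apply hK
    omega

/-- If comeagrely many `h` in a cylinder compute `r` with the help of `y` by one functional, then
`r` is reducible to `y`. -/
theorem tle_of_rel {r y : X} {F : List Bool → List Bool} (hF : Primrec F) (a : X) (k : ℕ)
    (h : ∀ᶠ c in residual X, Rel F (jn y (ins a k c)) r) : TLE r y := by
  apply tle_of_dense hF a k
  intro t
  obtain ⟨c, hc, hc'⟩ := exists_mem_of_eventually h (isOpen_cyl t) (nonempty_cyl t)
  exact ⟨c, hc, hc'⟩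

/-- If nonmeagrely many `h` compute `r` with the help of `y`, then `r` is reducible to `y`. -/
theorem tle_of_not_meagre {r y : X} (h : ¬ IsMeagre {c : X | TLE r (jn y c)}) : TLE r y := by
  have h1 : {c : X | TLE r (jn y c)} = ⋃ i : ℕ, {c | Rel (en i) (jn y c) r} := by
    ext a
    simp only [Set.mem_ofPred_eq, Set.mem_iUnion]
    exact tle_iff_en
  rw [h1] at h
  have h2 : ∃ i, ¬ IsMeagre {c | Rel (en i) (jn y c) r} := by
    by_contra hcon
    push Not at hcon
    exact h (isMeagre_iUnion hcon)
  obtain ⟨i, hi⟩ := h2
  have hm : MeasurableSet {c : X | Rel (en i) (jn y c) r} :=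
    measurableSet_rel (measurable_jn measurable_const measurable_id) measurable_const
  obtain ⟨U, hU, hBU⟩ := hm.residualEq_isOpen
  have hev : ∀ᶠ c in residual X, (Rel (en i) (jn y c) r ↔ c ∈ U) := by
    filter_upwards [hBU] with c hc
    exact Iff.of_eq hc
  have hne : U.Nonempty := by
    by_contra hcon
    rw [Set.not_nonempty_iff_eq_empty] at hcon
    apply hi
    subst hcon
    filter_upwards [hev] with c hc
    intro hc'
    exact (hc.mp hc').elim
  obtain ⟨x, hx⟩ := hne
  obtain ⟨k, hk⟩ := exists_cyl_subset hU hx
  apply tle_of_dense (primrec_en i) x k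
  intro t
  obtain ⟨c, hc, hc'⟩ := exists_mem_of_eventually hev (isOpen_cyl (pre x k ++ t))
    (nonempty_cyl _)
  have hcU : c ∈ U := by
    apply hk
    intro i b hb
    apply hc
    rw [List.getElem?_append, getElem?_pre_eq_some.mp hb |>.1 |> fun h => if_pos (by simpa using h)]
    exact hb
  refine ⟨fun n => c (n + k), fun i b hb => ?_, ?_⟩
  · apply hc
    rw [List.getElem?_append, if_neg (by simp)]
    simpa using hb
  · have : ins x k (fun n => c (n + k)) = c := by
      funext n
      simp only [ins]
      split_ifs with hn
      · symm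
        apply hc
        rw [List.getElem?_append, if_pos (by simpa using hn)]
        exact getElem?_pre_eq_some.mpr ⟨hn, rfl⟩
      · congr 1; omega
    rw [this]
    exact hc'.mpr hcU

theorem tle_of_eventually {r y : X} (h : ∀ᶠ c in residual X, TLE r (jn y c)) : TLE r y :=
  tle_of_not_meagre (not_isMeagre_of_mem_residual h)

/-! ### Codes for measurable maps -/

/-- The bit function that reads the answers off a table `Z` of cylinders. -/
def tabBit (s : List Bool) (p : ℕ) : Option Bool :=
  ((List.range (s.length + 1)).filterMap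
    (fun j => if (odds s)[Encodable.encode (p, true, (evens s).take j)]? = some true then some true
      else if (odds s)[Encodable.encode (p, false, (evens s).take j)]? = some true
        then some false else none)).head?

theorem primrec_tabBit : Primrec₂ tabBit := by
  unfold tabBit
  refine Primrec.list_head?.comp (Primrec.listFilterMap
    (Primrec.list_range.comp (Primrec.succ.comp (Primrec.list_length.comp Primrec.fst))) ?_)
  have key : ∀ b : Bool, PrimrecPred (fun q : (List Bool × ℕ) × ℕ =>
      (odds q.1.1)[Encodable.encode (q.1.2, b, (evens q.1.1).take q.2)]? = some true) := by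
    intro b
    refine Primrec.eq.comp (Primrec.list_getElem?.comp
      (primrec_odds.comp (Primrec.fst.comp Primrec.fst)) (Primrec.encode.comp
        (Primrec.pair (Primrec.snd.comp Primrec.fst) (Primrec.pair (Primrec.const b)
          (Primrec.list_take.comp Primrec.snd
            (primrec_evens.comp (Primrec.fst.comp Primrec.fst))))))) (Primrec.const _)
  exact Primrec.ite (key true) (Primrec.const _) (Primrec.ite (key false) (Primrec.const _)
    (Primrec.const _))

/-- Borel maps are reducible to their argument together with one fixed real, comeagrely often. -/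
theorem exists_code_of_measurable {F : X → X} (hF : Measurable F) :
    ∃ Z : X, ∀ᶠ x in residual X, TLE (F x) (jn x Z) := by
  classical
  have h1 : ∀ (n : ℕ) (b : Bool), ∃ U : Set X, IsOpen U ∧ ∀ᶠ x in residual X,
      (F x n = b ↔ x ∈ U) := by
    intro n b
    obtain ⟨U, hU, hBU⟩ := (measurableSet_bit hF n (fun c => c = b)).residualEq_isOpen
    refine ⟨U, hU, ?_⟩
    filter_upwards [hBU] with c hc
    exact Iff.of_eq hc
  choose U hU hUF using h1
  have h2 : ∀ᶠ x in residual X, ∀ n b, (F x n = b ↔ x ∈ U n b) := by
    rw [eventually_countable_forall]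
    intro n
    rw [eventually_countable_forall]
    exact fun b => hUF n b
  let Z : X := fun e => match Encodable.decode (α := ℕ × Bool × List Bool) e with
    | some q => decide (cyl q.2.2 ⊆ U q.1 q.2.1)
    | none => false
  have hZ : ∀ q : ℕ × Bool × List Bool, Z (Encodable.encode q) =
      decide (cyl q.2.2 ⊆ U q.1 q.2.1) := by
    intro q
    simp only [Z, Encodable.encodek]
  refine ⟨Z, ?_⟩
  filter_upwards [h2] with x hx
  -- a positive entry of the table gives the right bit
  have hsound : ∀ p b j, Z (Encodable.encode (p, b, pre x j)) = true → F x p = b := by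
    intro p b j hj
    rw [hZ, decide_eq_true_iff] at hj
    exact (hx p b).mpr (hj (self_mem_cyl x j))
  have hpe : ∀ k j, ∃ j', (evens (pre (jn x Z) k)).take j = pre x j' := by
    intro k j
    rw [(Rel.evens x Z).pre_eq k]
    by_cases hj : j ≤ (evens (pre (jn x Z) k)).length
    · exact ⟨j, take_pre x hj⟩
    · refine ⟨_, List.take_of_length_le ?_⟩
      rw [length_pre]
      omega
  have hpo : ∀ k i b, (odds (pre (jn x Z) k))[i]? = some b → Z i = b := fun k i b hb =>
    (Rel.odds x Z).1 k i b hb
  apply TLE.of_bits tabBit primrec_tabBit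
  · intro k p b hb
    unfold tabBit at hb
    have hb' := List.mem_of_mem_head? hb
    rw [List.mem_filterMap] at hb'
    obtain ⟨j, -, hv⟩ := hb'
    obtain ⟨j', hj'⟩ := hpe k j
    rw [hj'] at hv
    split_ifs at hv with hc1 hc2
    · obtain rfl : true = b := by simpa using hv
      exact hsound p true j' (hpo _ _ _ hc1)
    · obtain rfl : false = b := by simpa using hv
      exact hsound p false j' (hpo _ _ _ hc2)
  · intro p
    have hxU : x ∈ U p (F x p) := (hx p (F x p)).mp rfl
    obtain ⟨j, hj⟩ := exists_cyl_subset (hU p (F x p)) hxU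
    obtain ⟨K1, hK1⟩ := (Rel.evens x Z).2 j
    obtain ⟨K2, hK2⟩ := (Rel.odds x Z).2 (Encodable.encode (p, F x p, pre x j))
    refine ⟨max (max K1 K2) j, fun k hk => ?_⟩
    have hk1 := hK1 k (le_trans (le_trans (le_max_left _ _) (le_max_left _ _)) hk)
    have hk2 := hK2 k (le_trans (le_trans (le_max_right _ _) (le_max_left _ _)) hk)
    have hk3 : j ≤ k := le_trans (le_max_right _ _) hk
    have htake : (evens (pre (jn x Z) k)).take j = pre x j := by
      rw [(Rel.evens x Z).pre_eq k]
      exact take_pre x hk1.le
    have hval : (odds (pre (jn x Z) k))[Encodable.encode (p, F x p, pre x j)]? = some true := by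
      rw [List.getElem?_eq_getElem hk2]
      have h3 := hpo k _ _ (List.getElem?_eq_getElem hk2)
      rw [← h3, hZ, decide_eq_true_iff.mpr hj]
    unfold tabBit
    rw [List.isSome_head?]
    have hsome : ∃ b, (if (odds (pre (jn x Z) k))[Encodable.encode (p, true,
        (evens (pre (jn x Z) k)).take j)]? = some true then some true
      else if (odds (pre (jn x Z) k))[Encodable.encode (p, false,
        (evens (pre (jn x Z) k)).take j)]? = some true
        then some false else none) = some b := by
      rw [htake]
      cases hb : F x p with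
      | true =>
        rw [hb] at hval
        exact ⟨true, by rw [if_pos hval]⟩
      | false =>
        rw [hb] at hval
        by_cases h4 : (odds (pre (jn x Z) k))[Encodable.encode (p, true, pre x j)]? = some true
        · exact ⟨true, by rw [if_pos h4]⟩
        · exact ⟨false, by rw [if_neg h4, if_pos hval]⟩
    obtain ⟨b, hb⟩ := hsome
    apply List.ne_nil_of_mem (a := b)
    rw [List.mem_filterMap]
    refine ⟨j, ?_, hb⟩
    rw [List.mem_range, length_pre]
    omega

end P327.CatB
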