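import Vale.Agent.P327.Defs

/-!
Products of everywhere nonmeagre sets: self-contained version.
-/

open Filter Topology Set

namespace P327

theorem exists_cylX {G : Set X} (hG : IsOpen G) {c : X} (hc : c ∈ G) :
    ∃ m, ∀ y : X, (∀ j < m, y j = c j) → y ∈ G := by
  rw [isOpen_pi_iff] at hG
  obtain ⟨I, u, hu, hsub⟩ := hG c hc
  refine ⟨I.sup id + 1, fun y hy => hsub fun i hi => ?_⟩
  have : i ≤ I.sup id := Finset.le_sup (f := id) hi
  rw [hy i (by omega)]
  exact (hu i hi).2

theorem exists_cyl {G : Set (ℕ → X)} (hG : IsOpen G) {c : ℕ → X} (hc : c ∈ G) :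
    ∃ m, ∀ y : ℕ → X, (∀ i < m, ∀ j < m, y i j = c i j) → y ∈ G := by
  rw [isOpen_pi_iff] at hG
  obtain ⟨I, u, hu, hsub⟩ := hG c hc
  have h1 : ∀ i, ∃ m, i ∈ I → ∀ y : X, (∀ j < m, y j = c i j) → y ∈ u i := by
    intro i
    by_cases hi : i ∈ I
    · obtain ⟨m, hm⟩ := exists_cylX (hu i hi).1 (hu i hi).2
      exact ⟨m, fun _ => hm⟩
    · exact ⟨0, fun h => absurd h hi⟩
  choose f hf using h1
  refine ⟨I.sup id + I.sup f + 1, fun y hy => hsub fun i hi => ?_⟩
  have h2 : i ≤ I.sup id := Finset.le_sup (f := id) hi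
  have h3 : f i ≤ I.sup f := Finset.le_sup hi
  exact hf i hi _ fun j hj => hy i (by omega) j (by omega)

theorem isOpen_cylX (c : X) (m : ℕ) : IsOpen {y : X | ∀ j < m, y j = c j} := by
  have : {y : X | ∀ j < m, y j = c j} = ⋂ j ∈ Finset.range m, (fun y : X => y j) ⁻¹' {c j} := by
    ext y; simp
  rw [this]
  exact isOpen_biInter_finset fun j _ => (isOpen_discrete _).preimage (continuous_apply j)

theorem isOpen_cyl (c : ℕ → X) (m : ℕ) : IsOpen {y : ℕ → X | ∀ i < m, ∀ j < m, y i j = c i j} := by
  have : {y : ℕ → X | ∀ i < m, ∀ j < m, y i j = c i j} =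
      ⋂ i ∈ Finset.range m, (fun y : ℕ → X => y i) ⁻¹' {y : X | ∀ j < m, y j = c i j} := by
    ext y; simp
  rw [this]
  exact isOpen_biInter_finset fun i _ => (isOpen_cylX _ _).preimage (continuous_apply i)

/-- Kuratowski-Ulam for one coordinate of an infinite product. -/
theorem ku_coord {H : Set (ℕ → X)} (hH : IsOpen H) (hd : Dense H) (k : ℕ) :
    ∀ᶠ a in residual X, Dense {y : ℕ → X | Function.update y k a ∈ H} := by
  have key : ∀ B ∈ TopologicalSpace.countableBasis (ℕ → X),
      ∀ᶠ a in residual X, ∃ y ∈ B, Function.update y k a ∈ H := by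
    intro B hB
    have hBo := TopologicalSpace.isOpen_of_mem_countableBasis hB
    have hBne := TopologicalSpace.nonempty_of_mem_countableBasis hB
    have ho : IsOpen {a : X | ∃ y ∈ B, Function.update y k a ∈ H} := by
      have : {a : X | ∃ y ∈ B, Function.update y k a ∈ H} =
          ⋃ y ∈ B, (fun a : X => Function.update y k a) ⁻¹' H := by
        ext a; simp
      rw [this]
      refine isOpen_biUnion fun y _ => hH.preimage ?_
      exact continuous_const.update k continuous_id
    refine residual_of_dense_open ho ?_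
    rw [dense_iff_inter_open]
    intro W hW hWne
    obtain ⟨w, hw⟩ := hWne
    obtain ⟨b, hb⟩ := hBne
    have ho' : IsOpen ({z : ℕ → X | z k ∈ W} ∩ ⋃ d : X, (fun z : ℕ → X => Function.update z k d) ⁻¹' B) := by
      refine (hW.preimage (continuous_apply k)).inter (isOpen_iUnion fun d => hBo.preimage ?_)
      exact continuous_id.update k continuous_const
    obtain ⟨z, ⟨hz1, hz2⟩, hz3⟩ := hd.inter_open_nonempty _ ho'
      ⟨Function.update b k w, by simpa using hw, by
        simp only [mem_iUnion, mem_preimage, Function.update_idem]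
        exact ⟨b k, by simpa using hb⟩⟩
    simp only [mem_iUnion, mem_preimage] at hz2
    obtain ⟨d, hd'⟩ := hz2
    exact ⟨z k, hz1, Function.update z k d, hd', by simpa using hz3⟩
  have := (eventually_countable_ball
    (TopologicalSpace.countable_countableBasis (ℕ → X))).2 key
  filter_upwards [this] with a ha
  rw [(TopologicalSpace.isBasis_countableBasis (ℕ → X)).dense_iff]
  intro o ho hne
  obtain ⟨y, hy, hy'⟩ := ha o ho
  exact ⟨y, hy, hy'⟩

/-- `splice k c y` is `c` before `k` and `y` from `k` on. -/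
def splice (k : ℕ) (c y : ℕ → X) : ℕ → X := fun n => if n < k then c n else y n

theorem continuous_splice (k : ℕ) (c : ℕ → X) : Continuous (splice k c) := by
  refine continuous_pi fun n => ?_
  unfold splice
  by_cases h : n < k
  · simp only [h, if_true]; exact continuous_const
  · simp only [h, if_false]; exact continuous_apply n

/-- one step of the construction -/
theorem pi_step {G : ℕ → Set (ℕ → X)} (hG : ∀ n, IsOpen (G n)) {B : Set X}
    (hB : ∀ U : Set X, IsOpen U → U.Nonempty → ¬ IsMeagre (B ∩ U)) (k : ℕ) (c : ℕ → X) (m : ℕ)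
    (hd : ∀ n, Dense {y | splice k c y ∈ G n}) :
    ∃ (c' : ℕ → X) (m' : ℕ), m ≤ m' ∧ (∀ i < k, c' i = c i) ∧
      (∀ i < m, ∀ j < m, c' i j = c i j) ∧ c' k ∈ B ∧
      (∀ n, Dense {y | splice (k + 1) c' y ∈ G n}) ∧
      (∀ y : ℕ → X, (∀ i < m', ∀ j < m', y i j = c' i j) → y ∈ G k) := by
  -- get into `G k`
  obtain ⟨y0, hy0, hy0'⟩ := (hd k).inter_open_nonempty _ (isOpen_cyl c m) ⟨c, by simp⟩
  set c1 := splice k c y0 with hc1
  have hc1G : c1 ∈ G k := hy0'
  have hc1k : ∀ i < k, c1 i = c i := by
    intro i hi; simp [hc1, splice, hi]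
  have hc1m : ∀ i < m, ∀ j < m, c1 i j = c i j := by
    intro i hi j hj
    by_cases h : i < k
    · rw [hc1k i h]
    · simp only [hc1, splice, h, if_false]
      exact hy0 i hi j hj
  obtain ⟨m0, hm0⟩ := exists_cyl (hG k) hc1G
  -- choose the next coordinate
  have hku : ∀ᶠ a in residual X, ∀ n,
      Dense {y : ℕ → X | Function.update y k a ∈ {y | splice k c y ∈ G n}} := by
    rw [eventually_countable_forall]
    intro n
    exact ku_coord ((hG n).preimage (continuous_splice k c)) (hd n) k
  have hnm := hB {a : X | ∀ j < m + m0, a j = c1 k j} (isOpen_cylX _ _) ⟨c1 k, by simp⟩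
  have : ∃ a ∈ B ∩ {a : X | ∀ j < m + m0, a j = c1 k j}, ∀ n,
      Dense {y : ℕ → X | Function.update y k a ∈ {y | splice k c y ∈ G n}} := by
    by_contra hcon
    push Not at hcon
    apply hnm
    refine IsMeagre.mono (s := {a | ∀ n, Dense {y : ℕ → X |
      Function.update y k a ∈ {y | splice k c y ∈ G n}}}ᶜ) ?_ ?_
    · intro a ha hcon'
      obtain ⟨n, hn⟩ := hcon a ha
      exact hn (hcon' n)
    · rw [IsMeagre, compl_compl]; exact hku
  obtain ⟨a, ⟨haB, ham⟩, had⟩ := this
  refine ⟨Function.update c1 k a, m + m0, by omega, ?_, ?_, by simpa using haB, ?_, ?_⟩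
  · intro i hi
    rw [Function.update_of_ne (by omega), hc1k i hi]
  · intro i hi j hj
    by_cases h : i = k
    · subst h
      rw [Function.update_self, ham j (by omega), hc1m i hi j hj]
    · rw [Function.update_of_ne h, hc1m i hi j hj]
  · intro n
    have heq : ∀ y, splice (k + 1) (Function.update c1 k a) y =
        splice k c (Function.update y k a) := by
      intro y
      ext i : 1
      unfold splice
      rcases lt_trichotomy i k with h | h | h
      · rw [if_pos (by omega), if_pos h, Function.update_of_ne (by omega), hc1k i h]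
      · subst h
        simp
      · rw [if_neg (by omega), if_neg (by omega), Function.update_of_ne (by omega)]
    simp only [heq]
    exact had n
  · intro y hy
    apply hm0
    intro i hi j hj
    rw [hy i (by omega) j (by omega)]
    by_cases h : i = k
    · subst h
      rw [Function.update_self, ham j (by omega)]
    · rw [Function.update_of_ne h]

/-- A product of everywhere nonmeagre sets is nonmeagre in every nonempty open set. -/
theorem not_meagre_pi' (A : ℕ → Set X)
    (hA : ∀ n, ∀ U : Set X, IsOpen U → U.Nonempty → ¬ IsMeagre (A n ∩ U))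
    (U : Set (ℕ → X)) (hU : IsOpen U) (hne : U.Nonempty) :
    ¬ IsMeagre ({x : ℕ → X | ∀ n, x n ∈ A n} ∩ U) := by
  intro hmeagre
  rw [IsMeagre, mem_residual_iff] at hmeagre
  obtain ⟨S, hSo, hSd, hSc, hSsub⟩ := hmeagre
  -- enumerate the dense open sets
  obtain ⟨G, hG⟩ : ∃ G : ℕ → Set (ℕ → X), insert univ S = range G :=
    (hSc.insert univ).exists_eq_range ⟨univ, by simp⟩
  have hGo : ∀ n, IsOpen (G n) := by
    intro n
    have : G n ∈ insert univ S := by rw [hG]; exact mem_range_self n
    rcases this with h | h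
    · rw [h]; exact isOpen_univ
    · exact hSo _ h
  have hGd : ∀ n, Dense (G n) := by
    intro n
    have : G n ∈ insert univ S := by rw [hG]; exact mem_range_self n
    rcases this with h | h
    · rw [h]; exact dense_univ
    · exact hSd _ h
  obtain ⟨c0, hc0⟩ := hne
  obtain ⟨m0, hm0⟩ := exists_cyl hU hc0
  -- the construction
  let St := fun k : ℕ => {p : (ℕ → X) × ℕ // ∀ n, Dense {y | splice k p.1 y ∈ G n}}
  have hstep : ∀ k, ∀ p : St k, ∃ p' : St (k + 1), p.1.2 ≤ p'.1.2 ∧
      (∀ i < k, p'.1.1 i = p.1.1 i) ∧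
      (∀ i < p.1.2, ∀ j < p.1.2, p'.1.1 i j = p.1.1 i j) ∧ p'.1.1 k ∈ A k ∧
      (∀ y : ℕ → X, (∀ i < p'.1.2, ∀ j < p'.1.2, y i j = p'.1.1 i j) → y ∈ G k) := by
    intro k p
    obtain ⟨c', m', h1, h2, h3, h4, h5, h6⟩ := pi_step hGo (hA k) k p.1.1 p.1.2 p.2
    exact ⟨⟨(c', m'), h5⟩, h1, h2, h3, h4, h6⟩
  choose nxt hn1 hn2 hn3 hn4 hn5 using hstep
  let st : ∀ k, St k := fun k => Nat.rec (motive := fun k => St k)
    ⟨(c0, m0), by
      intro n
      have : ∀ y, splice 0 c0 y = y := fun y => by
        ext i : 1; simp [splice]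
      simp only [this]
      exact hGd n⟩ (fun k p => nxt k p) k
  have hst : ∀ k, st (k + 1) = nxt k (st k) := fun k => rfl
  have hmono : Monotone fun k => (st k).1.2 := monotone_nat_of_le_succ fun k => by
    rw [hst]; exact hn1 k (st k)
  have hfix : ∀ i k, i + 1 ≤ k → (st k).1.1 i = (st (i + 1)).1.1 i := by
    intro i k hk
    induction k, hk using Nat.le_induction with
    | base => rfl
    | succ k hk ih => rw [hst, hn2 k (st k) i (by omega), ih]
  have hag : ∀ k k', k ≤ k' → ∀ i < (st k).1.2, ∀ j < (st k).1.2,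
      (st k').1.1 i j = (st k).1.1 i j := by
    intro k k' hk
    induction k', hk using Nat.le_induction with
    | base => intro i _ j _; rfl
    | succ k' hk ih =>
      intro i hi j hj
      have := hmono hk
      simp only at this
      rw [hst, hn3 k' (st k') i (by omega) j (by omega), ih i hi j hj]
  let x : ℕ → X := fun i => (st (i + 1)).1.1 i
  have hx : ∀ k, ∀ i < (st k).1.2, ∀ j < (st k).1.2, x i j = (st k).1.1 i j := by
    intro k i hi j hj
    have h1 : x i = (st (max (i + 1) k)).1.1 i := (hfix i _ (le_max_left _ _)).symm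
    rw [h1, hag k _ (le_max_right _ _) i hi j hj]
  have hxA : ∀ n, x n ∈ A n := fun n => by
    change (st (n + 1)).1.1 n ∈ A n
    rw [hst]; exact hn4 n (st n)
  have hxU : x ∈ U := hm0 x fun i hi j hj => hx 0 i hi j hj
  have hxG : ∀ n, x ∈ G n := fun n => hn5 n (st n) x fun i hi j hj => by
    rw [← hst]; exact hx (n + 1) i (by rw [hst]; exact hi) j (by rw [hst]; exact hj)
  have hxS : x ∈ ⋂₀ S := by
    intro s hs
    have : s ∈ range G := by rw [← hG]; exact mem_insert_of_mem _ hs
    obtain ⟨n, rfl⟩ := this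
    exact hxG n
  exact hSsub hxS ⟨hxA, hxU⟩

end P327
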