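import Vale.Agent.P327.Strings

/-!
Coding a real by the set of indices of an independent sequence computable from another real.
-/

namespace P327

/-! ### Tables -/

/-- Look up the value of a table at `n` from a finite piece of the oracle. -/
def lookT (s : List Bool) (n : ℕ) : Option ℕ :=
  ((List.range s.length).filterMap
    (fun v => (s[2 * Nat.pair 1 (Nat.pair n v) + 1]?).bind
      (fun b => if b = true then some v else none))).head?

theorem primrec_lookT : Primrec₂ lookT := by
  unfold lookT
  refine Primrec.list_head?.comp (Primrec.listFilterMap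
    (Primrec.list_range.comp (Primrec.list_length.comp Primrec.fst)) ?_)
  refine Primrec.option_bind (Primrec.list_getElem?.comp (Primrec.fst.comp Primrec.fst)
    (Primrec.succ.comp (Primrec.nat_mul.comp (Primrec.const 2)
      (Primrec₂.natPair.comp (Primrec.const 1)
        (Primrec₂.natPair.comp (Primrec.snd.comp Primrec.fst) Primrec.snd))))) ?_
  exact Primrec.ite (Primrec.eq.comp Primrec.snd (Primrec.const true))
    (Primrec.option_some.comp (Primrec.snd.comp Primrec.fst)) (Primrec.const none)

/-- Iterate a table along a real. -/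
def iterT (s : List Bool) (i : ℕ) : Option ℕ :=
  Nat.rec (motive := fun _ => Option ℕ) (some 0)
    (fun j o => o.bind fun st => (s[2 * j]?).bind fun b => lookT s (Nat.pair st b.toNat)) i

theorem primrec_iterT : Primrec₂ iterT := by
  unfold iterT
  refine Primrec.nat_rec (f := fun _ : List Bool => (some 0 : Option ℕ))
    (g := fun (s : List Bool) (q : ℕ × Option ℕ) => q.2.bind fun st =>
      (s[2 * q.1]?).bind fun b => lookT s (Nat.pair st b.toNat)) (Primrec.const _) ?_
  refine Primrec.option_bind (Primrec.snd.comp Primrec.snd) ?_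
  refine Primrec.option_bind (Primrec.list_getElem?.comp (Primrec.fst.comp Primrec.fst)
    (Primrec.nat_mul.comp (Primrec.const 2)
      (Primrec.fst.comp (Primrec.snd.comp Primrec.fst)))) ?_
  refine primrec_lookT.comp (Primrec.fst.comp (Primrec.fst.comp Primrec.fst)) ?_
  exact Primrec₂.natPair.comp (Primrec.snd.comp Primrec.fst)
    ((Primrec.dom_finite Bool.toNat).comp Primrec.snd)

/-- The oracle coding a table `T` and a read-out `E`. -/
noncomputable def tab (T : ℕ → ℕ) (E : ℕ → Bool) : X := fun m =>
  if m.unpair.1 = 0 then E m.unpair.2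
  else decide (T m.unpair.2.unpair.1 = m.unpair.2.unpair.2)

theorem jn_odd (x y : X) (n : ℕ) : jn x y (2 * n + 1) = y n := by
  have h1 : (2 * n + 1) % 2 = 1 := by omega
  have h2 : (2 * n + 1) / 2 = n := by omega
  simp [jn, h1, h2]

theorem jn_even (x y : X) (n : ℕ) : jn x y (2 * n) = x n := by
  simp [jn]

theorem lookT_sound {T : ℕ → ℕ} {E : ℕ → Bool} {B : X} {k n v : ℕ}
    (h : lookT (pre (jn B (tab T E)) k) n = some v) : T n = v := by
  unfold lookT at h
  have := List.mem_of_mem_head? h
  rw [List.mem_filterMap] at this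
  obtain ⟨c, -, hc⟩ := this
  rw [Option.bind_eq_some_iff] at hc
  obtain ⟨b, hb, hbc⟩ := hc
  rw [getElem?_pre_eq_some] at hb
  have hb2 := hb.2
  rw [jn_odd] at hb2
  split_ifs at hbc with hbt
  simp only [Option.some.injEq] at hbc
  subst hbc
  rw [hbt] at hb2
  simpa [tab] using hb2

theorem lookT_exist (T : ℕ → ℕ) (E : ℕ → Bool) (B : X) (n : ℕ) :
    ∃ K, ∀ k, K ≤ k → lookT (pre (jn B (tab T E)) k) n = some (T n) := by
  refine ⟨2 * Nat.pair 1 (Nat.pair n (T n)) + 2 + T n, fun k hk => ?_⟩
  have h1 : (lookT (pre (jn B (tab T E)) k) n).isSome := by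
    unfold lookT
    rw [List.isSome_head?]
    apply List.ne_nil_of_mem (a := T n)
    rw [List.mem_filterMap]
    refine ⟨T n, ?_, ?_⟩
    · rw [List.mem_range, length_pre]; omega
    · rw [getElem?_pre, if_pos (by omega), jn_odd]
      simp [tab]
  obtain ⟨v, hv⟩ := Option.isSome_iff_exists.mp h1
  rw [hv, lookT_sound hv]

/-- The states of the iteration of a table. -/
def stT (T : ℕ → ℕ) (B : X) (i : ℕ) : ℕ :=
  Nat.rec (motive := fun _ => ℕ) 0 (fun s st => T (Nat.pair st (B s).toNat)) i

theorem stT_succ (T : ℕ → ℕ) (B : X) (i : ℕ) :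
    stT T B (i + 1) = T (Nat.pair (stT T B i) (B i).toNat) := rfl

theorem iterT_succ (s : List Bool) (i : ℕ) :
    iterT s (i + 1) = (iterT s i).bind fun st =>
      (s[2 * i]?).bind fun b => lookT s (Nat.pair st b.toNat) := rfl

theorem iterT_sound {T : ℕ → ℕ} {E : ℕ → Bool} {B : X} {k : ℕ} : ∀ {i v : ℕ},
    iterT (pre (jn B (tab T E)) k) i = some v → stT T B i = v := by
  intro i
  induction i with
  | zero => intro v h; simpa [iterT, stT] using h
  | succ i ih =>
    intro v h
    rw [iterT_succ, Option.bind_eq_some_iff] at h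
    obtain ⟨st, hst, h⟩ := h
    rw [Option.bind_eq_some_iff] at h
    obtain ⟨b, hb, h⟩ := h
    rw [getElem?_pre_eq_some] at hb
    have hb2 := hb.2
    rw [jn_even] at hb2
    rw [stT_succ, ih hst, hb2]
    exact lookT_sound h

theorem iterT_exist (T : ℕ → ℕ) (E : ℕ → Bool) (B : X) (i : ℕ) :
    ∃ K, ∀ k, K ≤ k → iterT (pre (jn B (tab T E)) k) i = some (stT T B i) := by
  induction i with
  | zero => exact ⟨0, fun k _ => rfl⟩
  | succ i ih =>
    obtain ⟨K1, hK1⟩ := ih
    obtain ⟨K2, hK2⟩ := lookT_exist T E B (Nat.pair (stT T B i) (B i).toNat)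
    refine ⟨max (max K1 K2) (2 * i + 1), fun k hk => ?_⟩
    rw [iterT_succ, hK1 k (by omega)]
    simp only [Option.bind_some]
    rw [getElem?_pre, if_pos (by omega), jn_even]
    simp only [Option.bind_some]
    rw [hK2 k (by omega), stT_succ]

theorem exists_table (T : ℕ → ℕ) (E : ℕ → Bool) : ∃ R : X, ∀ B : X,
    TLE (fun p => E (Nat.pair p (stT T B (p + 1)))) (jn B R) := by
  refine ⟨tab T E, fun B => ?_⟩
  apply TLE.of_bits (fun s p => (iterT s (p + 1)).bind fun st =>
    s[2 * Nat.pair 0 (Nat.pair p st) + 1]?)
  · refine Primrec.option_bind (primrec_iterT.comp Primrec.fst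
      (Primrec.succ.comp Primrec.snd)) ?_
    exact Primrec.list_getElem?.comp (Primrec.fst.comp Primrec.fst)
      (Primrec.succ.comp (Primrec.nat_mul.comp (Primrec.const 2)
        (Primrec₂.natPair.comp (Primrec.const 0)
          (Primrec₂.natPair.comp (Primrec.snd.comp Primrec.fst) Primrec.snd))))
  · intro k p b h
    rw [Option.bind_eq_some_iff] at h
    obtain ⟨st, hst, h⟩ := h
    rw [getElem?_pre_eq_some] at h
    have h2 := h.2
    rw [jn_odd] at h2
    rw [iterT_sound hst, ← h2]
    simp [tab]
  · intro p
    obtain ⟨K, hK⟩ := iterT_exist T E B (p + 1)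
    refine ⟨max K (2 * Nat.pair 0 (Nat.pair p (stT T B (p + 1))) + 2), fun k hk => ?_⟩
    rw [hK k (by omega)]
    simp only [Option.bind_some]
    rw [getElem?_pre, if_pos (by omega)]
    rfl

/-! ### Locks -/

/-- `Resp g L σ τ`: `τ` extends `σ`, and every new position in a locked column (a column `m` with
`L[m] = true`) agrees with `g`. -/
def Resp (g : X) (L σ τ : List Bool) : Prop :=
  σ <+: τ ∧ ∀ p, σ.length ≤ p → p < τ.length → L[p.unpair.1]? = some true → τ[p]? = some (g p)

theorem Resp.refl (g : X) (L σ : List Bool) : Resp g L σ σ :=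
  ⟨List.prefix_refl σ, fun p h1 h2 _ => absurd h2 (by omega)⟩

theorem Resp.trans {g : X} {L L' σ τ υ : List Bool} (hL : L <+: L') (h : Resp g L σ τ)
    (h' : Resp g L' τ υ) : Resp g L σ υ := by
  refine ⟨h.1.trans h'.1, fun p h1 h2 h3 => ?_⟩
  by_cases hp : p < τ.length
  · have h4 := h.2 p h1 hp h3
    obtain ⟨r, rfl⟩ := h'.1
    rw [List.getElem?_append_left hp]
    exact h4
  · apply h'.2 p (by omega) h2
    obtain ⟨r, rfl⟩ := hL
    have hlt : p.unpair.1 < L.length := by
      by_contra hc
      rw [List.getElem?_eq_none (by omega)] at h3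
      simp at h3
    rw [List.getElem?_append_left hlt]
    exact h3

open Classical in
/-- The choice of an extension at a stage. -/
noncomputable def ext (G : ℕ → X) (L σ : List Bool) (b : Bool) : List Bool :=
  if h : (L ++ [b])[L.length.unpair.2]? = some false ∧
      ∃ τ, Resp (cd G) L σ τ ∧ ∃ i c, (en L.length.unpair.1 τ)[i]? = some c ∧
        c ≠ G L.length.unpair.2 i then h.2.choose
  else σ

theorem ext_resp (G : ℕ → X) (L σ : List Bool) (b : Bool) : Resp (cd G) L σ (ext G L σ b) := by
  unfold ext
  split_ifs with h
  · exact h.2.choose_spec.1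
  · exact Resp.refl _ _ _

theorem ext_spec {G : ℕ → X} {L σ : List Bool} {b : Bool} {e n : ℕ}
    (hL : L.length = Nat.pair e n) (h : (L ++ [b])[n]? = some false)
    (h2 : ∃ τ, Resp (cd G) L σ τ ∧ ∃ i c, (en e τ)[i]? = some c ∧ c ≠ G n i) :
    ∃ i c, (en e (ext G L σ b))[i]? = some c ∧ c ≠ G n i := by
  have he : L.length.unpair.1 = e := by rw [hL, Nat.unpair_pair]
  have hn : L.length.unpair.2 = n := by rw [hL, Nat.unpair_pair]
  subst he
  subst hn
  have hc := And.intro h h2
  unfold ext
  rw [dif_pos hc]
  exact hc.2.choose_spec.2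

open Classical in
/-- One stage of the construction. -/
noncomputable def stp (G : ℕ → X) (q : List Bool × List Bool) (b : Bool) :
    List Bool × List Bool :=
  (q.1 ++ [b], ext G q.1 q.2 b ++
    [if q.1[(ext G q.1 q.2 b).length.unpair.1]? = some true
      then cd G (ext G q.1 q.2 b).length else false])

/-- The states of the construction. -/
noncomputable def sts (G : ℕ → X) (B : X) (i : ℕ) : List Bool × List Bool :=
  Nat.rec (motive := fun _ => List Bool × List Bool) ([], []) (fun s q => stp G q (B s)) i

theorem sts_succ (G : ℕ → X) (B : X) (i : ℕ) : sts G B (i + 1) = stp G (sts G B i) (B i) := rfl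

theorem pre_succ (x : X) (k : ℕ) : pre x (k + 1) = pre x k ++ [x k] := by
  simp [pre, List.range_succ]

theorem sts_fst (G : ℕ → X) (B : X) (i : ℕ) : (sts G B i).1 = pre B i := by
  induction i with
  | zero => rfl
  | succ i ih => rw [sts_succ, pre_succ, ← ih]; rfl

theorem pre_prefix (x : X) {k l : ℕ} (h : k ≤ l) : pre x k <+: pre x l := by
  rw [← take_pre x h]
  exact List.take_prefix _ _

theorem sts_ext (G : ℕ → X) (B : X) (i : ℕ) :
    ext G (pre B i) (sts G B i).2 (B i) <+: (sts G B (i + 1)).2 := by
  rw [sts_succ, ← sts_fst G B i]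
  exact List.prefix_append _ _

theorem sts_resp_succ (G : ℕ → X) (B : X) (i : ℕ) :
    Resp (cd G) (pre B i) (sts G B i).2 (sts G B (i + 1)).2 := by
  have h1 := ext_resp G (pre B i) (sts G B i).2 (B i)
  refine Resp.trans (List.prefix_refl _) h1 ?_
  refine ⟨sts_ext G B i, fun p h2 h3 h4 => ?_⟩
  rw [sts_succ] at h3 ⊢
  unfold stp at h3 ⊢
  rw [sts_fst G B i] at h3 ⊢
  simp only [List.length_append, List.length_singleton] at h3
  have hp : p = (ext G (pre B i) (sts G B i).2 (B i)).length := by omega
  subst hp
  simp only
  rw [List.getElem?_append_right le_rfl]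
  simp [h4]

theorem sts_length_succ (G : ℕ → X) (B : X) (i : ℕ) :
    (sts G B i).2.length < (sts G B (i + 1)).2.length := by
  have h1 := (ext_resp G (pre B i) (sts G B i).2 (B i)).1.length_le
  rw [sts_succ]
  unfold stp
  rw [sts_fst G B i]
  simp only [List.length_append, List.length_singleton]
  omega

theorem le_sts_length (G : ℕ → X) (B : X) (i : ℕ) : i ≤ (sts G B i).2.length := by
  induction i with
  | zero => simp
  | succ i ih => have := sts_length_succ G B i; omega

theorem sts_resp (G : ℕ → X) (B : X) {i j : ℕ} (h : i ≤ j) :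
    Resp (cd G) (pre B i) (sts G B i).2 (sts G B j).2 := by
  induction j, h using Nat.le_induction with
  | base => exact Resp.refl _ _ _
  | succ j hj ih => exact Resp.trans (pre_prefix B hj) ih (sts_resp_succ G B j)

/-- The real constructed. -/
noncomputable def cdq (G : ℕ → X) (B : X) : X := fun p => (sts G B (p + 1)).2.getD p false

theorem getElem?_sts (G : ℕ → X) (B : X) (i p : ℕ) (h : p < (sts G B i).2.length) :
    (sts G B i).2[p]? = some (cdq G B p) := by
  have key : ∀ a b, a ≤ b → p < (sts G B a).2.length →
      (sts G B a).2[p]? = (sts G B b).2[p]? := by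
    intro a b hab hp
    obtain ⟨r, hr⟩ := (sts_resp G B hab).1
    rw [← hr, List.getElem?_append_left hp]
  have hp1 : p < (sts G B (p + 1)).2.length := le_sts_length G B (p + 1)
  have h1 : (sts G B i).2[p]? = (sts G B (p + 1)).2[p]? := by
    rcases le_total i (p + 1) with hc | hc
    · exact key _ _ hc h
    · exact (key _ _ hc hp1).symm
  rw [h1, cdq, List.getD_eq_getElem?_getD, List.getElem?_eq_getElem hp1]
  rfl

theorem pre_cdq (G : ℕ → X) (B : X) (i : ℕ) :
    pre (cdq G B) (sts G B i).2.length = (sts G B i).2 := by
  apply List.ext_getElem?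
  intro p
  rw [getElem?_pre]
  by_cases hp : p < (sts G B i).2.length
  · rw [if_pos hp, getElem?_sts G B i p hp]
  · rw [if_neg hp]
    simpa using hp

theorem cdq_locked (G : ℕ → X) (B : X) (i p : ℕ) (h1 : (sts G B i).2.length ≤ p)
    (h2 : (pre B i)[p.unpair.1]? = some true) : cdq G B p = cd G p := by
  have hle : i ≤ max i (p + 1) := le_max_left _ _
  have hlen : p < (sts G B (max i (p + 1))).2.length := by
    have := le_sts_length G B (max i (p + 1)); omega
  have := (sts_resp G B hle).2 p h1 hlen h2
  rw [getElem?_sts G B _ p hlen] at this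
  simpa using this

/-! ### The coding theorem -/

theorem cdq_of_true (G : ℕ → X) (B : X) (n : ℕ) (h : B n = true) : TLE (G n) (cdq G B) := by
  set k := (sts G B (n + 1)).2.length with hk
  have h1 : TLE (fun j => cdq G B (Nat.pair n (j + k))) (cdq G B) :=
    TLE.idx (φ := fun j => Nat.pair n (j + k)) (Primrec₂.natPair.comp (Primrec.const n)
      (Primrec.nat_add.comp Primrec.id (Primrec.const k))) _
  have h2 : G n = ins (G n) k (fun j => cdq G B (Nat.pair n (j + k))) := by
    funext j
    unfold ins
    split_ifs with hj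
    · rfl
    · have h3 : j - k + k = j := by omega
      simp only [h3]
      rw [cdq_locked G B (n + 1)]
      · simp [cd]
      · exact le_trans (by omega) (Nat.right_le_pair n j)
      · rw [Nat.unpair_pair, getElem?_pre, if_pos (Nat.lt_succ_self n), h]
  rw [h2]
  exact (tle_ins _ _ _).trans h1

/-- The test used in the search. -/
def tst (L σ s t : List Bool) : Prop :=
  t.length ≤ s.length ∧ ∀ p, p < t.length →
    ((p < σ.length → t[p]? = σ[p]?) ∧
      (σ.length ≤ p → L[p.unpair.1]? = some true → t[p]? = s[p]?))

theorem primrec_tst (L σ : List Bool) : PrimrecRel (tst L σ) := by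
  have hgetc : ∀ (l : List Bool), Primrec (fun q : ℕ × (List Bool × List Bool) => l[q.1]?) :=
    fun l => Primrec.list_getElem?.comp (Primrec.const l) Primrec.fst
  have hL : Primrec (fun q : ℕ × (List Bool × List Bool) => L[q.1.unpair.1]?) :=
    Primrec.list_getElem?.comp (Primrec.const L) (Primrec.fst.comp (Primrec.unpair.comp Primrec.fst))
  have ht : Primrec (fun q : ℕ × (List Bool × List Bool) => q.2.2[q.1]?) :=
    Primrec.list_getElem?.comp (Primrec.snd.comp Primrec.snd) Primrec.fst
  have hs : Primrec (fun q : ℕ × (List Bool × List Bool) => q.2.1[q.1]?) :=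
    Primrec.list_getElem?.comp (Primrec.fst.comp Primrec.snd) Primrec.fst
  have hR : PrimrecRel (fun (p : ℕ) (q : List Bool × List Bool) =>
      ((p < σ.length → q.2[p]? = σ[p]?) ∧
      (σ.length ≤ p → L[p.unpair.1]? = some true → q.2[p]? = q.1[p]?))) := by
    have h1 : PrimrecPred (fun q : ℕ × (List Bool × List Bool) => q.1 < σ.length) :=
      Primrec.nat_lt.comp Primrec.fst (Primrec.const _)
    have h2 : PrimrecPred (fun q : ℕ × (List Bool × List Bool) => q.2.2[q.1]? = σ[q.1]?) :=
      Primrec.eq.comp ht (hgetc σ)
    have h3 : PrimrecPred (fun q : ℕ × (List Bool × List Bool) => L[q.1.unpair.1]? = some true) :=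
      Primrec.eq.comp hL (Primrec.const _)
    have h4 : PrimrecPred (fun q : ℕ × (List Bool × List Bool) => q.2.2[q.1]? = q.2.1[q.1]?) :=
      Primrec.eq.comp ht hs
    have h5 : PrimrecPred (fun q : ℕ × (List Bool × List Bool) =>
        (¬ (q.1 < σ.length) ∨ q.2.2[q.1]? = σ[q.1]?) ∧
        ((q.1 < σ.length ∨ ¬ (L[q.1.unpair.1]? = some true)) ∨ q.2.2[q.1]? = q.2.1[q.1]?)) :=
      (h1.not.or h2).and ((h1.or h3.not).or h4)
    refine h5.of_eq fun q => ?_
    constructor
    · rintro ⟨ha, hb⟩
      refine ⟨fun h => ha.resolve_left (not_not_intro h), fun h h' => ?_⟩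
      rcases hb with (hb | hb) | hb
      · omega
      · exact absurd h' hb
      · exact hb
    · rintro ⟨ha, hb⟩
      refine ⟨?_, ?_⟩
      · by_cases h : q.1 < σ.length
        · exact Or.inr (ha h)
        · exact Or.inl h
      · by_cases h : q.1 < σ.length
        · exact Or.inl (Or.inl h)
        · by_cases h' : L[q.1.unpair.1]? = some true
          · exact Or.inr (hb (by omega) h')
          · exact Or.inl (Or.inr h')
  have h6 := hR.forall_mem_list
  have h7 : PrimrecPred (fun q : List Bool × List Bool => q.2.length ≤ q.1.length) :=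
    Primrec.nat_le.comp (Primrec.list_length.comp Primrec.snd)
      (Primrec.list_length.comp Primrec.fst)
  have h8 : PrimrecPred (fun q : List Bool × List Bool => ∀ p ∈ List.range q.2.length,
      ((p < σ.length → q.2[p]? = σ[p]?) ∧
      (σ.length ≤ p → L[p.unpair.1]? = some true → q.2[p]? = q.1[p]?))) :=
    h6.comp (Primrec.list_range.comp (Primrec.list_length.comp Primrec.snd)) Primrec.id
  refine PrimrecPred.of_eq (h7.and h8) fun q => ?_
  simp only [tst, List.mem_range]

theorem cdq_of_false (G : ℕ → X) (hG : ∀ n, ¬ TLE (G n) (cd (Function.update G n zero)))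
    (B : X) (n : ℕ) (h : B n = false) : ¬ TLE (G n) (cdq G B) := by
  classical
  intro hle
  obtain ⟨e, he⟩ := tle_iff_en.mp hle
  apply hG n
  set s := Nat.pair e n with hs
  set L := pre B s with hL
  set σ := (sts G B s).2 with hσ
  have hns : n ≤ s := Nat.right_le_pair e n
  have hlen : L.length = s := by rw [hL, length_pre]
  -- no disagreeing extension exists
  have hno : ¬ ∃ τ, Resp (cd G) L σ τ ∧ ∃ i c, (en e τ)[i]? = some c ∧ c ≠ G n i := by
    intro hex
    obtain ⟨i, c, hic, hne⟩ := ext_spec (σ := σ) (b := B s) (L := L) (by rw [hlen, hs])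
      (by rw [hL, ← pre_succ, getElem?_pre, if_pos (by omega), h]) hex
    have hpre : ext G L σ (B s) <+: (sts G B (s + 1)).2 := sts_ext G B s
    have hq : ext G L σ (B s) = pre (cdq G B) (ext G L σ (B s)).length := by
      have h1 : ext G L σ (B s) <+: pre (cdq G B) (sts G B (s + 1)).2.length := by
        rw [pre_cdq]; exact hpre
      have h2 := List.prefix_iff_eq_take.mp h1
      rw [take_pre] at h2
      · exact h2
      · exact hpre.length_le
    rw [hq] at hic
    exact hne (he.1 _ i c hic).symm
  apply TLE.of_search (fun s' t => if tst L σ s' t then en e t else [])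
  · have hd : PrimrecPred (fun q : List Bool × List Bool => tst L σ q.1 q.2) := primrec_tst L σ
    exact Primrec.ite hd ((primrec_en e).comp Primrec.snd) (Primrec.const [])
  · intro k t i b hb
    split_ifs at hb with ht
    · by_contra hne
      -- extend `t` to respect the prefix
      by_cases hlt : σ.length ≤ t.length
      · apply hno
        refine ⟨t, ⟨?_, ?_⟩, i, b, hb, fun hc => hne hc.symm⟩
        · rw [List.prefix_iff_eq_take]
          apply List.ext_getElem?
          intro p
          rw [List.getElem?_take]
          split_ifs with hp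
          · exact ((ht.2 p (by omega)).1 hp).symm
          · rw [List.getElem?_eq_none (by omega)]
        · intro p h1 h2 h3
          rw [(ht.2 p h2).2 h1 h3]
          have hk : p < k := by
            have := ht.1
            rw [length_pre] at this
            omega
          rw [getElem?_pre, if_pos hk]
          have hcol : p.unpair.1 ≠ n := by
            intro hc
            rw [hc, hL, getElem?_pre_eq_some, h] at h3
            simp at h3
          simp [cd, Function.update, hcol]
      · -- `t` is a prefix of `σ`, hence of `cdq`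
        have htp : t = pre (cdq G B) t.length := by
          have h2 : t = σ.take t.length := by
            apply List.ext_getElem?
            intro p
            rw [List.getElem?_take]
            split_ifs with hp
            · exact (ht.2 p hp).1 (by omega)
            · rw [List.getElem?_eq_none (by omega)]
          rw [hσ, ← pre_cdq G B s, take_pre] at h2
          · exact h2
          · have : σ.length = (sts G B s).2.length := rfl
            omega
        rw [htp] at hb
        exact hne (he.1 _ i b hb)
    · simp at hb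
  · intro i
    obtain ⟨K, hK⟩ := he.2 i
    refine ⟨pre (cdq G B) K, K, fun k hk => ?_⟩
    have htst : tst L σ (pre (cd (Function.update G n zero)) k) (pre (cdq G B) K) := by
      refine ⟨by simpa using hk, fun p hp => ⟨fun h1 => ?_, fun h1 h2 => ?_⟩⟩
      · rw [length_pre] at hp
        rw [getElem?_pre, if_pos hp, hσ, getElem?_sts G B s p h1]
      · rw [length_pre] at hp
        rw [getElem?_pre, if_pos hp, getElem?_pre, if_pos (by omega)]
        rw [cdq_locked G B s p h1 h2]
        have hcol : p.unpair.1 ≠ n := by
          intro hc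
          rw [hc, hL, getElem?_pre_eq_some, h] at h2
          simp at h2
        simp [cd, Function.update, hcol]
    rw [if_pos htst]
    exact hK K le_rfl

/-- Decoding of states. -/
def decS (m : ℕ) : List Bool × List Bool :=
  (Encodable.decode (α := List Bool × List Bool) m).getD ([], [])

theorem decS_encode (q : List Bool × List Bool) : decS (Encodable.encode q) = q := by
  simp [decS]

theorem encode_init : Encodable.encode (([], []) : List Bool × List Bool) = 0 := by
  simp [Encodable.encode_prod_val, Nat.pair]

theorem exists_coding (G : ℕ → X) (hG : ∀ n, ¬ TLE (G n) (cd (Function.update G n zero))) :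
    ∃ R : X, ∀ B : X, ∃ Q : X, TLE Q (jn B R) ∧ ∀ n, (TLE (G n) Q ↔ B n = true) := by
  obtain ⟨R, hR⟩ := exists_table
    (fun m => Encodable.encode (stp G (decS m.unpair.1) (decide (m.unpair.2 = 1))))
    (fun m => (decS m.unpair.2).2.getD m.unpair.1 false)
  refine ⟨R, fun B => ⟨cdq G B, ?_, fun n => ?_⟩⟩
  · have hst : ∀ i, stT (fun m => Encodable.encode (stp G (decS m.unpair.1)
        (decide (m.unpair.2 = 1)))) B i = Encodable.encode (sts G B i) := by
      intro i
      induction i with
      | zero => exact encode_init.symm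
      | succ i ih =>
        rw [stT_succ, ih, sts_succ]
        simp only [Nat.unpair_pair, decS_encode]
        congr 2
        cases B i <;> rfl
    have h := hR B
    have heq : (fun p => (fun m : ℕ => (decS m.unpair.2).2.getD m.unpair.1 false)
        (Nat.pair p (stT (fun m => Encodable.encode (stp G (decS m.unpair.1)
        (decide (m.unpair.2 = 1)))) B (p + 1)))) = cdq G B := by
      funext p
      simp only [Nat.unpair_pair]
      rw [hst, decS_encode, cdq]
    rw [heq] at h
    exact h
  · constructor
    · intro h
      by_contra hc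
      exact cdq_of_false G hG B n (by simpa using hc) h
    · exact cdq_of_true G B n

end P327
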