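import Mathlib

/-!
Basic definitions for the rigidity theorem: Cantor space, string maps, reducibility.
-/

namespace P327

/-- Cantor space. -/
abbrev X := ℕ → Bool

/-- The initial segment of length `k`. -/
def pre (x : X) (k : ℕ) : List Bool := (List.range k).map x

@[simp] theorem length_pre (x : X) (k : ℕ) : (pre x k).length = k := by simp [pre]

theorem getElem?_pre (x : X) (k i : ℕ) : (pre x k)[i]? = if i < k then some (x i) else none := by
  unfold pre
  rw [List.getElem?_map]
  by_cases h : i < k
  · simp [h]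
  · simp [h]

theorem getElem?_pre_eq_some {x : X} {k i : ℕ} {b : Bool} :
    (pre x k)[i]? = some b ↔ i < k ∧ x i = b := by
  rw [getElem?_pre]; by_cases h : i < k <;> simp [h]

theorem getD_pre (x : X) (k i : ℕ) (h : i < k) (d : Bool) : (pre x k).getD i d = x i := by
  rw [List.getD_eq_getElem?_getD, getElem?_pre, if_pos h]; rfl

/-- `Rel f x y`: the string map `f` maps initial segments of `x` to initial segments of `y`,
of lengths tending to infinity.  So `y` is obtained from `x` by the functional coded by `f`. -/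
def Rel (f : List Bool → List Bool) (x y : X) : Prop :=
  (∀ k i b, (f (pre x k))[i]? = some b → y i = b) ∧
  (∀ n, ∃ K, ∀ k, K ≤ k → n < (f (pre x k)).length)

/-- Turing reducibility of elements of Cantor space, given by primitive recursive string maps. -/
def TLE (y x : X) : Prop := ∃ f : List Bool → List Bool, Primrec f ∧ Rel f x y

/-- Turing equivalence. -/
def TEq (x y : X) : Prop := TLE x y ∧ TLE y x

/-- Join of two reals. -/
def jn (x y : X) : X := fun n => if n % 2 = 0 then x (n / 2) else y (n / 2)

/-- Bitwise exclusive or. -/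
def xr (x y : X) : X := fun n => xor (x n) (y n)

/-- The shift. -/
def sh (x : X) : X := fun n => x (n + 1)

/-- The real starting with the first `k` bits of `a` and continuing with `w`. -/
def ins (a : X) (k : ℕ) (w : X) : X := fun n => if n < k then a n else w (n - k)

/-- One real coding a sequence of reals. -/
def cd (x : ℕ → X) : X := fun p => x p.unpair.1 p.unpair.2

/-- An automorphism of the Turing degrees, given by choice functions `p` (for the automorphism)
and `q` (for the inverse). -/
structure Auto (p q : X → X) : Prop where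
  le_iff : ∀ x y, TLE (p x) (p y) ↔ TLE x y
  right : ∀ y, TEq (p (q y)) y

theorem Rel.pre_eq {f : List Bool → List Bool} {x y : X} (h : Rel f x y) (k : ℕ) :
    f (pre x k) = pre y (f (pre x k)).length := by
  apply List.ext_getElem?
  intro i
  rw [getElem?_pre]
  by_cases hi : i < (f (pre x k)).length
  · rw [if_pos hi, List.getElem?_eq_getElem hi]
    have := h.1 k i _ (List.getElem?_eq_getElem hi)
    rw [this]
  · rw [if_neg hi]; simpa using hi

theorem Rel.of_pre {f : List Bool → List Bool} {x y : X} (m : ℕ → ℕ)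
    (h : ∀ k, f (pre x k) = pre y (m k)) (hm : ∀ n, ∃ K, ∀ k, K ≤ k → n < m k) : Rel f x y := by
  refine ⟨fun k i b hb => ?_, fun n => ?_⟩
  · rw [h k, getElem?_pre_eq_some] at hb
    exact hb.2
  · obtain ⟨K, hK⟩ := hm n
    exact ⟨K, fun k hk => by rw [h k, length_pre]; exact hK k hk⟩

theorem Rel.unique {f : List Bool → List Bool} {x y y' : X} (h : Rel f x y) (h' : Rel f x y') :
    y = y' := by
  funext n
  obtain ⟨K, hK⟩ := h.2 n
  have h1 := hK K le_rfl
  rw [h.1 K n _ (List.getElem?_eq_getElem h1), h'.1 K n _ (List.getElem?_eq_getElem h1)]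

theorem Rel.id (x : X) : Rel (fun s => s) x x :=
  Rel.of_pre (fun k => k) (fun _ => rfl) (fun n => ⟨n + 1, fun _ h => h⟩)

theorem Rel.comp {f g : List Bool → List Bool} {x y z : X} (hf : Rel f x y) (hg : Rel g y z) :
    Rel (fun s => g (f s)) x z := by
  refine ⟨fun k i b hb => ?_, fun n => ?_⟩
  · simp only at hb
    rw [hf.pre_eq k] at hb
    exact hg.1 _ i b hb
  · obtain ⟨K, hK⟩ := hg.2 n
    obtain ⟨K', hK'⟩ := hf.2 K
    refine ⟨K', fun k hk => ?_⟩
    simp only
    rw [hf.pre_eq k]
    exact hK _ (hK' k hk).le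

theorem TLE.refl (x : X) : TLE x x := ⟨_, Primrec.id, Rel.id x⟩

theorem TLE.trans {x y z : X} (h : TLE x y) (h' : TLE y z) : TLE x z := by
  obtain ⟨f, hf, hr⟩ := h
  obtain ⟨g, hg, hs⟩ := h'
  exact ⟨fun s => f (g s), hf.comp hg, hs.comp hr⟩

theorem TEq.refl (x : X) : TEq x x := ⟨TLE.refl x, TLE.refl x⟩
theorem TEq.symm {x y : X} (h : TEq x y) : TEq y x := ⟨h.2, h.1⟩
theorem TEq.trans {x y z : X} (h : TEq x y) (h' : TEq y z) : TEq x z :=
  ⟨h.1.trans h'.1, h'.2.trans h.2⟩

end P327
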