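import Vale.Agent.P327.Equiv

/-!
The Turing degrees, defined from the oracle computability of Mathlib.
-/

namespace P327

open Classical in
/-- The characteristic function of a set of natural numbers (a total function with values
`0` and `1`), in the format in which Mathlib represents oracles. -/
noncomputable def chi (A : Set ℕ) : ℕ →. ℕ := fun n => Part.some (if n ∈ A then 1 else 0)

/-- Turing reducibility `A ≤_T B` of sets of natural numbers: the characteristic function of `A`
is computable from the characteristic function of `B`. -/
def SetLE (A B : Set ℕ) : Prop := TuringReducible (chi A) (chi B)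

theorem SetLE.refl (A : Set ℕ) : SetLE A A := TuringReducible.refl _

theorem SetLE.trans {A B C : Set ℕ} (h : SetLE A B) (h' : SetLE B C) : SetLE A C :=
  TuringReducible.trans h h'

/-- Turing equivalence of sets of natural numbers. -/
def setEquiv : Setoid (Set ℕ) where
  r A B := SetLE A B ∧ SetLE B A
  iseqv := ⟨fun A => ⟨SetLE.refl A, SetLE.refl A⟩, fun h => ⟨h.2, h.1⟩,
    fun h h' => ⟨h.1.trans h'.1, h'.2.trans h.2⟩⟩

/-- The Turing degrees: Turing equivalence classes of sets of natural numbers. -/
def Degree : Type := Quotient setEquiv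

/-- The degree of a set of natural numbers. -/
def deg (A : Set ℕ) : Degree := Quotient.mk setEquiv A

/-- The ordering of the Turing degrees. -/
def Degree.le : Degree → Degree → Prop :=
  Quotient.lift₂ (s₁ := setEquiv) (s₂ := setEquiv) SetLE fun _ _ _ _ h h' =>
    propext ⟨fun k => (h.2.trans k).trans h'.1, fun k => (h.1.trans k).trans h'.2⟩

/-- The ordering of degrees is the reducibility of representatives. -/
theorem deg_le_deg (A B : Set ℕ) : (deg A).le (deg B) ↔ SetLE A B := Iff.rfl

theorem deg_eq_deg (A B : Set ℕ) : deg A = deg B ↔ SetLE A B ∧ SetLE B A :=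
  ⟨fun h => Quotient.exact (s := setEquiv) h, fun h => Quotient.sound (s := setEquiv) h⟩

/-! ### Translation to Cantor space -/

/-- The set of a real. -/
def toSet (x : X) : Set ℕ := {n | x n = true}

open Classical in
/-- The real of a set. -/
noncomputable def ofSet (A : Set ℕ) : X := fun n => decide (n ∈ A)

theorem toSet_ofSet (A : Set ℕ) : toSet (ofSet A) = A := by
  ext n
  simp [toSet, ofSet]

theorem chi_toSet (x : X) : chi (toSet x) = toPart x := by
  funext n
  unfold chi toSet toPart
  cases hx : x n <;> simp [hx]

theorem setLE_toSet (x y : X) : SetLE (toSet y) (toSet x) ↔ TLE y x := by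
  rw [tle_iff_recursiveIn, SetLE, chi_toSet, chi_toSet]
  exact RecursiveIn.iff_nat

/-- Rigidity of the Turing degrees follows from the statement about choice functions. -/
theorem rigid_of (H : ∀ p q : X → X, Auto p q → ∀ x, TEq (p x) x)
    (π : Degree → Degree) (hπ : Function.Bijective π)
    (h : ∀ a b : Degree, a.le b ↔ (π a).le (π b)) (a : Degree) : π a = a := by
  -- representatives
  have hrep : ∀ d : Degree, ∃ x : X, deg (toSet x) = d := by
    intro d
    obtain ⟨A, hA⟩ := Quotient.exists_rep d
    exact ⟨ofSet A, by rw [toSet_ofSet]; exact hA⟩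
  choose rep hr using hrep
  obtain ⟨ρ, hρ, hρ'⟩ := Function.bijective_iff_has_inverse.mp hπ
  have hle : ∀ x y : X, TLE x y ↔ (deg (toSet x)).le (deg (toSet y)) := fun x y =>
    ((deg_le_deg _ _).trans (setLE_toSet y x)).symm
  have hauto : Auto (fun x => rep (π (deg (toSet x)))) (fun x => rep (ρ (deg (toSet x)))) := by
    constructor
    · intro x y
      rw [hle, hle, hr, hr]
      exact (h _ _).symm
    · intro y
      have : deg (toSet (rep (π (deg (toSet (rep (ρ (deg (toSet y))))))))) = deg (toSet y) := by
        rw [hr, hr, hρ']
      rw [deg_eq_deg, setLE_toSet, setLE_toSet] at this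
      exact this
  have h1 := H _ _ hauto (rep a)
  have h2 : deg (toSet (rep (π (deg (toSet (rep a)))))) = deg (toSet (rep a)) := by
    rw [deg_eq_deg, setLE_toSet, setLE_toSet]
    exact h1
  rw [hr, hr] at h2
  exact h2

end P327
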