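import Vale.Agent.P327.Strings

/-!
The reducibility `TLE` agrees with the oracle computability of Mathlib.
-/

namespace P327

open Encodable

/-- The characteristic function of a real, as a function on the naturals. -/
def toPart (x : ℕ → Bool) : ℕ →. ℕ := fun n => Part.some (x n).toNat

/-- `Approx x f th`: the computable approximation `th` along initial segments of `x` computes
exactly `f`. -/
structure Approx (x : X) (f : ℕ →. ℕ) (th : List Bool × ℕ →. ℕ) : Prop where
  partrec : Partrec th
  sound : ∀ k n m, m ∈ th (pre x k, n) → m ∈ f n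
  complete : ∀ n m, m ∈ f n → ∃ K, ∀ k, K ≤ k → m ∈ th (pre x k, n)

theorem Approx.of_partrec (x : X) {f : ℕ →. ℕ} (hf : Nat.Partrec f) :
    Approx x f (fun p => f p.2) where
  partrec := (Partrec.nat_iff.mpr hf).comp Computable.snd
  sound := fun _ _ _ h => h
  complete := fun _ _ h => ⟨0, fun _ _ => h⟩

theorem Approx.oracle (x : X) :
    Approx x (toPart x) (fun p => ((p.1[p.2]?).map Bool.toNat : Option ℕ)) where
  partrec := by
    have h : Primrec (fun p : List Bool × ℕ => (p.1[p.2]?).map Bool.toNat) :=
      Primrec.option_map (Primrec.list_getElem?.comp Primrec.fst Primrec.snd)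
        (((Primrec.dom_finite Bool.toNat).comp Primrec.snd).to₂)
    exact h.to_comp.ofOption
  sound := by
    intro k n m h
    simp only [Part.mem_ofOption, Option.mem_def, Option.map_eq_some_iff] at h
    obtain ⟨b, hb, rfl⟩ := h
    rw [getElem?_pre_eq_some] at hb
    simp [toPart, hb.2]
  complete := by
    intro n m h
    simp only [toPart, Part.mem_some_iff] at h
    refine ⟨n + 1, fun k hk => ?_⟩
    simp only [Part.mem_ofOption, Option.mem_def, Option.map_eq_some_iff]
    exact ⟨x n, getElem?_pre_eq_some.mpr ⟨by omega, rfl⟩, h.symm⟩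

theorem Approx.pair {x : X} {f h : ℕ →. ℕ} {tf th : List Bool × ℕ →. ℕ} (hf : Approx x f tf)
    (hh : Approx x h th) :
    Approx x (fun n => (Nat.pair <$> f n <*> h n)) (fun p => (Nat.pair <$> tf p <*> th p)) where
  partrec := by
    have : Partrec (fun p => (tf p).bind fun a => (th p).map fun b => Nat.pair a b) :=
      hf.partrec.bind ((hh.partrec.comp Computable.fst).map
        (Primrec₂.natPair.to_comp.comp (Computable.snd.comp Computable.fst) Computable.snd))
    refine this.of_eq fun p => ?_
    simp [Seq.seq, Part.bind_map]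
  sound := by
    intro k n m hm
    simp only [Seq.seq, Part.map_eq_map, Part.bind_map, Part.mem_bind_iff, Part.mem_map_iff]
      at hm ⊢
    obtain ⟨a, ha, b, hb, rfl⟩ := hm
    exact ⟨a, hf.sound _ _ _ ha, b, hh.sound _ _ _ hb, rfl⟩
  complete := by
    intro n m hm
    simp only [Seq.seq, Part.map_eq_map, Part.bind_map, Part.mem_bind_iff, Part.mem_map_iff]
      at hm ⊢
    obtain ⟨a, ha, b, hb, rfl⟩ := hm
    obtain ⟨K, hK⟩ := hf.complete _ _ ha
    obtain ⟨K', hK'⟩ := hh.complete _ _ hb
    exact ⟨max K K', fun k hk => ⟨a, hK k (le_trans (le_max_left _ _) hk), b,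
      hK' k (le_trans (le_max_right _ _) hk), rfl⟩⟩

theorem Approx.comp {x : X} {f h : ℕ →. ℕ} {tf th : List Bool × ℕ →. ℕ} (hf : Approx x f tf)
    (hh : Approx x h th) :
    Approx x (fun n => h n >>= f) (fun p => (th p).bind fun a => tf (p.1, a)) where
  partrec := hh.partrec.bind
    (hf.partrec.comp (Computable.pair (Computable.fst.comp Computable.fst) Computable.snd))
  sound := by
    intro k n m hm
    obtain ⟨a, ha, hb⟩ := Part.mem_bind_iff.mp hm
    exact Part.mem_bind_iff.mpr ⟨a, hh.sound _ _ _ ha, hf.sound _ _ _ hb⟩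
  complete := by
    intro n m hm
    obtain ⟨a, ha, hb⟩ := Part.mem_bind_iff.mp hm
    obtain ⟨K, hK⟩ := hh.complete _ _ ha
    obtain ⟨K', hK'⟩ := hf.complete _ _ hb
    exact ⟨max K K', fun k hk => Part.mem_bind_iff.mpr
      ⟨a, hK k (le_trans (le_max_left _ _) hk), hK' k (le_trans (le_max_right _ _) hk)⟩⟩

theorem Approx.prec {x : X} {f h : ℕ →. ℕ} {tf th : List Bool × ℕ →. ℕ} (hf : Approx x f tf)
    (hh : Approx x h th) :
    Approx x
      (fun p =>
        let (a, n) := Nat.unpair p
        n.rec (f a) fun y IH => do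
          let i ← IH
          h (Nat.pair a (Nat.pair y i)))
      (fun p => p.2.unpair.2.rec (tf (p.1, p.2.unpair.1)) fun y IH =>
        IH.bind fun i => th (p.1, Nat.pair p.2.unpair.1 (Nat.pair y i))) where
  partrec := by
    refine Partrec.nat_rec (f := fun p : List Bool × ℕ => p.2.unpair.2)
      (g := fun p : List Bool × ℕ => tf (p.1, p.2.unpair.1))
      (h := fun (p : List Bool × ℕ) (q : ℕ × ℕ) =>
        th (p.1, Nat.pair p.2.unpair.1 (Nat.pair q.1 q.2))) ?_ ?_ ?_
    · exact Computable.snd.comp (Computable.unpair.comp Computable.snd)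
    · exact hf.partrec.comp (Computable.pair Computable.fst
        (Computable.fst.comp (Computable.unpair.comp Computable.snd)))
    · refine hh.partrec.comp (Computable.pair (Computable.fst.comp Computable.fst) ?_)
      exact Primrec₂.natPair.to_comp.comp
        (Computable.fst.comp (Computable.unpair.comp (Computable.snd.comp Computable.fst)))
        (Primrec₂.natPair.to_comp.comp (Computable.fst.comp Computable.snd)
          (Computable.snd.comp Computable.snd))
  sound := by
    intro k p
    simp only
    induction p.unpair.2 with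
    | zero => exact fun m hm => hf.sound _ _ _ hm
    | succ n ih =>
      intro m hm
      simp only [Part.mem_bind_iff] at hm
      obtain ⟨i, hi, hm⟩ := hm
      simp only [Part.bind_eq_bind, Part.mem_bind_iff]
      exact ⟨i, ih i hi, hh.sound _ _ _ hm⟩
  complete := by
    intro p
    simp only
    induction p.unpair.2 with
    | zero => exact fun m hm => hf.complete _ _ hm
    | succ n ih =>
      intro m hm
      simp only [Part.bind_eq_bind, Part.mem_bind_iff] at hm
      obtain ⟨i, hi, hm⟩ := hm
      obtain ⟨K, hK⟩ := ih i hi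
      obtain ⟨K', hK'⟩ := hh.complete _ _ hm
      refine ⟨max K K', fun k hk => ?_⟩
      simp only [Part.mem_bind_iff]
      exact ⟨i, hK k (le_trans (le_max_left _ _) hk), hK' k (le_trans (le_max_right _ _) hk)⟩

theorem Approx.rfind {x : X} {f : ℕ →. ℕ} {tf : List Bool × ℕ →. ℕ} (hf : Approx x f tf) :
    Approx x
      (fun a => Nat.rfind fun n => (fun m => m = 0) <$> f (Nat.pair a n))
      (fun p => Nat.rfind fun n => (fun m => m = 0) <$> tf (p.1, Nat.pair p.2 n)) where
  partrec := by
    refine Partrec.rfind (p := fun (p : List Bool × ℕ) (n : ℕ) =>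
      ((fun m => (m = 0 : Bool)) <$> tf (p.1, Nat.pair p.2 n) : Part Bool)) ?_
    simp only [Part.map_eq_map]
    refine Partrec.map (f := fun q : (List Bool × ℕ) × ℕ => tf (q.1.1, Nat.pair q.1.2 q.2))
      (g := fun (_ : (List Bool × ℕ) × ℕ) (m : ℕ) => (m = 0 : Bool)) ?_ ?_
    · exact hf.partrec.comp (Computable.pair (Computable.fst.comp Computable.fst)
        (Primrec₂.natPair.to_comp.comp (Computable.snd.comp Computable.fst) Computable.snd))
    · have h : PrimrecPred (fun q : ((List Bool × ℕ) × ℕ) × ℕ => q.2 = 0) :=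
        Primrec.eq.comp Primrec.snd (Primrec.const 0)
      exact h.decide.to_comp
  sound := by
    intro k a m hm
    replace hm := Nat.mem_rfind.mp hm
    refine Nat.mem_rfind.mpr ⟨?_, fun {j} hj => ?_⟩
    · have h1 := hm.1
      simp only [Part.map_eq_map, Part.mem_map_iff] at h1 ⊢
      obtain ⟨v, hv, hv'⟩ := h1
      exact ⟨v, hf.sound _ _ _ hv, hv'⟩
    · have h1 := hm.2 hj
      simp only [Part.map_eq_map, Part.mem_map_iff] at h1 ⊢
      obtain ⟨v, hv, hv'⟩ := h1
      exact ⟨v, hf.sound _ _ _ hv, hv'⟩
  complete := by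
    intro a m hm
    replace hm := Nat.mem_rfind.mp hm
    have h2 : ∀ j, ∃ K, j ≤ m → ∀ k, K ≤ k → ∀ b : Bool,
        b ∈ ((fun m => (m = 0 : Bool)) <$> f (Nat.pair a j) : Part Bool) →
        b ∈ ((fun m => (m = 0 : Bool)) <$> tf (pre x k, Nat.pair a j) : Part Bool) := by
      intro j
      by_cases hj : j ≤ m
      · have h3 : ∃ v, v ∈ f (Nat.pair a j) := by
          rcases Nat.lt_or_eq_of_le hj with hj | hj
          · have h1 := hm.2 hj
            simp only [Part.map_eq_map, Part.mem_map_iff] at h1
            obtain ⟨v, hv, -⟩ := h1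
            exact ⟨v, hv⟩
          · subst hj
            have h1 := hm.1
            simp only [Part.map_eq_map, Part.mem_map_iff] at h1
            obtain ⟨v, hv, -⟩ := h1
            exact ⟨v, hv⟩
        obtain ⟨v, hv⟩ := h3
        obtain ⟨K, hK⟩ := hf.complete _ _ hv
        refine ⟨K, fun _ k hk b hb => ?_⟩
        simp only [Part.map_eq_map, Part.mem_map_iff] at hb ⊢
        obtain ⟨w, hw, hb⟩ := hb
        have : w = v := Part.mem_unique hw hv
        subst this
        exact ⟨w, hK k hk, hb⟩
      · exact ⟨0, fun h => absurd h hj⟩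
    choose K hK using h2
    refine ⟨(Finset.range (m + 1)).sup K, fun k hk => ?_⟩
    have hle : ∀ j, j ≤ m → K j ≤ k := fun j hj =>
      le_trans (Finset.le_sup (f := K) (Finset.mem_range.mpr (by omega))) hk
    exact Nat.mem_rfind.mpr ⟨hK m le_rfl k (hle m le_rfl) _ hm.1, fun {j} hj =>
      hK j hj.le k (hle j hj.le) _ (hm.2 hj)⟩

theorem exists_approx {x : X} {f : ℕ →. ℕ} (hf : Nat.RecursiveIn {toPart x} f) :
    ∃ th, Approx x f th := by
  induction hf with
  | zero => exact ⟨_, Approx.of_partrec x Nat.Partrec.zero⟩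
  | succ => exact ⟨_, Approx.of_partrec x Nat.Partrec.succ⟩
  | left => exact ⟨_, Approx.of_partrec x Nat.Partrec.left⟩
  | right => exact ⟨_, Approx.of_partrec x Nat.Partrec.right⟩
  | oracle g hg =>
    rw [Set.mem_singleton_iff] at hg
    subst hg
    exact ⟨_, Approx.oracle x⟩
  | pair _ _ ih₁ ih₂ =>
    obtain ⟨_, h1⟩ := ih₁
    obtain ⟨_, h2⟩ := ih₂
    exact ⟨_, h1.pair h2⟩
  | comp _ _ ih₁ ih₂ =>
    obtain ⟨_, h1⟩ := ih₁
    obtain ⟨_, h2⟩ := ih₂
    exact ⟨_, h1.comp h2⟩
  | prec _ _ ih₁ ih₂ =>
    obtain ⟨_, h1⟩ := ih₁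
    obtain ⟨_, h2⟩ := ih₂
    exact ⟨_, h1.prec h2⟩
  | rfind _ ih =>
    obtain ⟨_, h⟩ := ih
    exact ⟨_, h.rfind⟩

/-- The bit function of a code. -/
def eqvBit (c : Nat.Partrec.Code) (s : List Bool) (i : ℕ) : Option Bool :=
  ((List.range (s.length + 1)).filterMap
    (fun j => (Nat.Partrec.Code.evaln s.length c (encode (s.take j, i))).map
      fun v => decide (v ≠ 0))).head?

theorem primrec_eqvBit (c : Nat.Partrec.Code) : Primrec₂ (eqvBit c) := by
  unfold eqvBit
  refine Primrec.list_head?.comp (Primrec.listFilterMap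
    (Primrec.list_range.comp (Primrec.succ.comp (Primrec.list_length.comp Primrec.fst))) ?_)
  have h1 : Primrec (fun q : (List Bool × ℕ) × ℕ =>
      Nat.Partrec.Code.evaln q.1.1.length c (encode (q.1.1.take q.2, q.1.2))) := by
    refine Nat.Partrec.Code.primrec_evaln.comp (Primrec.pair (Primrec.pair
      (Primrec.list_length.comp (Primrec.fst.comp Primrec.fst)) (Primrec.const c)) ?_)
    exact Primrec.encode.comp (Primrec.pair
      (Primrec.list_take.comp Primrec.snd (Primrec.fst.comp Primrec.fst))
      (Primrec.snd.comp Primrec.fst))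
  have h2 : PrimrecPred (fun q : ((List Bool × ℕ) × ℕ) × ℕ => q.2 ≠ 0) :=
    (Primrec.eq.comp Primrec.snd (Primrec.const 0)).not
  exact Primrec.option_map h1 h2.decide.to₂

theorem TLE.of_recursiveIn {x y : X} (h : Nat.RecursiveIn {toPart x} (toPart y)) : TLE y x := by
  obtain ⟨th, hth⟩ := exists_approx h
  obtain ⟨c, hc⟩ := Nat.Partrec.Code.exists_code.mp hth.partrec
  have hev : ∀ p : List Bool × ℕ, c.eval (encode p) = th p := by
    intro p
    rw [hc]
    simp [Part.map_id']
  apply TLE.of_bits (eqvBit c) (primrec_eqvBit c)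
  · intro k p b hb
    unfold eqvBit at hb
    have hb' := List.mem_of_mem_head? hb
    rw [List.mem_filterMap] at hb'
    obtain ⟨j, hj, hv⟩ := hb'
    rw [Option.map_eq_some_iff] at hv
    obtain ⟨v, hv, rfl⟩ := hv
    have h1 := Nat.Partrec.Code.evaln_sound hv
    rw [hev] at h1
    have h2 : (pre x k).take j = pre x j := by
      rw [List.mem_range, length_pre] at hj
      exact take_pre x (by omega)
    rw [h2] at h1
    have h3 := hth.sound _ _ _ h1
    simp only [toPart, Part.mem_some_iff] at h3
    subst h3
    cases y p <;> simp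
  · intro p
    obtain ⟨K, hK⟩ := hth.complete p (y p).toNat (by simp [toPart])
    have h1 := hK K le_rfl
    rw [← hev, Nat.Partrec.Code.evaln_complete] at h1
    obtain ⟨k₀, hk₀⟩ := h1
    refine ⟨max K k₀, fun k hk => ?_⟩
    have hK' : K ≤ k := le_trans (le_max_left _ _) hk
    have hk₀' : k₀ ≤ k := le_trans (le_max_right _ _) hk
    unfold eqvBit
    rw [List.isSome_head?]
    apply List.ne_nil_of_mem (a := decide ((y p).toNat ≠ 0))
    rw [List.mem_filterMap]
    refine ⟨K, ?_, ?_⟩
    · rw [List.mem_range, length_pre]; omega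
    · rw [Option.map_eq_some_iff]
      refine ⟨(y p).toNat, ?_, rfl⟩
      rw [take_pre x hK', length_pre]
      exact Nat.Partrec.Code.evaln_mono hk₀' hk₀

theorem recursiveIn_pre (x : X) :
    Nat.RecursiveIn {toPart x} (fun k => Part.some (encode (pre x k))) := by
  have hstep : Nat.RecursiveIn {toPart x} (fun p =>
      (Part.some (encode (((decode (α := List Bool) p.unpair.2.unpair.2).getD []) ++
        [x p.unpair.2.unpair.1])))) := by
    have h1 : Nat.RecursiveIn {toPart x} (fun p => Part.some p.unpair.2.unpair.1) := by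
      have h : Primrec (fun p : ℕ => p.unpair.2.unpair.1) :=
        Primrec.fst.comp (Primrec.unpair.comp (Primrec.snd.comp Primrec.unpair))
      exact (Primrec.nat_iff.mp h).recursiveIn
    have h2 : Nat.RecursiveIn {toPart x} (fun p => Part.some p.unpair.2.unpair.2) := by
      have h : Primrec (fun p : ℕ => p.unpair.2.unpair.2) :=
        Primrec.snd.comp (Primrec.unpair.comp (Primrec.snd.comp Primrec.unpair))
      exact (Primrec.nat_iff.mp h).recursiveIn
    have h3 : Nat.RecursiveIn {toPart x} (fun q =>
        Part.some (encode (((decode (α := List Bool) q.unpair.1).getD []) ++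
          [decide (q.unpair.2 ≠ 0)]))) := by
      have h4 : PrimrecPred (fun q : ℕ => q.unpair.2 ≠ 0) :=
        (Primrec.eq.comp (Primrec.snd.comp Primrec.unpair) (Primrec.const 0)).not
      have h : Primrec (fun q : ℕ => encode (((decode (α := List Bool) q.unpair.1).getD []) ++
          [decide (q.unpair.2 ≠ 0)])) := by
        refine Primrec.encode.comp (Primrec.list_append.comp ?_ ?_)
        · exact Primrec.option_getD.comp
            (Primrec.decode.comp (Primrec.fst.comp Primrec.unpair)) (Primrec.const [])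
        · exact Primrec.list_cons.comp h4.decide (Primrec.const [])
      exact (Primrec.nat_iff.mp h).recursiveIn
    have h5 := Nat.RecursiveIn.comp h3
      (Nat.RecursiveIn.pair h2 (Nat.RecursiveIn.comp (.oracle _ (Set.mem_singleton _)) h1))
    refine h5.of_eq fun p => ?_
    have h6 : (Part.some p.unpair.2.unpair.1 >>= toPart x : Part ℕ) =
        Part.some (x p.unpair.2.unpair.1).toNat := Part.bind_some _ _
    rw [h6]
    cases hx : x p.unpair.2.unpair.1 <;> simp [Seq.seq]
  have hzero : Nat.RecursiveIn {toPart x} (fun _ => Part.some (encode ([] : List Bool))) := by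
    have h : Primrec (fun _ : ℕ => encode ([] : List Bool)) := Primrec.const _
    exact (Primrec.nat_iff.mp h).recursiveIn
  have hprec := Nat.RecursiveIn.prec hzero hstep
  have hpair : Nat.RecursiveIn {toPart x} (fun k => Part.some (Nat.pair 0 k)) := by
    have h : Primrec (fun k : ℕ => Nat.pair 0 k) :=
      Primrec₂.natPair.comp (Primrec.const 0) Primrec.id
    exact (Primrec.nat_iff.mp h).recursiveIn
  refine (Nat.RecursiveIn.comp hprec hpair).of_eq fun k => ?_
  simp only [Part.bind_eq_bind, Part.bind_some, Nat.unpair_pair]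
  induction k with
  | zero => rfl
  | succ k ih =>
    simp only
    rw [ih]
    simp [pre, List.range_succ]

theorem recursiveIn_of_tle {x y : X} (h : TLE y x) : Nat.RecursiveIn {toPart x} (toPart y) := by
  obtain ⟨f, hf, hr⟩ := h
  -- the test for convergence
  have h1 : Nat.RecursiveIn {toPart x} (fun p =>
      Part.some (if p.unpair.1 < (f (pre x p.unpair.2)).length then 0 else 1)) := by
    have hp : Primrec (fun q : ℕ => if q.unpair.1 <
        (f ((decode (α := List Bool) q.unpair.2).getD [])).length then 0 else 1) := by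
      refine Primrec.ite (Primrec.nat_lt.comp (Primrec.fst.comp Primrec.unpair)
        (Primrec.list_length.comp (hf.comp ?_))) (Primrec.const 0) (Primrec.const 1)
      exact Primrec.option_getD.comp (Primrec.decode.comp (Primrec.snd.comp Primrec.unpair))
        (Primrec.const [])
    have h2 := Nat.RecursiveIn.comp (Primrec.nat_iff.mp hp).recursiveIn
      (Nat.RecursiveIn.pair (Nat.RecursiveIn.left (O := {toPart x}))
        (Nat.RecursiveIn.comp (recursiveIn_pre x) Nat.RecursiveIn.right))
    refine h2.of_eq fun p => ?_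
    simp [Seq.seq]
  have h2 := Nat.RecursiveIn.rfind h1
  -- reading off the bit
  have h3 : Nat.RecursiveIn {toPart x} (fun p =>
      Part.some ((f (pre x p.unpair.2)).getD p.unpair.1 false).toNat) := by
    have hp : Primrec (fun q : ℕ =>
        ((f ((decode (α := List Bool) q.unpair.2).getD [])).getD q.unpair.1 false).toNat) := by
      refine (Primrec.dom_finite Bool.toNat).comp ((Primrec.list_getD false).comp (hf.comp ?_)
        (Primrec.fst.comp Primrec.unpair))
      exact Primrec.option_getD.comp (Primrec.decode.comp (Primrec.snd.comp Primrec.unpair))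
        (Primrec.const [])
    have h2 := Nat.RecursiveIn.comp (Primrec.nat_iff.mp hp).recursiveIn
      (Nat.RecursiveIn.pair (Nat.RecursiveIn.left (O := {toPart x}))
        (Nat.RecursiveIn.comp (recursiveIn_pre x) Nat.RecursiveIn.right))
    refine h2.of_eq fun p => ?_
    simp [Seq.seq]
  have hid : Nat.RecursiveIn {toPart x} (fun n => Part.some n) :=
    (Primrec.nat_iff.mp Primrec.id).recursiveIn
  have h4 := Nat.RecursiveIn.comp h3 (Nat.RecursiveIn.pair hid h2)
  refine h4.of_eq fun n => ?_
  have hex : ∃ k, n < (f (pre x k)).length := by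
    obtain ⟨K, hK⟩ := hr.2 n
    exact ⟨K, hK K le_rfl⟩
  have hfind : Nat.find hex ∈ (Nat.rfind fun k => (fun m => (m = 0 : Bool)) <$>
      (Part.some (if (Nat.pair n k).unpair.1 < (f (pre x (Nat.pair n k).unpair.2)).length
        then 0 else 1) : Part ℕ) : Part ℕ) := by
    refine Nat.mem_rfind.mpr ⟨?_, fun {j} hj => ?_⟩
    · simp [Nat.find_spec hex]
    · have := Nat.find_min hex hj
      simp [this]
  rw [Part.eq_some_iff.mpr hfind]
  simp only [Seq.seq, Part.map_eq_map, Part.map_some, Part.bind_eq_bind, Part.bind_some,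
    Nat.unpair_pair, toPart]
  have hlt := Nat.find_spec hex
  have hb := hr.1 (Nat.find hex) n _ (List.getElem?_eq_getElem hlt)
  rw [hb, List.getD_eq_getElem?_getD, List.getElem?_eq_getElem hlt]
  rfl

/-- The reducibility `TLE` is Turing reducibility. -/
theorem tle_iff_recursiveIn (x y : ℕ → Bool) :
    TLE y x ↔ Nat.RecursiveIn {toPart x} (toPart y) :=
  ⟨recursiveIn_of_tle, TLE.of_recursiveIn⟩

end P327
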