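import Vale.Agent.P327.Strings

/-!
Existence of an independent sequence of reals.
-/

namespace P327

theorem take_pre' (x : X) {N n : ℕ} (h : N ≤ n) : (pre x n).take N = pre x N := take_pre x h

/-- A generic real for countably many dense sets of strings. -/
theorem exists_generic (D : ℕ → List Bool → Prop) (h : ∀ i σ, ∃ τ, σ <+: τ ∧ D i τ) :
    ∃ g : X, ∀ i, ∃ k, D i (pre g k) := by
  choose f hf using h
  let st : ℕ → List Bool := fun i =>
    Nat.rec (motive := fun _ => List Bool) [] (fun i σ => f i (σ ++ [false])) i
  have hst : ∀ i, st (i + 1) = f i (st i ++ [false]) := fun i => rfl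
  have h1 : ∀ i, st i <+: st (i + 1) := by
    intro i
    rw [hst]
    exact (List.prefix_append _ _).trans (hf i _).1
  have hlt : ∀ i, (st i).length < (st (i + 1)).length := by
    intro i
    have := (hf i (st i ++ [false])).1.length_le
    rw [hst]
    simp only [List.length_append, List.length_singleton] at this
    omega
  have hle : ∀ i, i ≤ (st i).length := by
    intro i
    induction i with
    | zero => simp
    | succ i ih => have := hlt i; omega
  have hmono : ∀ i j, i ≤ j → st i <+: st j := by
    intro i j hij
    induction j, hij using Nat.le_induction with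
    | base => exact List.prefix_refl _
    | succ j hj ih => exact ih.trans (h1 j)
  refine ⟨fun p => (st (p + 1)).getD p false, fun i => ⟨(st (i + 1)).length, ?_⟩⟩
  have hpre : pre (fun p => (st (p + 1)).getD p false) (st (i + 1)).length = st (i + 1) := by
    apply List.ext_getElem?
    intro p
    rw [getElem?_pre]
    by_cases hp : p < (st (i + 1)).length
    · rw [if_pos hp]
      have hp1 : p < (st (p + 1)).length := hle (p + 1)
      have key : ∀ a b, a ≤ b → p < (st a).length → (st a)[p]? = (st b)[p]? := by
        intro a b hab hpa
        obtain ⟨r, hr⟩ := hmono a b hab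
        rw [← hr, List.getElem?_append_left hpa]
      have h2 : (st (i + 1))[p]? = (st (p + 1))[p]? := by
        rcases le_total (i + 1) (p + 1) with hc | hc
        · exact key _ _ hc hp
        · exact (key _ _ hc hp1).symm
      rw [h2, List.getD_eq_getElem?_getD, List.getElem?_eq_getElem hp1]
      rfl
    · rw [if_neg hp]
      simpa using hp
  rw [hpre, hst]
  exact (hf i _).2

/-- Replace the positions of column `n` by `false`. -/
def mask (n : ℕ) (s : List Bool) : List Bool :=
  (List.range s.length).map (fun p => if p.unpair.1 = n then false else s.getD p false)

theorem mask_pre (n : ℕ) (g : X) (k : ℕ) :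
    mask n (pre g k) = pre (cd (Function.update (fun m j => g (Nat.pair m j)) n zero)) k := by
  unfold mask
  rw [length_pre]
  unfold pre
  apply List.map_congr_left
  intro p hp
  rw [List.mem_range] at hp
  by_cases h : p.unpair.1 = n
  · rw [if_pos h]
    simp [cd, Function.update, h, zero]
  · rw [if_neg h]
    have := getD_pre g k p hp false
    unfold pre at this
    rw [this]
    simp [cd, Function.update, h]

theorem exists_independent :
    ∃ G : ℕ → X, ∀ n, ¬ TLE (G n) (cd (Function.update G n zero)) := by
  obtain ⟨g, hg⟩ := exists_generic (fun s τ =>
    (∃ j b m, m ≤ τ.length ∧ (en s.unpair.1 (mask s.unpair.2 (τ.take m)))[j]? = some b ∧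
      τ[Nat.pair s.unpair.2 j]? = some (!b)) ∨
    (∃ j, ∀ υ, τ <+: υ → (en s.unpair.1 (mask s.unpair.2 υ))[j]? = none)) (by
      intro s σ
      set e := s.unpair.1
      set n := s.unpair.2
      by_cases hex : ∃ υ b, σ <+: υ ∧ (en e (mask n υ))[σ.length]? = some b
      · obtain ⟨υ, b, hυ, hb⟩ := hex
        have hq : σ.length ≤ Nat.pair n σ.length := Nat.right_le_pair n σ.length
        set q := Nat.pair n σ.length with hqdef
        set τ := (List.range (max υ.length (q + 1))).map
          (fun p => if p = q then !b else υ.getD p false) with hτ
        have hlen : τ.length = max υ.length (q + 1) := by simp [hτ]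
        have hget : ∀ p, p < max υ.length (q + 1) →
            τ[p]? = some (if p = q then !b else υ.getD p false) := by
          intro p hp
          rw [hτ, List.getElem?_map, List.getElem?_range hp]
          rfl
        refine ⟨τ, ?_, Or.inl ⟨σ.length, b, υ.length, by omega, ?_, ?_⟩⟩
        · rw [List.prefix_iff_eq_take]
          apply List.ext_getElem?
          intro p
          rw [List.getElem?_take]
          by_cases hp : p < σ.length
          · have h1 := hυ.length_le
            rw [if_pos hp, hget p (by omega), if_neg (by omega)]
            obtain ⟨r, rfl⟩ := hυ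
            rw [List.getD_eq_getElem?_getD, List.getElem?_append_left hp,
              List.getElem?_eq_getElem hp]
            rfl
          · rw [if_neg hp]
            simpa using hp
        · have hmask : mask n (τ.take υ.length) = mask n υ := by
            unfold mask
            have hl : (τ.take υ.length).length = υ.length := by
              rw [List.length_take, hlen]; omega
            rw [hl]
            apply List.map_congr_left
            intro p hp
            rw [List.mem_range] at hp
            by_cases hpn : p.unpair.1 = n
            · rw [if_pos hpn, if_pos hpn]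
            · rw [if_neg hpn, if_neg hpn]
              have hpq : p ≠ q := by
                intro hc
                apply hpn
                rw [hc, hqdef, Nat.unpair_pair]
              rw [List.getD_eq_getElem?_getD, List.getElem?_take, if_pos hp,
                hget p (by omega), if_neg hpq]
              rfl
          rw [hmask]
          exact hb
        · rw [hget q (by omega), if_pos rfl]
      · refine ⟨σ, List.prefix_refl σ, Or.inr ⟨σ.length, fun υ hυ => ?_⟩⟩
        by_contra hc
        obtain ⟨b, hb⟩ := Option.ne_none_iff_exists'.mp hc
        exact hex ⟨υ, b, hυ, hb⟩)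
  refine ⟨fun m j => g (Nat.pair m j), fun n hle => ?_⟩
  obtain ⟨e, he⟩ := tle_iff_en.mp hle
  obtain ⟨k, hk⟩ := hg (Nat.pair e n)
  simp only [Nat.unpair_pair] at hk
  rcases hk with ⟨j, b, m, hm, hb, hne⟩ | ⟨j, hj⟩
  · rw [length_pre] at hm
    rw [take_pre g hm, mask_pre] at hb
    have h1 := he.1 m j b hb
    rw [getElem?_pre_eq_some] at hne
    have h2 := hne.2
    simp only at h1
    rw [h1] at h2
    simp at h2
  · obtain ⟨K, hK⟩ := he.2 j
    have h1 := hK (max K k) (le_max_left _ _)
    have hpre : pre g k <+: pre g (max K k) := by
      rw [← take_pre g (le_max_right K k)]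
      exact List.take_prefix _ _
    have h2 := hj _ hpre
    rw [mask_pre, List.getElem?_eq_none_iff] at h2
    omega

end P327
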