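import Vale.Agent.P327.NoWild
import Vale.Agent.P327.Coding
import Vale.Agent.P327.Indep
import Vale.Agent.P327.Equiv

/-!
Step 1 and the final assembly.
-/

open Filter Topology Set

namespace P327

/-! ### Step 1: countably many Borel maps cover an automorphism -/

/-- The value of a string functional at a real (with default values where undefined). -/
noncomputable def vf (f : List Bool → List Bool) (z : X) : X := by
  classical
  exact fun n => decide (∃ k, (f (pre z k))[n]? = some true)

theorem vf_eq {f : List Bool → List Bool} {z y : X} (h : Rel f z y) : vf f z = y := by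
  classical
  funext n
  unfold vf
  cases hy : y n with
  | true =>
    rw [decide_eq_true_iff]
    obtain ⟨K, hK⟩ := h.2 n
    refine ⟨K, ?_⟩
    have hlt := hK K le_rfl
    have := h.1 K n _ (List.getElem?_eq_getElem hlt)
    rw [List.getElem?_eq_getElem hlt, ← this, hy]
  | false =>
    rw [decide_eq_false_iff_not]
    rintro ⟨k, hk⟩
    have := h.1 k n true hk
    rw [hy] at this
    exact Bool.false_ne_true this

theorem measurableSet_pre_mem (k : ℕ) (S : Set (List Bool)) :
    MeasurableSet {z : X | pre z k ∈ S} := by
  have h1 : Measurable (fun z : X => fun i : Fin k => z i) := by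
    rw [measurable_pi_iff]
    intro i
    exact measurable_pi_apply (i : ℕ)
  have h2 : {z : X | pre z k ∈ S} = (fun z : X => fun i : Fin k => z i) ⁻¹'
      {g | List.ofFn g ∈ S} := by
    ext z
    simp only [mem_ofPred_eq, mem_preimage]
    have : pre z k = List.ofFn (fun i : Fin k => z i) := by
      apply List.ext_getElem
      · simp
      · intro i h h'
        simp [pre]
    rw [this]
  rw [h2]
  exact h1 (Set.toFinite _).measurableSet

open Classical in
theorem measurable_decide' {α : Type*} [MeasurableSpace α] {S : α → Prop}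
    (hS : MeasurableSet {a | S a}) : Measurable (fun a => decide (S a)) := by
  apply measurable_to_bool
  convert hS using 1
  ext a
  simp

theorem measurable_vf (f : List Bool → List Bool) : Measurable (vf f) := by
  classical
  rw [measurable_pi_iff]
  intro n
  have h1 : MeasurableSet {z : X | ∃ k, (f (pre z k))[n]? = some true} := by
    have : {z : X | ∃ k, (f (pre z k))[n]? = some true} =
        ⋃ k, {z : X | pre z k ∈ {s | (f s)[n]? = some true}} := by
      ext z; simp
    rw [this]
    exact MeasurableSet.iUnion fun k => measurableSet_pre_mem k _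
  exact measurable_decide' h1

theorem exists_cover {p q : X → X} (h : Auto p q) :
    ∃ Γ : ℕ → X → X, (∀ i, Measurable (Γ i)) ∧ ∀ x, ∃ i, Γ i x = p x := by
  classical
  obtain ⟨G, hG⟩ := exists_independent
  obtain ⟨R, hR⟩ := exists_coding G hG
  refine ⟨fun i x n => decide (TLE (q (G n)) (vf (en i) (jn x (q R)))), ?_, ?_⟩
  · intro i
    rw [measurable_pi_iff]
    intro n
    have h1 : MeasurableSet {x : X | TLE (q (G n)) (vf (en i) (jn x (q R)))} :=
      measurableSet_tle measurable_const
        ((measurable_vf _).comp (measurable_jn measurable_id measurable_const))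
    exact measurable_decide' h1
  · intro x
    obtain ⟨Q, hQ1, hQ2⟩ := hR (p x)
    have h1 : TLE (q Q) (jn x (q R)) := by
      apply h.le_of_le
      refine hQ1.trans ((TLE.jn_mono (TLE.refl _) (h.right R).2).trans (h.jn_le _ _))
    obtain ⟨i, hi⟩ := tle_iff_en.mp h1
    refine ⟨i, ?_⟩
    funext n
    simp only
    rw [vf_eq hi]
    have h2 : TLE (q (G n)) (q Q) ↔ TLE (G n) Q := h.symm.le_iff _ _
    cases hb : p x n with
    | true =>
      rw [decide_eq_true_iff, h2, hQ2]
      exact hb
    | false =>
      rw [decide_eq_false_iff_not, h2, hQ2, hb]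
      exact Bool.false_ne_true

/-- Every automorphism of the Turing degrees is trivial: version for reals. -/
theorem q_le {p q : X → X} (h : Auto p q) (x : X) : TLE (q x) x := by
  obtain ⟨Γ, hΓ, hcov⟩ := exists_cover h
  obtain ⟨Γ', hΓ', hcov'⟩ := exists_cover h.symm
  obtain ⟨F, hF, hFp⟩ := exists_rep h hΓ (fun x => by
    obtain ⟨i, hi⟩ := hcov x
    exact ⟨i, by rw [hi]; exact TEq.refl _⟩)
  obtain ⟨F', hF', hFp'⟩ := exists_rep h.symm hΓ' (fun x => by
    obtain ⟨i, hi⟩ := hcov' x
    exact ⟨i, by rw [hi]; exact TEq.refl _⟩)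
  obtain ⟨Z, hZ⟩ := exists_code_of_measurable hF'
  refine trick h hF hFp (Z := p Z) ?_ x
  filter_upwards [hZ, hFp', hFp] with y hy1 hy2 hy3
  have h1 : TLE (q y) (jn y Z) := hy2.2.trans hy1
  have h2 : TLE y (p (jn y Z)) := (h.right y).2.trans ((h.le_iff _ _).2 h1)
  exact h2.trans ((h.p_jn_le _ _).trans (TLE.jn_mono hy3.2 (TLE.refl _)))

theorem auto_trivial {p q : X → X} (h : Auto p q) (x : X) : TEq (p x) x := by
  refine ⟨q_le h.symm x, ?_⟩
  exact (h.left x).2.trans (q_le h (p x))

end P327
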