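import Vale.Agent.P327.Trick

/-!
Step 2: an automorphism which is covered by countably many Borel maps has a Borel
representation on a comeagre set.
-/

open Filter Topology Set

namespace P327

/-! ### The map `(y, h) ↦ update h n y` -/

theorem continuous_upd (n : ℕ) :
    Continuous (fun w : X × (ℕ → X) => Function.update w.2 n w.1) :=
  continuous_snd.update n continuous_fst

theorem isOpenMap_upd (n : ℕ) :
    IsOpenMap (fun w : X × (ℕ → X) => Function.update w.2 n w.1) := by
  apply IsOpenMap.of_sections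
  intro w
  refine ⟨fun x => (x n, Function.update x n (w.2 n)), ?_, ?_, ?_⟩
  · apply Continuous.continuousAt
    exact (continuous_apply n).prodMk (continuous_id.update n continuous_const)
  · ext1
    · simp
    · simp
  · intro x
    simp

/-- Points of a box. -/
theorem exists_box (n : ℕ) {O : Set (ℕ → X)} (hO : IsOpen O) (hne : O.Nonempty) :
    ∃ (V : Set X) (G : Set (ℕ → X)), IsOpen V ∧ V.Nonempty ∧ IsOpen G ∧ G.Nonempty ∧ G ⊆ O ∧
      ∀ y ∈ V, ∀ h ∈ G, Function.update h n y ∈ O := by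
  obtain ⟨x, hx⟩ := hne
  have hW : IsOpen ((fun w : X × (ℕ → X) => Function.update w.2 n w.1) ⁻¹' O) :=
    hO.preimage (continuous_upd n)
  have hxW : (x n, x) ∈ ((fun w : X × (ℕ → X) => Function.update w.2 n w.1) ⁻¹' O) := by
    simpa using hx
  obtain ⟨V, G, hV, hG, hxV, hxG, hVG⟩ := isOpen_prod_iff.mp hW _ _ hxW
  refine ⟨V, G ∩ O, hV, ⟨_, hxV⟩, hG.inter hO, ⟨x, hxG, hx⟩, inter_subset_right, ?_⟩
  intro y hy h hh
  exact hVG (Set.mk_mem_prod hy hh.1)

/-! ### cd is open -/

theorem isOpenMap_cd : IsOpenMap cd := by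
  have hc : Continuous (fun c : X => fun (n : ℕ) (i : ℕ) => c (Nat.pair n i)) := by
    refine continuous_pi fun n => continuous_pi fun i => continuous_apply _
  refine IsOpenMap.of_inverse (f' := fun c : X => fun (n : ℕ) (i : ℕ) => c (Nat.pair n i)) hc
    ?_ ?_
  · intro c
    funext p
    simp [cd]
  · intro x
    funext n i
    simp [cd]

/-! ### Facts about everywhere nonmeagre sets -/

theorem ENM.inter_eventually {Y : Type*} [TopologicalSpace Y] {A O : Set Y} (h : ENM A O)
    {P : Y → Prop} (hP : ∀ᶠ y in residual Y, P y) : ENM (A ∩ {y | P y}) O := by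
  intro U hU hne hUO hm
  apply h U hU hne hUO
  have h2 : IsMeagre {y | ¬ P y} := by
    unfold IsMeagre
    filter_upwards [hP] with y hy hy'
    exact hy' hy
  refine (hm.union h2).mono ?_
  intro y hy
  by_cases hPy : P y
  · exact Or.inl ⟨⟨hy.1, hPy⟩, hy.2⟩
  · exact Or.inr hPy

theorem ENM.subset {Y : Type*} [TopologicalSpace Y] {A A' O O' : Set Y} (h : ENM A O)
    (hA : A ⊆ A') (hO : O' ⊆ O) : ENM A' O' :=
  fun U hU hne hUO hm => h U hU hne (hUO.trans hO)
    (hm.mono (inter_subset_inter_left _ hA))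

theorem ENM.not_meagre {Y : Type*} [TopologicalSpace Y] {A O : Set Y} (h : ENM A O)
    (hO : IsOpen O) (hne : O.Nonempty) : ¬ IsMeagre (A ∩ O) := h O hO hne subset_rfl

theorem enm_univ {Y : Type*} [TopologicalSpace Y] [BaireSpace Y] : ENM (univ : Set Y) univ := by
  intro U hU hne _ hm
  rw [univ_inter] at hm
  exact not_isMeagre_of_isOpen hU hne hm

/-! ### One half of the comparison -/

variable {p q : X → X}

theorem half (h : Auto p q) {A B C : X → X} (hA : Measurable A) (hB : Measurable B) {n : ℕ}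
    {O : Set (ℕ → X)} {V : Set X} {G : Set (ℕ → X)} (hV : IsOpen V)
    (hG : IsOpen G) (hGne : G.Nonempty)
    (hVG : ∀ y ∈ V, ∀ h ∈ G, Function.update h n y ∈ O)
    (hE : ∀ᶠ x in residual (ℕ → X), x ∈ O →
      TLE (B (x n)) (jn (A (x n)) (C (cd (Function.update x n zero)))))
    (hC : ENM {x : ℕ → X | TEq (C (cd (Function.update x n zero)))
      (p (cd (Function.update x n zero)))} G)
    (hEA : ENM {x | TEq (A x) (p x)} univ) :
    ∀ᶠ y in residual X, y ∈ V → TLE (B y) (A y) := by
  have h1 : ∀ᶠ w in residual (X × (ℕ → X)), Function.update w.2 n w.1 ∈ O →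
      TLE (B w.1) (jn (A w.1) (C (cd (Function.update w.2 n zero)))) := by
    have := (tendsto_residual_of_isOpenMap (continuous_upd n) (isOpenMap_upd n)).eventually hE
    simpa using this
  have h2 := ku h1
  have h3 : ENM ({x | TEq (A x) (p x)} ∩ {y | ∀ᶠ z in residual (ℕ → X),
      Function.update z n y ∈ O → TLE (B y) (jn (A y) (C (cd (Function.update z n zero))))})
      V := (hEA.inter_eventually h2).subset subset_rfl (subset_univ _)
  refine comeagre_of_ENM hV (B := {y | TLE (B y) (A y)}) (measurableSet_tle hB hA) h3 ?_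
  rintro y ⟨⟨hy1, hy2⟩, hyV⟩
  -- now `y` is a good point
  have hy1' : TEq (A y) (p y) := hy1
  have h4 : ENM ({x : ℕ → X | TEq (C (cd (Function.update x n zero)))
      (p (cd (Function.update x n zero)))} ∩ {z | Function.update z n y ∈ O →
        TLE (B y) (jn (A y) (C (cd (Function.update z n zero))))}) G :=
    hC.inter_eventually hy2
  have h5 : ¬ IsMeagre {z : ℕ → X | TLE (q (B y)) (jn y (cd z))} := by
    intro hm
    apply h4.not_meagre hG hGne
    apply hm.mono
    rintro z ⟨⟨hz1, hz2⟩, hzG⟩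
    have hz1' : TEq (C (cd (Function.update z n zero))) (p (cd (Function.update z n zero))) := hz1
    have hz3 : TLE (B y) (jn (A y) (C (cd (Function.update z n zero)))) :=
      hz2 (hVG y hyV z hzG)
    have hz4 : TLE (B y) (p (jn y (cd (Function.update z n zero)))) :=
      hz3.trans ((TLE.jn_mono hy1'.1 hz1'.1).trans (h.jn_le _ _))
    exact (h.le_of_le hz4).trans (TLE.jn_mono (TLE.refl _) (update_tle_cd z n))
  have h6 : ¬ IsMeagre {c : X | TLE (q (B y)) (jn y c)} := by
    intro hm
    apply h5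
    exact hm.preimage_of_isOpenMap continuous_cd isOpenMap_cd
  have h7 : TLE (q (B y)) y := tle_of_not_meagre h6
  have h8 : TLE (B y) (p y) := (h.right _).2.trans ((h.le_iff _ _).2 h7)
  exact h8.trans hy1'.2

/-! ### The comparison of two types -/

theorem compare (h : Auto p q) {Γ : ℕ → X → X} (hΓ : ∀ i, Measurable (Γ i))
    (hcov : ∀ x, ∃ i, TEq (Γ i x) (p x)) {A B : X → X} (hA : Measurable A) (hB : Measurable B)
    (hEA : ENM {x | TEq (A x) (p x)} univ) (hEB : ENM {x | TEq (B x) (p x)} univ)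
    {n t : ℕ} {O : Set (ℕ → X)} (hO : IsOpen O) (hne : O.Nonempty) {D1 D2 : Set (ℕ → X)}
    (hD1 : ENM D1 O) (hD2 : ENM D2 O)
    (h1 : ∀ x ∈ D1, TEq (A (x n)) (p (x n)) ∧ TEq (Γ t (cd x)) (p (cd x)))
    (h2 : ∀ x ∈ D2, TEq (B (x n)) (p (x n)) ∧ TEq (Γ t (cd x)) (p (cd x))) :
    ∃ V : Set X, IsOpen V ∧ V.Nonempty ∧ ∀ᶠ y in residual X, y ∈ V → TEq (A y) (B y) := by
  obtain ⟨u, O1, hO1O, hO1, hne1, hu⟩ := exists_ENM_of_cover
    (C := fun u => {x : ℕ → X | TEq (Γ u (cd (Function.update x n zero)))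
      (p (cd (Function.update x n zero)))}) hO hne hD1 (fun x _ => hcov _)
  obtain ⟨u', O2, hO2O1, hO2, hne2, hu'⟩ := exists_ENM_of_cover
    (C := fun u => {x : ℕ → X | TEq (Γ u (cd (Function.update x n zero)))
      (p (cd (Function.update x n zero)))}) hO1 hne1 (hD2.subset subset_rfl hO1O)
      (fun x _ => hcov _)
  have hu2 := hu.subset subset_rfl hO2O1
  -- measurability
  have mA : Measurable (fun x : ℕ → X => A (x n)) := hA.comp (measurable_pi_apply n)
  have mB : Measurable (fun x : ℕ → X => B (x n)) := hB.comp (measurable_pi_apply n)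
  have mt : Measurable (fun x : ℕ → X => Γ t (cd x)) := (hΓ t).comp measurable_cd
  have mupd : Measurable (fun x : ℕ → X => Function.update x n zero) :=
    (continuous_id.update n continuous_const).measurable
  have mu : ∀ u, Measurable (fun x : ℕ → X => Γ u (cd (Function.update x n zero))) := fun u =>
    (hΓ u).comp (measurable_cd.comp mupd)
  -- decomposition of the degree of `cd x`
  have key : ∀ (A : X → X) (u : ℕ) (x : ℕ → X), TEq (A (x n)) (p (x n)) →
      TEq (Γ t (cd x)) (p (cd x)) →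
      TEq (Γ u (cd (Function.update x n zero))) (p (cd (Function.update x n zero))) →
      TLE (Γ t (cd x)) (jn (A (x n)) (Γ u (cd (Function.update x n zero)))) ∧
      TLE (A (x n)) (Γ t (cd x)) := by
    intro A u x hx1 hx2 hx3
    constructor
    · have e1 : TLE (p (cd x)) (p (jn (cd (Function.update x n zero)) (x n))) :=
        (h.le_iff _ _).2 (cd_tle_update x n)
      refine hx2.1.trans (e1.trans ((h.p_jn_le _ _).trans (TLE.jn ?_ ?_)))
      · exact hx3.2.trans (TLE.right _ _)
      · exact hx1.2.trans (TLE.left _ _)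
    · exact hx1.1.trans (((h.le_iff _ _).2 (tle_cd x n)).trans hx2.2)
  have c1 : ∀ᶠ x in residual (ℕ → X), x ∈ O2 →
      (TLE (Γ t (cd x)) (jn (A (x n)) (Γ u (cd (Function.update x n zero)))) ∧
      TLE (A (x n)) (Γ t (cd x))) := by
    refine comeagre_of_ENM hO2 (B := {x | TLE (Γ t (cd x)) (jn (A (x n))
      (Γ u (cd (Function.update x n zero)))) ∧ TLE (A (x n)) (Γ t (cd x))}) ?_ hu2 ?_
    · exact (measurableSet_tle mt (measurable_jn mA (mu u))).inter (measurableSet_tle mA mt)
    · rintro x ⟨⟨hx1, hx2⟩, -⟩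
      exact key A u x (h1 x hx1).1 (h1 x hx1).2 hx2
  have c2 : ∀ᶠ x in residual (ℕ → X), x ∈ O2 →
      (TLE (Γ t (cd x)) (jn (B (x n)) (Γ u' (cd (Function.update x n zero)))) ∧
      TLE (B (x n)) (Γ t (cd x))) := by
    refine comeagre_of_ENM hO2 (B := {x | TLE (Γ t (cd x)) (jn (B (x n))
      (Γ u' (cd (Function.update x n zero)))) ∧ TLE (B (x n)) (Γ t (cd x))}) ?_ hu' ?_
    · exact (measurableSet_tle mt (measurable_jn mB (mu u'))).inter (measurableSet_tle mB mt)
    · rintro x ⟨⟨hx1, hx2⟩, -⟩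
      exact key B u' x (h2 x hx1).1 (h2 x hx1).2 hx2
  have d1 : ∀ᶠ x in residual (ℕ → X), x ∈ O2 →
      TLE (B (x n)) (jn (A (x n)) (Γ u (cd (Function.update x n zero)))) := by
    filter_upwards [c1, c2] with x hx1 hx2 hx
    exact (hx2 hx).2.trans (hx1 hx).1
  have d2 : ∀ᶠ x in residual (ℕ → X), x ∈ O2 →
      TLE (A (x n)) (jn (B (x n)) (Γ u' (cd (Function.update x n zero)))) := by
    filter_upwards [c1, c2] with x hx1 hx2 hx
    exact (hx1 hx).2.trans (hx2 hx).1
  obtain ⟨V, G, hV, hVne, hG, hGne, hGO, hVG⟩ := exists_box n hO2 hne2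
  refine ⟨V, hV, hVne, ?_⟩
  have r1 := half h hA hB hV hG hGne hVG d1
    (hu2.subset inter_subset_right hGO) hEA
  have r2 := half h hB hA hV hG hGne hVG d2
    (hu'.subset inter_subset_right hGO) hEB
  filter_upwards [r1, r2] with y hy1 hy2 hyV
  exact ⟨hy2 hyV, hy1 hyV⟩

/-- Two everywhere nonmeagre types agree comeagrely on some nonempty open set. -/
theorem no_wild (h : Auto p q) {Γ : ℕ → X → X} (hΓ : ∀ i, Measurable (Γ i))
    (hcov : ∀ x, ∃ i, TEq (Γ i x) (p x)) {A B : X → X} (hA : Measurable A) (hB : Measurable B)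
    (hEA : ENM {x | TEq (A x) (p x)} univ) (hEB : ENM {x | TEq (B x) (p x)} univ) :
    ∃ V : Set X, IsOpen V ∧ V.Nonempty ∧ ∀ᶠ y in residual X, y ∈ V → TEq (A y) (B y) := by
  classical
  let S : X → ℕ → Set X := fun ξ n =>
    if ξ n then {x | TEq (B x) (p x)} else {x | TEq (A x) (p x)}
  have hS : ∀ ξ n, ENM (S ξ n) univ := by
    intro ξ n
    simp only [S]
    split_ifs
    · exact hEB
    · exact hEA
  have hQ : ∀ ξ, ENM {x : ℕ → X | ∀ n, x n ∈ S ξ n} univ := fun ξ => not_meagre_pi _ (hS ξ)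
  have hpick : ∀ ξ : X, ∃ r : ℕ × (TopologicalSpace.countableBasis (ℕ → X)),
      ENM ({x : ℕ → X | ∀ n, x n ∈ S ξ n} ∩ {x | TEq (Γ r.1 (cd x)) (p (cd x))}) r.2 := by
    intro ξ
    obtain ⟨t, U, -, hU, hne, hE⟩ := exists_ENM_of_cover
      (C := fun t => {x : ℕ → X | TEq (Γ t (cd x)) (p (cd x))}) isOpen_univ
      univ_nonempty (hQ ξ) (fun x _ => hcov _)
    obtain ⟨x, hx⟩ := hne
    obtain ⟨O, hO, hxO, hOU⟩ :=
      (TopologicalSpace.isBasis_countableBasis (ℕ → X)).exists_subset_of_mem_open hx hU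
    exact ⟨(t, ⟨O, hO⟩), hE.subset subset_rfl hOU⟩
  choose r hr using hpick
  have hcount : Countable (ℕ × (TopologicalSpace.countableBasis (ℕ → X))) := by
    have := (TopologicalSpace.countable_countableBasis (ℕ → X)).to_subtype
    infer_instance
  have hunc : Uncountable X := by
    rw [← not_countable_iff]
    intro hc
    obtain ⟨f, hf⟩ := exists_surjective_nat X
    obtain ⟨n, hn⟩ := hf (fun n => !(f n n))
    have := congrFun hn n
    simp at this
  have hni := not_injective_uncountable_countable r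
  unfold Function.Injective at hni
  push Not at hni
  obtain ⟨ξ, η, hξη, hne⟩ := hni
  obtain ⟨n, hn⟩ := Function.ne_iff.mp hne
  obtain ⟨⟨t, ⟨O, hOb⟩⟩, hrξ⟩ : ∃ v, r ξ = v := ⟨_, rfl⟩
  have e1 := hr ξ
  have e2 := hr η
  rw [← hξη] at e2
  rw [hrξ] at e1 e2
  simp only at e1 e2
  have hO : IsOpen O := (TopologicalSpace.isBasis_countableBasis (ℕ → X)).isOpen hOb
  have hOne : O.Nonempty := by
    rw [Set.nonempty_iff_ne_empty]
    rintro rfl
    exact TopologicalSpace.empty_notMem_countableBasis _ hOb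
  have mem : ∀ (ξ : X) (x : ℕ → X), x ∈ ({x : ℕ → X | ∀ n, x n ∈ S ξ n} ∩
      {x | TEq (Γ t (cd x)) (p (cd x))}) →
      x n ∈ S ξ n ∧ TEq (Γ t (cd x)) (p (cd x)) := fun ξ x hx => ⟨hx.1 n, hx.2⟩
  cases hξn : ξ n with
  | false =>
    have hηn : η n = true := by
      cases hη : η n with
      | false => exact absurd (hξn.trans hη.symm) hn
      | true => rfl
    refine compare h hΓ hcov hA hB hEA hEB (n := n) (t := t) hO hOne e1 e2 ?_ ?_
    · intro x hx
      have := mem ξ x hx
      simpa [S, hξn] using this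
    · intro x hx
      have := mem η x hx
      simpa [S, hηn] using this
  | true =>
    have hηn : η n = false := by
      cases hη : η n with
      | false => rfl
      | true => exact absurd (hξn.trans hη.symm) hn
    refine compare h hΓ hcov hA hB hEA hEB (n := n) (t := t) hO hOne e2 e1 ?_ ?_
    · intro x hx
      have := mem η x hx
      simpa [S, hηn] using this
    · intro x hx
      have := mem ξ x hx
      simpa [S, hξn] using this

/-! ### The Borel representation -/

theorem drop_ins (a w : X) (k : ℕ) : sh^[k] (ins a k w) = w := by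
  have : ∀ (n : ℕ) (w : X) (i : ℕ), sh^[n] w i = w (n + i) := by
    intro n
    induction n with
    | zero => intro w i; simp
    | succ n ih =>
      intro w i
      rw [Function.iterate_succ_apply, ih]
      simp only [sh]
      congr 1; omega
  funext i
  rw [this]
  simp [ins]

theorem isOpenMap_iter (k : ℕ) : IsOpenMap (sh^[k]) := by
  induction k with
  | zero => exact IsOpenMap.id
  | succ k ih => exact ih.comp isOpenMap_sh

/-- Everywhere nonmeagre sets can be pulled back to a cylinder. -/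
theorem ENM.ins {S U : Set X} (h : ENM S U) (a : X) (k : ℕ) (hU : ∀ w, P327.ins a k w ∈ U) :
    ENM {w | P327.ins a k w ∈ S} univ := by
  intro G hG hne _ hm
  have hc : Continuous (sh^[k]) := continuous_sh.iterate k
  have ho : IsOpenMap (sh^[k]) := isOpenMap_iter k
  have h1 := hm.preimage_of_isOpenMap hc ho
  have hopen : IsOpen (P327.ins a k '' G) := isOpenMap_ins a k G hG
  have hsub : P327.ins a k '' G ⊆ U := by
    rintro _ ⟨w, -, rfl⟩
    exact hU w
  apply h _ hopen (hne.image _) hsub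
  refine h1.mono ?_
  rintro x ⟨hx, w, hw, rfl⟩
  simp only [mem_preimage, mem_inter_iff, mem_ofPred_eq]
  rw [drop_ins]
  exact ⟨hx, hw⟩

theorem exists_rep (h : Auto p q) {Γ : ℕ → X → X} (hΓ : ∀ i, Measurable (Γ i))
    (hcov : ∀ x, ∃ i, TEq (Γ i x) (p x)) :
    ∃ F : X → X, Measurable F ∧ ∀ᶠ x in residual X, TEq (F x) (p x) := by
  obtain ⟨i, U, -, hU, hne, hE⟩ := exists_ENM_of_cover (C := fun i => {x : X | TEq (Γ i x) (p x)})
    isOpen_univ univ_nonempty (enm_univ (Y := X)) (fun x _ => hcov x)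
  obtain ⟨a, k, hak⟩ := exists_ins hU hne
  have hE0 : ENM {w | TEq (Γ i (ins a k w)) (p w)} univ := by
    refine (hE.ins a k hak).subset ?_ subset_rfl
    rintro w ⟨-, hw⟩
    have hw' : TEq (Γ i (ins a k w)) (p (ins a k w)) := hw
    exact hw'.trans (h.congr (teq_ins a k w))
  by_cases hcase : ∃ V : Set X, IsOpen V ∧ V.Nonempty ∧
      ∀ᶠ w in residual X, w ∈ V → TEq (Γ i (ins a k w)) (p w)
  · obtain ⟨V, hV, hVne, hev⟩ := hcase
    obtain ⟨b, l, hbl⟩ := exists_ins hV hVne
    refine ⟨fun w => Γ i (ins a k (ins b l w)),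
      ((hΓ i).comp (measurable_ins a k)).comp (measurable_ins b l), ?_⟩
    filter_upwards [eventually_ins b l hev] with w hw
    exact (hw (hbl w)).trans (h.congr (teq_ins b l w))
  · exfalso
    have hN : ENM {w | ¬ TEq (Γ i (ins a k w)) (p w)} univ := by
      intro V hV hVne _ hm
      apply hcase
      refine ⟨V, hV, hVne, ?_⟩
      unfold IsMeagre at hm
      filter_upwards [hm] with w hw hwV
      by_contra hc
      exact hw ⟨hc, hwV⟩
    obtain ⟨j, U2, -, hU2, hne2, hE2⟩ := exists_ENM_of_cover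
      (C := fun j => {x : X | TEq (Γ j x) (p x)}) isOpen_univ univ_nonempty hN
      (fun x _ => hcov x)
    obtain ⟨b, l, hbl⟩ := exists_ins hU2 hne2
    have hA1 : ENM {w | TEq (Γ i (ins a k (ins b l w))) (p w)} univ := by
      refine ((hE0.subset subset_rfl (subset_univ U2)).ins b l hbl).subset ?_ subset_rfl
      intro w hw
      have hw' : TEq (Γ i (ins a k (ins b l w))) (p (ins b l w)) := hw
      exact hw'.trans (h.congr (teq_ins b l w))
    have hB1 : ENM {w | ¬ TEq (Γ i (ins a k (ins b l w))) (p (ins b l w)) ∧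
        TEq (Γ j (ins b l w)) (p w)} univ := by
      refine (hE2.ins b l hbl).subset ?_ subset_rfl
      rintro w ⟨hw1, hw2⟩
      have hw2' : TEq (Γ j (ins b l w)) (p (ins b l w)) := hw2
      exact ⟨hw1, hw2'.trans (h.congr (teq_ins b l w))⟩
    obtain ⟨V, hV, hVne, hev⟩ := no_wild h hΓ hcov
      (A := fun w => Γ i (ins a k (ins b l w))) (B := fun w => Γ j (ins b l w))
      (((hΓ i).comp (measurable_ins a k)).comp (measurable_ins b l))
      ((hΓ j).comp (measurable_ins b l)) hA1 (hB1.subset (fun w hw => hw.2) subset_rfl)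
    have h9 := (hB1.inter_eventually hev).subset subset_rfl (subset_univ V)
    obtain ⟨w, ⟨⟨hw1, hw2⟩, hw3⟩, hwV⟩ := nonempty_of_not_isMeagre (h9.not_meagre hV hVne)
    apply hw1
    exact (hw3 hwV).trans (hw2.trans (h.congr (teq_ins b l w).symm))

end P327
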