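import Vale.Agent.P327.Defs

/-!
Closure properties of string functionals.
-/

namespace P327

/-! ### Building a string from a bit function -/

/-- One step of `fromBits`. -/
def fbStep (bit : List Bool → ℕ → Option Bool) (s : List Bool) (acc : List Bool) (i : ℕ) :
    List Bool :=
  if acc.length = i then
    match bit s i with
    | some b => acc ++ [b]
    | none => acc
  else acc

/-- The string of consecutive values of `bit s 0, bit s 1, ...`, up to the first undefined one
and up to the length of `s`. -/
def fromBits (bit : List Bool → ℕ → Option Bool) (s : List Bool) : List Bool :=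
  (List.range s.length).foldl (fbStep bit s) []

theorem fromBits_aux (bit : List Bool → ℕ → Option Bool) (s : List Bool) (N : ℕ) :
    let r := (List.range N).foldl (fbStep bit s) []
    (r.length ≤ N) ∧ (∀ i b, r[i]? = some b → bit s i = some b) ∧
    (∀ i, i < N → (∀ j, j ≤ i → (bit s j).isSome) → i < r.length) := by
  induction N with
  | zero => simp
  | succ N ih =>
    simp only [List.range_succ, List.foldl_append, List.foldl_cons, List.foldl_nil]
    simp only at ih
    set r := (List.range N).foldl (fbStep bit s) [] with hr
    obtain ⟨h1, h2, h3⟩ := ih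
    unfold fbStep
    by_cases hl : r.length = N
    · rw [if_pos hl]
      cases hb : bit s N with
      | none =>
        refine ⟨by dsimp only; omega, h2, fun i hi hj => ?_⟩
        have : i < N := by
          rcases Nat.lt_succ_iff_lt_or_eq.mp hi with h | h
          · exact h
          · exfalso
            have := hj N (by omega)
            rw [hb] at this
            simp at this
        exact h3 i this hj
      | some b =>
        simp only
        refine ⟨by simp; omega, fun i b' h => ?_, fun i hi hj => ?_⟩
        · rw [List.getElem?_append] at h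
          by_cases hi : i < r.length
          · rw [if_pos hi] at h; exact h2 i b' h
          · rw [if_neg hi] at h
            have : i = N := by
              by_contra hne
              have : i - r.length ≠ 0 := by omega
              obtain ⟨k, hk⟩ := Nat.exists_eq_succ_of_ne_zero this
              rw [hk] at h
              simp at h
            subst this
            rw [hl] at h
            simp at h
            rw [hb, h]
        · simp; omega
    · rw [if_neg hl]
      refine ⟨by omega, h2, fun i hi hj => ?_⟩
      rcases Nat.lt_succ_iff_lt_or_eq.mp hi with h | h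
      · exact h3 i h hj
      · exfalso
        apply hl
        have : N - 1 < r.length ∨ N = 0 := by
          by_cases hN : N = 0
          · right; exact hN
          · left; exact h3 (N - 1) (by omega) (fun j hj' => hj j (by omega))
        omega

theorem fromBits_sound {bit : List Bool → ℕ → Option Bool} {s : List Bool} {i : ℕ} {b : Bool}
    (h : (fromBits bit s)[i]? = some b) : bit s i = some b :=
  (fromBits_aux bit s s.length).2.1 i b h

theorem lt_length_fromBits {bit : List Bool → ℕ → Option Bool} {s : List Bool} {i : ℕ}
    (hi : i < s.length) (h : ∀ j, j ≤ i → (bit s j).isSome) : i < (fromBits bit s).length :=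
  (fromBits_aux bit s s.length).2.2 i hi h

theorem primrec_fromBits {bit : List Bool → ℕ → Option Bool} (hb : Primrec₂ bit) :
    Primrec (fromBits bit) := by
  unfold fromBits
  have h1 : Primrec (fun s : List Bool => List.range s.length) :=
    Primrec.list_range.comp Primrec.list_length
  have h2 : Primrec (fun _ : List Bool => ([] : List Bool)) := Primrec.const _
  refine Primrec.list_foldl h1 h2 (?_ : Primrec₂ fun (s : List Bool) (p : List Bool × ℕ) =>
    fbStep bit s p.1 p.2)
  unfold fbStep
  have hacc : Primrec (fun q : List Bool × (List Bool × ℕ) => q.2.1) :=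
    Primrec.fst.comp Primrec.snd
  have hi : Primrec (fun q : List Bool × (List Bool × ℕ) => q.2.2) :=
    Primrec.snd.comp Primrec.snd
  have hbit : Primrec (fun q : List Bool × (List Bool × ℕ) => bit q.1 q.2.2) :=
    hb.comp Primrec.fst hi
  have hmatch : Primrec (fun q : List Bool × (List Bool × ℕ) =>
      (match bit q.1 q.2.2 with
        | some b => q.2.1 ++ [b]
        | none => q.2.1 : List Bool)) := by
    have := Primrec.option_casesOn (α := List Bool × (List Bool × ℕ)) hbit hacc
      (g := fun q b => q.2.1 ++ [b])
      (Primrec.list_append.comp (hacc.comp Primrec.fst)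
        (Primrec.list_cons.comp Primrec.snd (Primrec.const [])))
    refine this.of_eq fun q => ?_
    cases bit q.1 q.2.2 <;> rfl
  exact Primrec.ite (Primrec.eq.comp (Primrec.list_length.comp hacc) hi) hmatch hacc

theorem Rel.fromBits {r g : X} {bit : List Bool → ℕ → Option Bool}
    (sound : ∀ k p b, bit (pre g k) p = some b → r p = b)
    (exist : ∀ p, ∃ K, ∀ k, K ≤ k → (bit (pre g k) p).isSome) :
    Rel (fromBits bit) g r := by
  refine ⟨fun k i b h => sound k i b (fromBits_sound h), fun n => ?_⟩
  choose K hK using exist
  refine ⟨max (n + 1) ((Finset.range (n + 1)).sup K), fun k hk => ?_⟩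
  apply lt_length_fromBits
  · rw [length_pre]; exact lt_of_lt_of_le (Nat.lt_succ_self n) (le_trans (le_max_left _ _) hk)
  · intro j hj
    apply hK
    refine le_trans ?_ hk
    refine le_trans ?_ (le_max_right _ _)
    exact Finset.le_sup (f := K) (Finset.mem_range.mpr (by omega))

/-- Bitwise criterion for reducibility. -/
theorem TLE.of_bits {r g : X} (bit : List Bool → ℕ → Option Bool) (hb : Primrec₂ bit)
    (sound : ∀ k p b, bit (pre g k) p = some b → r p = b)
    (exist : ∀ p, ∃ K, ∀ k, K ≤ k → (bit (pre g k) p).isSome) : TLE r g :=
  ⟨fromBits bit, primrec_fromBits hb, Rel.fromBits sound exist⟩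

/-! ### Index maps -/

/-- The string functional of an index map. -/
def idx (φ : ℕ → ℕ) : List Bool → List Bool := fromBits (fun s i => s[φ i]?)

theorem primrec_idx {φ : ℕ → ℕ} (hφ : Primrec φ) : Primrec (idx φ) := by
  apply primrec_fromBits
  exact Primrec.list_getElem?.comp Primrec.fst (hφ.comp Primrec.snd)

theorem Rel.idx (φ : ℕ → ℕ) (x : X) : Rel (idx φ) x (fun n => x (φ n)) := by
  apply Rel.fromBits
  · intro k p b h
    exact (getElem?_pre_eq_some.mp h).2
  · intro p
    refine ⟨φ p + 1, fun k hk => ?_⟩
    rw [getElem?_pre, if_pos (by omega)]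
    rfl

theorem TLE.idx {φ : ℕ → ℕ} (hφ : Primrec φ) (x : X) : TLE (fun n => x (φ n)) x :=
  ⟨_, primrec_idx hφ, Rel.idx φ x⟩

/-! ### Search -/

/-- The bit function given by searching for a witness string. -/
def searchBit (val : List Bool → List Bool → List Bool) (s : List Bool) (i : ℕ) : Option Bool :=
  ((List.range s.length).filterMap
    (fun c => (Encodable.decode (α := List Bool) c).bind fun t => (val s t)[i]?)).head?

theorem primrec_searchBit {val : List Bool → List Bool → List Bool} (hv : Primrec₂ val) :
    Primrec₂ (searchBit val) := by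
  unfold searchBit
  refine Primrec.list_head?.comp (Primrec.listFilterMap
    (Primrec.list_range.comp (Primrec.list_length.comp Primrec.fst)) ?_)
  refine Primrec.option_bind (Primrec.decode.comp Primrec.snd) ?_
  exact Primrec.list_getElem?.comp
    (hv.comp (Primrec.fst.comp (Primrec.fst.comp Primrec.fst)) Primrec.snd)
    (Primrec.snd.comp (Primrec.fst.comp Primrec.fst))

/-- Reducibility from a search over witness strings. -/
theorem TLE.of_search {r g : X} (val : List Bool → List Bool → List Bool) (hv : Primrec₂ val)
    (sound : ∀ k t i b, (val (pre g k) t)[i]? = some b → r i = b)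
    (exist : ∀ i, ∃ t K, ∀ k, K ≤ k → i < (val (pre g k) t).length) : TLE r g := by
  apply TLE.of_bits (searchBit val) (primrec_searchBit hv)
  · intro k p b h
    unfold searchBit at h
    have := List.mem_of_mem_head? h
    rw [List.mem_filterMap] at this
    obtain ⟨c, -, hc⟩ := this
    rw [Option.bind_eq_some_iff] at hc
    obtain ⟨t, -, ht⟩ := hc
    exact sound k t p b ht
  · intro p
    obtain ⟨t, K, hK⟩ := exist p
    refine ⟨max K (Encodable.encode t + 1), fun k hk => ?_⟩
    unfold searchBit
    rw [List.isSome_head?]
    have hlt := hK k (le_trans (le_max_left _ _) hk)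
    apply List.ne_nil_of_mem (a := (val (pre g k) t)[p])
    rw [List.mem_filterMap]
    refine ⟨Encodable.encode t, ?_, ?_⟩
    · rw [List.mem_range, length_pre]
      exact lt_of_lt_of_le (Nat.lt_succ_self _) (le_trans (le_max_right _ _) hk)
    · rw [Encodable.encodek]
      simp [hlt]

/-! ### Joins -/

/-- Even bits. -/
def evens : List Bool → List Bool := idx (fun n => 2 * n)
/-- Odd bits. -/
def odds : List Bool → List Bool := idx (fun n => 2 * n + 1)

theorem primrec_evens : Primrec evens :=
  primrec_idx (Primrec.nat_mul.comp (Primrec.const 2) Primrec.id)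

theorem primrec_odds : Primrec odds :=
  primrec_idx (Primrec.succ.comp (Primrec.nat_mul.comp (Primrec.const 2) Primrec.id))

theorem Rel.evens (x y : X) : Rel evens (jn x y) x := by
  have h : (fun n => jn x y (2 * n)) = x := by
    funext n
    simp [jn]
  have h' := Rel.idx (fun n => 2 * n) (jn x y)
  rw [h] at h'
  exact h'

theorem Rel.odds (x y : X) : Rel odds (jn x y) y := by
  have h : (fun n => jn x y (2 * n + 1)) = y := by
    funext n
    have h1 : (2 * n + 1) % 2 = 1 := by omega
    have h2 : (2 * n + 1) / 2 = n := by omega
    simp [jn, h1, h2]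
  have h' := Rel.idx (fun n => 2 * n + 1) (jn x y)
  rw [h] at h'
  exact h'

/-- Interleaving of two strings, truncated to twice the minimal length. -/
def il (s t : List Bool) : List Bool :=
  (List.range (2 * min s.length t.length)).map
    (fun i => if i % 2 = 0 then s.getD (i / 2) false else t.getD (i / 2) false)

theorem primrec_il : Primrec₂ il := by
  unfold il
  refine Primrec.list_map (Primrec.list_range.comp (Primrec.nat_mul.comp (Primrec.const 2)
    (Primrec.nat_min.comp (Primrec.list_length.comp Primrec.fst)
      (Primrec.list_length.comp Primrec.snd)))) ?_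
  have hi : Primrec (fun p : (List Bool × List Bool) × ℕ => p.2) := Primrec.snd
  refine Primrec.ite (Primrec.eq.comp (Primrec.nat_mod.comp hi (Primrec.const 2))
    (Primrec.const 0)) ?_ ?_
  · exact (Primrec.list_getD false).comp (Primrec.fst.comp Primrec.fst)
      (Primrec.nat_div.comp hi (Primrec.const 2))
  · exact (Primrec.list_getD false).comp (Primrec.snd.comp Primrec.fst)
      (Primrec.nat_div.comp hi (Primrec.const 2))

theorem length_il (s t : List Bool) : (il s t).length = 2 * min s.length t.length := by
  simp [il]

theorem il_pre (x y : X) (m n : ℕ) : il (pre x m) (pre y n) = pre (jn x y) (2 * min m n) := by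
  unfold il pre
  simp only [List.length_map, List.length_range]
  apply List.map_congr_left
  intro i hi
  rw [List.mem_range] at hi
  unfold jn
  by_cases h : i % 2 = 0
  · rw [if_pos h, if_pos h]
    exact getD_pre x m (i / 2) (by omega) false
  · rw [if_neg h, if_neg h]
    exact getD_pre y n (i / 2) (by omega) false

theorem Rel.il {f g : List Bool → List Bool} {x y z : X} (hf : Rel f x y) (hg : Rel g x z) :
    Rel (fun s => il (f s) (g s)) x (jn y z) := by
  apply Rel.of_pre (fun k => 2 * min (f (pre x k)).length (g (pre x k)).length)
  · intro k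
    rw [hf.pre_eq k, hg.pre_eq k, il_pre]
    simp
  · intro n
    obtain ⟨K, hK⟩ := hf.2 n
    obtain ⟨K', hK'⟩ := hg.2 n
    refine ⟨max K K', fun k hk => ?_⟩
    have h1 := hK k (le_trans (le_max_left _ _) hk)
    have h2 := hK' k (le_trans (le_max_right _ _) hk)
    omega

theorem TLE.left (x y : X) : TLE x (jn x y) := ⟨_, primrec_evens, Rel.evens x y⟩
theorem TLE.right (x y : X) : TLE y (jn x y) := ⟨_, primrec_odds, Rel.odds x y⟩

theorem TLE.jn {x y z : X} (h : TLE x z) (h' : TLE y z) : TLE (jn x y) z := by
  obtain ⟨f, hf, hr⟩ := h
  obtain ⟨g, hg, hs⟩ := h'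
  exact ⟨fun s => P327.il (f s) (g s), primrec_il.comp hf hg, hr.il hs⟩

theorem TLE.jn_mono {x y x' y' : X} (h : TLE x x') (h' : TLE y y') :
    TLE (P327.jn x y) (P327.jn x' y') :=
  TLE.jn (h.trans (TLE.left _ _)) (h'.trans (TLE.right _ _))

/-! ### Exclusive or -/

theorem tle_xr (x y : X) : TLE (xr x y) (jn x y) := by
  apply TLE.of_bits (fun s i => (s[2 * i]?).bind fun a => (s[2 * i + 1]?).map fun b => xor a b)
  · refine Primrec.option_bind (Primrec.list_getElem?.comp Primrec.fst
      (Primrec.nat_mul.comp (Primrec.const 2) Primrec.snd)) ?_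
    refine Primrec.option_map (Primrec.list_getElem?.comp (Primrec.fst.comp Primrec.fst)
      (Primrec.succ.comp (Primrec.nat_mul.comp (Primrec.const 2)
        (Primrec.snd.comp Primrec.fst)))) ?_
    exact (Primrec.dom_finite (fun p : Bool × Bool => xor p.1 p.2)).comp
      (Primrec.pair (Primrec.snd.comp Primrec.fst) Primrec.snd)
  · intro k p b h
    simp only [Option.bind_eq_some_iff, Option.map_eq_some_iff] at h
    obtain ⟨a, ha, c, hc, rfl⟩ := h
    rw [getElem?_pre_eq_some] at ha hc
    have h1 : (2 * p + 1) % 2 = 1 := by omega
    have h2 : (2 * p + 1) / 2 = p := by omega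
    have ha2 := ha.2
    have hc2 := hc.2
    simp only [jn, h1, h2] at ha2 hc2
    simp at ha2 hc2
    simp [xr, ha2, hc2]
  · intro p
    refine ⟨2 * p + 2, fun k hk => ?_⟩
    rw [getElem?_pre, if_pos (by omega), getElem?_pre, if_pos (by omega)]
    rfl

theorem tle_sh (x : X) : TLE (sh x) x := TLE.idx (φ := fun n => n + 1) Primrec.succ x

/-! ### Finite prefixes -/

theorem Rel.ins (a : X) (k : ℕ) (w : X) : Rel (fun s => pre a k ++ s) w (ins a k w) := by
  apply Rel.of_pre (fun n => k + n)
  · intro n
    apply List.ext_getElem?
    intro i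
    rw [List.getElem?_append, getElem?_pre, getElem?_pre, getElem?_pre]
    simp only [length_pre, P327.ins]
    split_ifs <;> first | rfl | omega
  · intro n
    exact ⟨n + 1, fun k' hk' => by omega⟩

theorem tle_ins (a : X) (k : ℕ) (w : X) : TLE (ins a k w) w :=
  ⟨_, Primrec.list_append.comp (Primrec.const (pre a k)) Primrec.id, Rel.ins a k w⟩

theorem tle_of_ins (a : X) (k : ℕ) (w : X) : TLE w (ins a k w) := by
  have := TLE.idx (φ := fun n => n + k) (Primrec.nat_add.comp Primrec.id (Primrec.const k))
    (ins a k w)
  convert this using 1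
  funext n
  simp [ins]

theorem teq_ins (a : X) (k : ℕ) (w : X) : TEq (ins a k w) w := ⟨tle_ins a k w, tle_of_ins a k w⟩

/-! ### Sequences of reals -/

theorem Rel.column (n : ℕ) (x : ℕ → X) :
    Rel (P327.idx (fun j => Nat.pair n j)) (cd x) (x n) := by
  have h : (fun j => cd x (Nat.pair n j)) = x n := by
    funext j
    simp [cd]
  have h' := Rel.idx (fun j => Nat.pair n j) (cd x)
  rw [h] at h'
  exact h'

theorem primrec_column (n : ℕ) : Primrec (idx (fun j => Nat.pair n j)) :=
  primrec_idx (Primrec₂.natPair.comp (Primrec.const n) Primrec.id)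

theorem tle_cd (x : ℕ → X) (n : ℕ) : TLE (x n) (cd x) := ⟨_, primrec_column n, Rel.column n x⟩

/-- The zero real. -/
def zero : X := fun _ => false

theorem tle_zero (z : X) : TLE zero z := by
  apply TLE.of_bits (fun _ _ => some false) (Primrec.const _)
  · intro k p b h
    simp at h
    simp [zero, h]
  · intro p
    exact ⟨0, fun k _ => rfl⟩

theorem cd_tle_update (x : ℕ → X) (n : ℕ) :
    TLE (cd x) (jn (cd (Function.update x n zero)) (x n)) := by
  apply TLE.of_bits (fun s p => if p.unpair.1 = n then s[2 * p.unpair.2 + 1]? else s[2 * p]?)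
  · refine Primrec.ite (Primrec.eq.comp (Primrec.fst.comp (Primrec.unpair.comp Primrec.snd))
      (Primrec.const n)) ?_ ?_
    · exact Primrec.list_getElem?.comp Primrec.fst (Primrec.succ.comp
        (Primrec.nat_mul.comp (Primrec.const 2)
          (Primrec.snd.comp (Primrec.unpair.comp Primrec.snd))))
    · exact Primrec.list_getElem?.comp Primrec.fst
        (Primrec.nat_mul.comp (Primrec.const 2) Primrec.snd)
  · intro k p b h
    by_cases hp : p.unpair.1 = n
    · simp only [hp, if_true] at h
      rw [getElem?_pre_eq_some] at h
      have h1 : (2 * p.unpair.2 + 1) % 2 = 1 := by omega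
      have h2 : (2 * p.unpair.2 + 1) / 2 = p.unpair.2 := by omega
      have h3 := h.2
      simp only [jn, h1, h2] at h3
      simp at h3
      simp [cd, hp, h3]
    · simp only [hp, if_false] at h
      rw [getElem?_pre_eq_some] at h
      have h3 := h.2
      simp [jn, cd, Function.update, hp] at h3
      simp [cd, h3]
  · intro p
    refine ⟨2 * p.unpair.2 + 2 + 2 * p, fun k hk => ?_⟩
    by_cases hp : p.unpair.1 = n
    · simp only [hp, if_true]
      rw [getElem?_pre, if_pos (by omega)]
      rfl
    · simp only [hp, if_false]
      rw [getElem?_pre, if_pos (by omega)]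
      rfl

theorem update_tle_cd (x : ℕ → X) (n : ℕ) :
    TLE (cd (Function.update x n zero)) (cd x) := by
  apply TLE.of_bits (fun s p => if p.unpair.1 = n then some false else s[p]?)
  · refine Primrec.ite (Primrec.eq.comp (Primrec.fst.comp (Primrec.unpair.comp Primrec.snd))
      (Primrec.const n)) ?_ ?_
    · exact Primrec.const _
    · exact Primrec.list_getElem?.comp Primrec.fst Primrec.snd
  · intro k p b h
    by_cases hp : p.unpair.1 = n
    · simp only [hp, if_true] at h
      simp at h
      simp [cd, Function.update, hp, h, zero]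
    · simp only [hp, if_false] at h
      rw [getElem?_pre_eq_some] at h
      have h3 := h.2
      simp [cd] at h3
      simp [cd, Function.update, hp, h3]
  · intro p
    refine ⟨p + 1, fun k hk => ?_⟩
    by_cases hp : p.unpair.1 = n
    · simp [hp]
    · simp only [hp, if_false]
      rw [getElem?_pre, if_pos (by omega)]
      rfl

theorem cd_tle_of_finite (M : ℕ) (x : ℕ → X) (z : X) (h : ∀ i, i < M → TLE (x i) z)
    (h0 : ∀ i, M ≤ i → x i = zero) : TLE (cd x) z := by
  induction M generalizing x with
  | zero =>
    have : cd x = zero := by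
      funext p
      simp [cd, h0 _ (Nat.zero_le _), zero]
    rw [this]
    exact tle_zero z
  | succ M ih =>
    refine (cd_tle_update x M).trans (TLE.jn (ih _ ?_ ?_) (h M (Nat.lt_succ_self M)))
    · intro i hi
      rw [Function.update_of_ne (by omega)]
      exact h i (by omega)
    · intro i hi
      by_cases hiM : i = M
      · subst hiM; simp
      · rw [Function.update_of_ne hiM]
        exact h0 i (by omega)

/-! ### Iteration -/

theorem iterate_tle {T : List Bool → List Bool} (hT : Primrec T) (u : ℕ → X) (P : X)
    (h : ∀ n, Rel T (jn (u n) P) (u (n + 1))) (w : X) (hw : ∀ n, u n 0 = w n) :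
    TLE w (jn (u 0) P) := by
  have key : ∀ n k, ∃ m, (fun v => T (il v (odds (pre (jn (u 0) P) k))))^[n]
      (evens (pre (jn (u 0) P) k)) = pre (u n) m := by
    intro n k
    induction n with
    | zero => exact ⟨_, (Rel.evens (u 0) P).pre_eq k⟩
    | succ n ih =>
      obtain ⟨m, hm⟩ := ih
      rw [Function.iterate_succ_apply', hm, (Rel.odds (u 0) P).pre_eq k, il_pre]
      exact ⟨_, (h n).pre_eq _⟩
  have key2 : ∀ n L, ∃ K, ∀ k, K ≤ k →
      L < ((fun v => T (il v (odds (pre (jn (u 0) P) k))))^[n]
      (evens (pre (jn (u 0) P) k))).length := by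
    intro n
    induction n with
    | zero => exact fun L => (Rel.evens (u 0) P).2 L
    | succ n ih =>
      intro L
      obtain ⟨K1, hK1⟩ := (h n).2 L
      obtain ⟨K2, hK2⟩ := ih K1
      obtain ⟨K3, hK3⟩ := (Rel.odds (u 0) P).2 K1
      refine ⟨max K2 K3, fun k hk => ?_⟩
      rw [Function.iterate_succ_apply']
      obtain ⟨m, hm⟩ := key n k
      have h2 := hK2 k (le_trans (le_max_left _ _) hk)
      have h3 := hK3 k (le_trans (le_max_right _ _) hk)
      rw [hm] at h2 ⊢
      rw [(Rel.odds (u 0) P).pre_eq k, il_pre]
      rw [length_pre] at h2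
      exact hK1 _ (by omega)
  apply TLE.of_bits (fun s n => ((fun v => T (il v (odds s)))^[n] (evens s))[0]?)
  · refine Primrec.list_getElem?.comp (Primrec.nat_iterate Primrec.snd
      (primrec_evens.comp Primrec.fst) ?_) (Primrec.const 0)
    exact hT.comp (primrec_il.comp Primrec.snd (primrec_odds.comp (Primrec.fst.comp Primrec.fst)))
  · intro k p b hb
    obtain ⟨m, hm⟩ := key p k
    rw [hm, getElem?_pre_eq_some] at hb
    rw [← hw p]
    exact hb.2
  · intro p
    obtain ⟨K, hK⟩ := key2 p 0
    refine ⟨K, fun k hk => ?_⟩
    simpa using hK k hk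

/-! ### Finite case distinction -/

theorem take_pre (x : X) {N n : ℕ} (h : N ≤ n) : (pre x n).take N = pre x N := by
  unfold pre
  rw [← List.map_take, List.take_range, min_eq_left h]

theorem case_rel (N : ℕ) (t : List Bool) (test out : ℕ → List Bool → List Bool)
    (ht : ∀ i, Primrec (test i)) (ho : ∀ i, Primrec (out i)) (M : ℕ) :
    ∃ T : List Bool → List Bool, Primrec T ∧ ∀ (z y : X) (r : ℕ → X),
      (∀ i, i < M → Rel (test i) z (r i)) →
      (∀ i, i < M → pre (r i) N = t → Rel (out i) z y) →
      (∃ i, i < M ∧ pre (r i) N = t) → Rel T z y := by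
  induction M with
  | zero => exact ⟨fun s => s, Primrec.id, fun z y r _ _ ⟨i, hi, _⟩ => absurd hi (by omega)⟩
  | succ M ih =>
    obtain ⟨T, hT, hT'⟩ := ih
    refine ⟨fun s => if N ≤ (test M s).length then
      (if (test M s).take N = t then out M s else T s) else [], ?_, ?_⟩
    · refine Primrec.ite (Primrec.nat_le.comp (Primrec.const N)
        (Primrec.list_length.comp (ht M))) ?_ (Primrec.const [])
      exact Primrec.ite (Primrec.eq.comp (Primrec.list_take.comp (Primrec.const N) (ht M))
        (Primrec.const t)) (ho M) hT
    · intro z y r h1 h2 h3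
      have hM := h1 M (Nat.lt_succ_self M)
      have htake : ∀ k, N ≤ (test M (pre z k)).length →
          (test M (pre z k)).take N = pre (r M) N := by
        intro k hk
        rw [hM.pre_eq k]
        exact take_pre _ hk
      obtain ⟨K, hK⟩ := hM.2 N
      by_cases hc : pre (r M) N = t
      · have ho' := h2 M (Nat.lt_succ_self M) hc
        refine ⟨fun k i b hb => ?_, fun n => ?_⟩
        · simp only at hb
          by_cases hl : N ≤ (test M (pre z k)).length
          · rw [if_pos hl, if_pos ((htake k hl).trans hc)] at hb
            exact ho'.1 k i b hb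
          · rw [if_neg hl] at hb
            simp at hb
        · obtain ⟨K', hK'⟩ := ho'.2 n
          refine ⟨max K K', fun k hk => ?_⟩
          have hl := (hK k (le_trans (le_max_left _ _) hk)).le
          simp only
          rw [if_pos hl, if_pos ((htake k hl).trans hc)]
          exact hK' k (le_trans (le_max_right _ _) hk)
      · have hT'' : Rel T z y := by
          apply hT' z y r (fun i hi => h1 i (by omega)) (fun i hi => h2 i (by omega))
          obtain ⟨i, hi, hi'⟩ := h3
          refine ⟨i, ?_, hi'⟩
          rcases Nat.lt_succ_iff_lt_or_eq.mp hi with h | h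
          · exact h
          · subst h; exact absurd hi' hc
        refine ⟨fun k i b hb => ?_, fun n => ?_⟩
        · simp only at hb
          by_cases hl : N ≤ (test M (pre z k)).length
          · rw [if_pos hl, if_neg (by rw [htake k hl]; exact hc)] at hb
            exact hT''.1 k i b hb
          · rw [if_neg hl] at hb
            simp at hb
        · obtain ⟨K', hK'⟩ := hT''.2 n
          refine ⟨max K K', fun k hk => ?_⟩
          have hl := (hK k (le_trans (le_max_left _ _) hk)).le
          simp only
          rw [if_pos hl, if_neg (by rw [htake k hl]; exact hc)]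
          exact hK' k (le_trans (le_max_right _ _) hk)

/-! ### Countability of the set of functionals -/

theorem countable_primrec : {f : List Bool → List Bool | Primrec f}.Countable := by
  classical
  let g : Nat.Partrec.Code → (List Bool → List Bool) := fun c s =>
    if h : (c.eval (Encodable.encode s)).Dom then
      ((Encodable.decode (α := Option (List Bool)) ((c.eval (Encodable.encode s)).get h)).join).getD []
    else []
  apply (Set.countable_range g).mono
  intro f hf
  have h1 : Nat.Primrec fun n => Encodable.encode ((Encodable.decode (α := List Bool) n).map f) := hf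
  have h2 := Nat.Partrec.of_primrec h1
  obtain ⟨c, hc⟩ := Nat.Partrec.Code.exists_code.mp h2
  refine ⟨c, ?_⟩
  funext s
  have h3 : c.eval (Encodable.encode s) = Part.some (Encodable.encode (some (f s))) := by
    rw [hc]
    simp
  simp only [g, h3, Part.some_dom, dif_pos, Part.get_some]
  simp

/-- An enumeration of all primitive recursive string maps. -/
theorem exists_enum : ∃ φ : ℕ → List Bool → List Bool, (∀ i, Primrec (φ i)) ∧
    ∀ f, Primrec f → ∃ i, φ i = f := by
  obtain ⟨φ, hφ⟩ := countable_primrec.exists_eq_range ⟨fun s => s, Primrec.id⟩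
  refine ⟨φ, fun i => ?_, fun f hf => ?_⟩
  · have : φ i ∈ Set.range φ := ⟨i, rfl⟩
    rw [← hφ] at this
    exact this
  · have : f ∈ Set.range φ := by rw [← hφ]; exact hf
    exact this

/-- A fixed enumeration of all primitive recursive string maps. -/
noncomputable def en : ℕ → List Bool → List Bool := Classical.choose exists_enum

theorem primrec_en (i : ℕ) : Primrec (en i) := (Classical.choose_spec exists_enum).1 i

theorem exists_en {f : List Bool → List Bool} (hf : Primrec f) : ∃ i, en i = f :=
  (Classical.choose_spec exists_enum).2 f hf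

theorem tle_iff_en {x y : X} : TLE y x ↔ ∃ i, Rel (en i) x y := by
  constructor
  · rintro ⟨f, hf, hr⟩
    obtain ⟨i, rfl⟩ := exists_en hf
    exact ⟨i, hr⟩
  · rintro ⟨i, hi⟩
    exact ⟨_, primrec_en i, hi⟩

end P327
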