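import Vale.Agent.P327.Cat

/-!
The main trick: an automorphism with a Borel representation satisfies `q x ≤ x`.
-/

open Filter Topology Set

namespace P327

/-! ### Algebra of `xr`, `ins`, `sh` -/

theorem xr_ins (a b x c : X) (k : ℕ) : xr (ins a k x) (ins b k c) = ins (xr a b) k (xr x c) := by
  funext n
  simp only [xr, ins]
  split_ifs <;> rfl

theorem xr_self_right (x c : X) : xr (xr x c) c = x := by
  funext n; simp [xr]

theorem xr_cancel_mid (x c d : X) : xr (xr x c) (xr c d) = xr x d := by
  funext n; simp only [xr]; cases x n <;> cases c n <;> cases d n <;> rfl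

theorem xr_self_left (g b : X) : xr g (xr g b) = b := by
  funext n; simp only [xr]; cases g n <;> cases b n <;> rfl

theorem sh_xr (x y : X) : sh (xr x y) = xr (sh x) (sh y) := rfl

theorem ins_ins (a b w : X) (k l : ℕ) : ins a k (ins b l w) = ins (ins a k b) (k + l) w := by
  funext n
  simp only [ins]
  by_cases h1 : n < k
  · rw [if_pos h1, if_pos (by omega), if_pos h1]
  · rw [if_neg h1]
    by_cases h2 : n - k < l
    · rw [if_pos h2, if_pos (by omega), if_neg h1]
    · rw [if_neg h2, if_neg (by omega)]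
      congr 1
      omega

theorem eq_ins_of_agree {a w : X} {k : ℕ} (h : ∀ i, i < k → w i = a i) :
    w = ins a k (fun n => w (n + k)) := by
  funext n
  simp only [ins]
  split_ifs with h1
  · exact h n h1
  · congr 1; omega

/-! ### Automorphisms -/

namespace Auto

variable {p q : X → X}

theorem congr (h : Auto p q) {x y : X} (e : TEq x y) : TEq (p x) (p y) :=
  ⟨(h.le_iff x y).2 e.1, (h.le_iff y x).2 e.2⟩

theorem le_of_le (h : Auto p q) {x y : X} (e : TLE x (p y)) : TLE (q x) y := by
  rw [← h.le_iff]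
  exact (h.right x).1.trans e

theorem jn_le (h : Auto p q) (x y : X) : TLE (jn (p x) (p y)) (p (jn x y)) :=
  TLE.jn ((h.le_iff _ _).2 (TLE.left x y)) ((h.le_iff _ _).2 (TLE.right x y))

theorem q_mono (h : Auto p q) {x y : X} (e : TLE x y) : TLE (q x) (q y) :=
  h.le_of_le (e.trans (h.right y).2)

theorem q_jn_le (h : Auto p q) (x y : X) : TLE (q (jn x y)) (jn (q x) (q y)) := by
  apply h.le_of_le
  exact TLE.jn ((h.right x).2.trans ((h.le_iff _ _).2 (TLE.left _ _)))
    ((h.right y).2.trans ((h.le_iff _ _).2 (TLE.right _ _)))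

theorem left (h : Auto p q) (x : X) : TEq (q (p x)) x := by
  refine ⟨h.le_of_le (TLE.refl _), ?_⟩
  rw [← h.le_iff]
  exact (h.right (p x)).2

theorem symm (h : Auto p q) : Auto q p where
  le_iff x y := by
    constructor
    · intro e
      have := (h.le_iff _ _).2 e
      exact (h.right x).2.trans (this.trans (h.right y).1)
    · exact h.q_mono
  right := h.left

theorem p_jn_le (h : Auto p q) (x y : X) : TLE (p (jn x y)) (jn (p x) (p y)) :=
  h.symm.q_jn_le x y

end Auto

/-! ### Passing to a Borel cover with a countable index type -/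

theorem exists_open_of_cover' {Y : Type*} [TopologicalSpace Y] [BaireSpace Y] [MeasurableSpace Y]
    [BorelSpace Y] {ι : Type*} [Countable ι] [Nonempty ι] {B : ι → Set Y}
    (hB : ∀ i, MeasurableSet (B i)) {U : Set Y} (hU : IsOpen U) (hne : U.Nonempty)
    (h : ∀ᶠ y in residual Y, y ∈ U → ∃ i, y ∈ B i) :
    ∃ i, ∃ V : Set Y, V ⊆ U ∧ IsOpen V ∧ V.Nonempty ∧ ∀ᶠ y in residual Y, y ∈ V → y ∈ B i := by
  obtain ⟨φ, hφ⟩ := exists_surjective_nat ι
  obtain ⟨i, V, h1, h2, h3, h4⟩ := exists_open_of_cover (B := fun n => B (φ n))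
    (fun n => hB _) hU hne (by
      filter_upwards [h] with y hy hyU
      obtain ⟨i, hi⟩ := hy hyU
      obtain ⟨n, rfl⟩ := hφ i
      exact ⟨n, hi⟩)
  exact ⟨φ i, V, h1, h2, h3, h4⟩

theorem measurable_ins (a : X) (k : ℕ) : Measurable (ins a k) := (continuous_ins a k).measurable

theorem eventually_xr_pair {P : X → Prop} (h : ∀ᶠ x in residual X, P x) :
    ∀ᶠ w in residual (X × X), P (xr w.1 w.2) :=
  eventually_xr2 (P := fun w => P w.1) zero (eventually_fst h)

/-! ### Uniformisation -/

theorem measurable_xr {α : Type*} [MeasurableSpace α] {f g : α → X} (hf : Measurable f)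
    (hg : Measurable g) : Measurable (fun a => xr (f a) (g a)) := by
  rw [measurable_pi_iff]
  intro n
  have h1 : Measurable (fun a => (f a n, g a n)) :=
    ((measurable_pi_apply n).comp hf).prodMk ((measurable_pi_apply n).comp hg)
  exact (measurable_of_countable (fun b : Bool × Bool => xor b.1 b.2)).comp h1

/-- The main uniformisation statement. -/
theorem uniformise {p q : X → X} (h : Auto p q) {F : X → X} (hF : Measurable F)
    (hFp : ∀ᶠ x in residual X, TEq (F x) (p x)) {Z : X} {f0 : List Bool → List Bool} {a0 : X}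
    {k0 : ℕ} (hZ : ∀ᶠ w in residual X, Rel f0 (jn (F w) Z) (ins a0 k0 w)) :
    ∃ (F1 F2 F3 : X → X) (f1 f2 : List Bool → List Bool) (a : X) (k : ℕ),
      Measurable F1 ∧ Primrec f1 ∧ Primrec f2 ∧
      (∀ᶠ w in residual X, TEq (F1 w) (p w)) ∧ (∀ᶠ w in residual X, TEq (F2 w) (p w)) ∧
      (∀ᶠ w in residual X, Rel f0 (jn (F1 w) Z) (ins a k w)) ∧
      (∀ᶠ w in residual (X × X), Rel f1 (jn (F1 w.1) (F2 w.2)) (F3 (xr w.1 w.2))) ∧
      (∀ᶠ w in residual (X × X), Rel f2 (jn (F3 w.1) (F2 w.2)) (F1 (xr w.1 w.2))) := by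
  -- general covering argument
  have cover : ∀ (A B C : X → X), Measurable A → Measurable B → Measurable C →
      (∀ᶠ x in residual X, TEq (A x) (p x)) → (∀ᶠ x in residual X, TEq (B x) (p x)) →
      (∀ᶠ x in residual X, TEq (C x) (p x)) →
      ∃ (e : ℕ) (a b : X) (k : ℕ), ∀ᶠ w in residual (X × X),
        Rel (en e) (jn (A (ins a k w.1)) (B (ins b k w.2))) (C (xr (ins a k w.1) (ins b k w.2))) := by
    intro A B C hA hB hC hAp hBp hCp
    have hm : ∀ e, MeasurableSet {w : X × X | Rel (en e) (jn (A w.1) (B w.2)) (C (xr w.1 w.2))} :=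
      fun e => measurableSet_rel (measurable_jn (hA.comp measurable_fst) (hB.comp measurable_snd))
        (hC.comp (measurable_xr measurable_fst measurable_snd))
    obtain ⟨e, V, -, hV, hne, hev⟩ := exists_open_of_cover hm isOpen_univ univ_nonempty (by
      filter_upwards [eventually_fst hAp, eventually_snd hBp, eventually_xr_pair hCp]
        with w h1 h2 h3 _
      have : TLE (C (xr w.1 w.2)) (jn (A w.1) (B w.2)) :=
        h3.1.trans (((h.le_iff _ _).2 (tle_xr w.1 w.2)).trans
          ((h.p_jn_le _ _).trans (TLE.jn_mono h1.2 h2.2)))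
      exact tle_iff_en.mp this)
    obtain ⟨a, b, k, hab⟩ := exists_ins2 hV hne
    refine ⟨e, a, b, k, ?_⟩
    filter_upwards [eventually_ins2 a b k hev] with w hw
    exact hw (hab w.1 w.2)
  have restrict : ∀ (A : X → X) (a : X) (k : ℕ), (∀ᶠ x in residual X, TEq (A x) (p x)) →
      ∀ᶠ x in residual X, TEq (A (ins a k x)) (p x) := by
    intro A a k hA
    filter_upwards [eventually_ins a k hA] with w hw
    exact hw.trans (h.congr (teq_ins a k w))
  obtain ⟨e1, s, t, k, h1⟩ := cover F F F hF hF hF hFp hFp hFp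
  have hm : ∀ a l, Measurable (fun w => F (ins a l w)) := fun a l => hF.comp (measurable_ins a l)
  obtain ⟨e2, r, t', k', h2⟩ := cover (fun w => F (ins (xr s t) k w)) (fun w => F (ins t k w))
    (fun w => F (ins s k w)) (hm _ _) (hm _ _) (hm _ _) (restrict F _ _ hFp) (restrict F _ _ hFp)
    (restrict F _ _ hFp)
  refine ⟨fun w => F (ins s k (ins (xr r t') k' w)), fun w => F (ins t k (ins t' k' w)),
    fun w => F (ins (xr s t) k (ins r k' w)), en e1, en e2,
    ins a0 k0 (ins s k (xr r t')), k0 + (k + k'), (hm _ _).comp (measurable_ins _ _),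
    primrec_en _, primrec_en _, restrict _ _ _ (restrict F _ _ hFp),
    restrict _ _ _ (restrict F _ _ hFp), ?_, ?_, ?_⟩
  · have := eventually_ins (xr r t') k' (eventually_ins s k hZ)
    filter_upwards [this] with w hw
    rw [ins_ins s (xr r t') w k k'] at hw ⊢
    rw [ins_ins] at hw
    convert hw using 1
  · have := eventually_ins2 (xr r t') t' k' h1
    filter_upwards [this] with w hw
    simp only [xr_ins] at hw
    rw [xr_self_right] at hw
    exact hw
  · filter_upwards [h2] with w hw
    simp only [xr_ins] at hw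
    exact hw

/-! ### Translation, shift and decoding -/

/-- The translation functional. -/
def tr (f1 f2 : List Bool → List Bool) (s : List Bool) : List Bool :=
  f2 (il (f1 (evens s)) (odds s))

theorem primrec_tr {f1 f2 : List Bool → List Bool} (h1 : Primrec f1) (h2 : Primrec f2) :
    Primrec (tr f1 f2) :=
  h2.comp (primrec_il.comp (h1.comp primrec_evens) primrec_odds)

theorem rel_tr {f1 f2 : List Bool → List Bool} {u v v' y z : X} (h1 : Rel f1 (jn u v) y)
    (h2 : Rel f2 (jn y v') z) : Rel (tr f1 f2) (jn (jn u v) v') z :=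
  (((Rel.evens _ _).comp h1).il (Rel.odds _ _)).comp h2

theorem translate {F1 F2 F3 : X → X} {f1 f2 : List Bool → List Bool}
    (h1 : ∀ᶠ w in residual (X × X), Rel f1 (jn (F1 w.1) (F2 w.2)) (F3 (xr w.1 w.2)))
    (h2 : ∀ᶠ w in residual (X × X), Rel f2 (jn (F3 w.1) (F2 w.2)) (F1 (xr w.1 w.2))) (d : X) :
    ∀ᶠ w in residual (X × X),
      Rel (tr f1 f2) (jn (jn (F1 w.1) (F2 w.2)) (F2 (xr w.2 d))) (F1 (xr w.1 d)) := by
  filter_upwards [h1, eventually_xr2 d h2] with w hw1 hw2
  simp only [xr_cancel_mid] at hw2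
  exact rel_tr hw1 hw2

/-- Decoding data. -/
theorem decode_data {F1 : X → X} (hF1 : Measurable F1) {Z : X} {f0 : List Bool → List Bool}
    {a : X} {k : ℕ} (hZ : ∀ᶠ w in residual X, Rel f0 (jn (F1 w) Z) (ins a k w)) (M : ℕ) :
    ∃ (s s' : X) (N L : ℕ) (t : List Bool),
      (∀ᶠ w in residual X, pre (F1 w) N = t → ∀ i, i < M → w i = s i) ∧
      (∀ᶠ w in residual X, (∀ i, i < L → w i = s' i) → pre (F1 w) N = t) := by
  have hpre : ∀ (N : ℕ) (t : List Bool), MeasurableSet {w : X | pre (F1 w) N = t} := by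
    intro N t
    have h1 : Measurable (fun w : X => fun i : Fin N => F1 w i) := by
      rw [measurable_pi_iff]
      intro i
      exact (measurable_pi_apply (i : ℕ)).comp hF1
    have h2 : {w : X | pre (F1 w) N = t} =
        (fun w : X => fun i : Fin N => F1 w i) ⁻¹' {g | List.ofFn g = t} := by
      ext w
      simp only [mem_ofPred_eq, mem_preimage]
      have : pre (F1 w) N = List.ofFn (fun i : Fin N => F1 w i) := by
        apply List.ext_getElem
        · simp
        · intro i h h'
          simp [pre]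
      rw [this]
    rw [h2]
    exact h1 (Set.toFinite _).measurableSet
  have hm : ∀ i : ℕ × List Bool, MeasurableSet {w : X | pre (F1 w) i.1 = i.2 ∧
      k + M < (f0 (il i.2 (pre Z i.1))).length} := by
    intro i
    exact (hpre _ _).inter (MeasurableSet.const _)
  obtain ⟨⟨N, t⟩, V, -, hV, hne, hev⟩ := exists_open_of_cover' hm isOpen_univ univ_nonempty (by
    filter_upwards [hZ] with w hw _
    obtain ⟨K, hK⟩ := hw.2 (k + M)
    refine ⟨(K, pre (F1 w) K), rfl, ?_⟩
    simp only
    rw [il_pre]
    exact hK _ (by simp; omega))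
  have hlen : k + M < (f0 (il t (pre Z N))).length := by
    obtain ⟨w, hw, hw'⟩ := (dense_of_mem_residual hev).inter_open_nonempty V hV hne
    exact (hw' hw).2
  obtain ⟨s', L, hs'⟩ := exists_ins hV hne
  refine ⟨fun i => (f0 (il t (pre Z N))).getD (k + i) false, s', N, L, t, ?_, ?_⟩
  · filter_upwards [hZ] with w hw ht i hi
    have h1 : (f0 (pre (jn (F1 w) Z) (2 * min N N)))[k + i]? =
        some ((f0 (il t (pre Z N))).getD (k + i) false) := by
      rw [← il_pre, ht, List.getD_eq_getElem?_getD, List.getElem?_eq_getElem (by omega)]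
      rfl
    have h2 := hw.1 _ _ _ h1
    rw [← h2]
    simp [ins]
  · filter_upwards [hev] with w hw hL
    refine (hw ?_).1
    rw [eq_ins_of_agree hL]
    exact hs' _

/-- Finitely many parameters coded in one real. -/
def params (F2 : X → X) (dd : ℕ → X) (m : ℕ) (c : X) : X :=
  cd (fun j => if j < m then F2 (xr c (dd j)) else zero)

/-- The functional extracting a parameter. -/
def getPar (j : ℕ) (s : List Bool) : List Bool := idx (fun i => Nat.pair j i) (odds s)

theorem primrec_getPar (j : ℕ) : Primrec (getPar j) := (primrec_column j).comp primrec_odds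

theorem rel_getPar {F2 : X → X} {dd : ℕ → X} {m : ℕ} {c u : X} {j : ℕ} (hj : j < m) :
    Rel (getPar j) (jn u (params F2 dd m c)) (F2 (xr c (dd j))) := by
  have := (Rel.odds u (params F2 dd m c)).comp
    (Rel.column j (fun j => if j < m then F2 (xr c (dd j)) else zero))
  simp only [if_pos hj] at this
  exact this

/-- The finite patterns. -/
def pat (j : ℕ) : X := fun i => ((Encodable.decode (α := List Bool) j).getD []).getD i false

theorem exists_pat (L : ℕ) : ∃ m : ℕ, ∀ v : X, ∃ j, j < m ∧ ∀ i, i < L → pat j i = v i := by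
  classical
  refine ⟨(Finset.univ.image (fun g : Fin L → Bool =>
    Encodable.encode (List.ofFn g))).sup id + 1, fun v => ?_⟩
  refine ⟨Encodable.encode (List.ofFn (fun i : Fin L => v i)), ?_, fun i hi => ?_⟩
  · apply Nat.lt_succ_of_le
    exact Finset.le_sup (f := id) (Finset.mem_image_of_mem _ (Finset.mem_univ _))
  · unfold pat
    rw [Encodable.encodek]
    simp only [Option.getD_some]
    rw [List.getD_eq_getElem?_getD, List.getElem?_ofFn]
    simp [hi]

theorem ins_tle_zero (a : X) (k : ℕ) : TLE (ins a k zero) zero := tle_ins a k zero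

theorem tle_zero_of_finite {e : X} {k : ℕ} (h : ∀ i, k ≤ i → e i = false) : TLE e zero := by
  have : e = ins e k zero := by
    funext n
    simp only [ins, zero]
    split_ifs with h1
    · rfl
    · exact h n (by omega)
  rw [this]
  exact ins_tle_zero e k

theorem pat_tle_zero (j : ℕ) : TLE (pat j) zero := by
  apply tle_zero_of_finite (k := ((Encodable.decode (α := List Bool) j).getD []).length)
  intro i hi
  unfold pat
  rw [List.getD_eq_getElem?_getD, List.getElem?_eq_none hi]
  rfl

theorem one_step {F1 F2 F3 : X → X} {f1 f2 f3 : List Bool → List Bool} (hf1 : Primrec f1)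
    (hf2 : Primrec f2) (hf3 : Primrec f3)
    (h1 : ∀ᶠ w in residual (X × X), Rel f1 (jn (F1 w.1) (F2 w.2)) (F3 (xr w.1 w.2)))
    (h2 : ∀ᶠ w in residual (X × X), Rel f2 (jn (F3 w.1) (F2 w.2)) (F1 (xr w.1 w.2)))
    {b : X} {K : ℕ}
    (hs : ∀ᶠ w in residual X, (∀ i, i < K → w i = b i) → Rel f3 (F1 w) (F1 (sh w)))
    {M : ℕ} (hKM : K ≤ M) (hM : 2 ≤ M) {s s' : X} {N L : ℕ} {t : List Bool}
    (hi : ∀ᶠ w in residual X, pre (F1 w) N = t → ∀ i, i < M → w i = s i)
    (hii : ∀ᶠ w in residual X, (∀ i, i < L → w i = s' i) → pre (F1 w) N = t) :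
    ∃ (T : List Bool → List Bool) (dd : ℕ → X) (m : ℕ), Primrec T ∧ (∀ j, TLE (dd j) zero) ∧
      ∀ᶠ w in residual (X × X),
        Rel T (jn (ins (fun _ => w.1 0) 1 (F1 w.1)) (params F2 dd m w.2))
          (ins (fun _ => sh w.1 0) 1 (F1 (sh w.1))) := by
  obtain ⟨m', hm'⟩ := exists_pat L
  -- the second family of translations
  let g : ℕ → X := fun j i => if i < K then xor (xor (s i) (pat j i)) (b i) else false
  have hg0 : ∀ j, TLE (g j) zero := fun j =>
    tle_zero_of_finite (k := K) (fun i hi => by simp [g, not_lt.mpr hi])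
  let dd : ℕ → X := fun n =>
    if n = 0 then zero else
      if (n - 1) % 3 = 0 then pat ((n - 1) / 3) else
        if (n - 1) % 3 = 1 then g ((n - 1) / 3) else sh (g ((n - 1) / 3))
  have hdd0 : dd 0 = zero := by simp [dd]
  have hdd1 : ∀ j, dd (3 * j + 1) = pat j := by
    intro j
    have e1 : (3 * j + 1 - 1) % 3 = 0 := by omega
    have e2 : (3 * j + 1 - 1) / 3 = j := by omega
    simp only [dd, e1, e2]
    simp
  have hdd2 : ∀ j, dd (3 * j + 2) = g j := by
    intro j
    have e1 : (3 * j + 2 - 1) % 3 = 1 := by omega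
    have e2 : (3 * j + 2 - 1) / 3 = j := by omega
    simp only [dd, e1, e2]
    simp
  have hdd3 : ∀ j, dd (3 * j + 3) = sh (g j) := by
    intro j
    have e1 : (3 * j + 3 - 1) % 3 = 2 := by omega
    have e2 : (3 * j + 3 - 1) / 3 = j := by omega
    simp only [dd, e1, e2]
    simp
  have hddz : ∀ n, TLE (dd n) zero := by
    intro n
    simp only [dd]
    split_ifs
    · exact TLE.refl _
    · exact pat_tle_zero _
    · exact hg0 _
    · exact (tle_sh _).trans (hg0 _)
  let m := 3 * m' + 4
  -- functionals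
  let A : List Bool → List Bool := fun σ => idx (fun n => n + 1) (evens σ)
  have hA : Primrec A := (primrec_idx Primrec.succ).comp primrec_evens
  let test : ℕ → List Bool → List Bool := fun j σ =>
    tr f1 f2 (il (il (A σ) (getPar 0 σ)) (getPar (3 * j + 1) σ))
  let v1 : ℕ → List Bool → List Bool := fun j σ =>
    tr f1 f2 (il (il (A σ) (getPar 0 σ)) (getPar (3 * j + 2) σ))
  let v2 : ℕ → List Bool → List Bool := fun j σ => f3 (v1 j σ)
  let v3 : ℕ → List Bool → List Bool := fun j σ =>
    tr f1 f2 (il (il (v2 j σ) (getPar 0 σ)) (getPar (3 * j + 3) σ))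
  let out : ℕ → List Bool → List Bool := fun j σ =>
    pre (fun _ => xor (s 1) (pat j 1)) 1 ++ v3 j σ
  have htr := primrec_tr hf1 hf2
  have htest : ∀ j, Primrec (test j) := fun j =>
    htr.comp (primrec_il.comp (primrec_il.comp hA (primrec_getPar 0)) (primrec_getPar _))
  have hv1 : ∀ j, Primrec (v1 j) := fun j =>
    htr.comp (primrec_il.comp (primrec_il.comp hA (primrec_getPar 0)) (primrec_getPar _))
  have hv3 : ∀ j, Primrec (v3 j) := fun j =>
    htr.comp (primrec_il.comp (primrec_il.comp (hf3.comp (hv1 j)) (primrec_getPar 0))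
      (primrec_getPar _))
  have hout : ∀ j, Primrec (out j) := fun j =>
    Primrec.list_append.comp (Primrec.const _) (hv3 j)
  obtain ⟨T, hT, hT'⟩ := case_rel N t test out htest hout m'
  refine ⟨T, dd, m, hT, hddz, ?_⟩
  have ev1 : ∀ᶠ w in residual (X × X), ∀ j,
      Rel (tr f1 f2) (jn (jn (F1 w.1) (F2 w.2)) (F2 (xr w.2 (pat j)))) (F1 (xr w.1 (pat j))) :=
    eventually_countable_forall.mpr fun j => translate h1 h2 (pat j)
  have ev2 : ∀ᶠ w in residual (X × X), ∀ j,
      Rel (tr f1 f2) (jn (jn (F1 w.1) (F2 w.2)) (F2 (xr w.2 (g j)))) (F1 (xr w.1 (g j))) :=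
    eventually_countable_forall.mpr fun j => translate h1 h2 (g j)
  have ev3 : ∀ᶠ w in residual (X × X), ∀ j,
      Rel (tr f1 f2) (jn (jn (F1 (xr (sh w.1) (sh (g j)))) (F2 w.2)) (F2 (xr w.2 (sh (g j)))))
        (F1 (xr (xr (sh w.1) (sh (g j))) (sh (g j)))) := by
    refine eventually_countable_forall.mpr fun j => ?_
    exact eventually_sh (P := fun w => Rel (tr f1 f2)
      (jn (jn (F1 (xr w.1 (sh (g j)))) (F2 w.2)) (F2 (xr w.2 (sh (g j)))))
        (F1 (xr (xr w.1 (sh (g j))) (sh (g j)))))
      (eventually_xr_fst (P := fun w => Rel (tr f1 f2)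
        (jn (jn (F1 w.1) (F2 w.2)) (F2 (xr w.2 (sh (g j))))) (F1 (xr w.1 (sh (g j)))))
        (sh (g j)) (translate h1 h2 (sh (g j))))
  have ev4 : ∀ᶠ w in residual (X × X), ∀ j, pre (F1 (xr w.1 (pat j))) N = t →
      ∀ i, i < M → xr w.1 (pat j) i = s i :=
    eventually_countable_forall.mpr fun j => eventually_fst (eventually_xr (pat j) hi)
  have ev5 : ∀ᶠ w in residual (X × X), ∀ j, (∀ i, i < L → xr w.1 (pat j) i = s' i) →
      pre (F1 (xr w.1 (pat j))) N = t :=
    eventually_countable_forall.mpr fun j => eventually_fst (eventually_xr (pat j) hii)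
  have ev6 : ∀ᶠ w in residual (X × X), ∀ j, (∀ i, i < K → xr w.1 (g j) i = b i) →
      Rel f3 (F1 (xr w.1 (g j))) (F1 (sh (xr w.1 (g j)))) :=
    eventually_countable_forall.mpr fun j => eventually_fst (eventually_xr (g j) hs)
  filter_upwards [ev1, ev2, ev3, ev4, ev5, ev6] with w e1 e2 e3 e4 e5 e6
  obtain ⟨w, c⟩ := w
  simp only at e1 e2 e3 e4 e5 e6 ⊢
  set z := jn (ins (fun _ => w 0) 1 (F1 w)) (params F2 dd m c) with hz
  have rA : Rel A z (F1 w) := by
    have h3 := (Rel.evens (ins (fun _ => w 0) 1 (F1 w)) (params F2 dd m c)).comp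
      (Rel.idx (fun n => n + 1) _)
    have h4 : (fun n => ins (fun _ => w 0) 1 (F1 w) (n + 1)) = F1 w := by
      funext n; simp [ins]
    rw [h4] at h3
    exact h3
  have r0 : Rel (getPar 0) z (F2 c) := by
    have := rel_getPar (F2 := F2) (dd := dd) (m := m) (c := c)
      (u := ins (fun _ => w 0) 1 (F1 w)) (j := 0) (by omega)
    have h4 : xr c (dd 0) = c := by
      rw [hdd0]; funext n; simp [xr, zero]
    rw [h4] at this
    exact this
  have r1 : ∀ j, j < m' → Rel (getPar (3 * j + 1)) z (F2 (xr c (pat j))) := by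
    intro j hj
    have := rel_getPar (F2 := F2) (dd := dd) (m := m) (c := c)
      (u := ins (fun _ => w 0) 1 (F1 w)) (j := 3 * j + 1) (by omega)
    rw [hdd1] at this
    exact this
  have r2 : ∀ j, j < m' → Rel (getPar (3 * j + 2)) z (F2 (xr c (g j))) := by
    intro j hj
    have := rel_getPar (F2 := F2) (dd := dd) (m := m) (c := c)
      (u := ins (fun _ => w 0) 1 (F1 w)) (j := 3 * j + 2) (by omega)
    rw [hdd2] at this
    exact this
  have r3 : ∀ j, j < m' → Rel (getPar (3 * j + 3)) z (F2 (xr c (sh (g j)))) := by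
    intro j hj
    have := rel_getPar (F2 := F2) (dd := dd) (m := m) (c := c)
      (u := ins (fun _ => w 0) 1 (F1 w)) (j := 3 * j + 3) (by omega)
    rw [hdd3] at this
    exact this
  apply hT' z _ (fun j => F1 (xr w (pat j)))
  · intro j hj
    exact ((rA.il r0).il (r1 j hj)).comp (e1 j)
  · intro j hj ht
    have hws : ∀ i, i < M → xr w (pat j) i = s i := e4 j ht
    have hwb : ∀ i, i < K → xr w (g j) i = b i := by
      intro i hiK
      have h5 := hws i (lt_of_lt_of_le hiK hKM)
      simp only [xr] at h5 ⊢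
      simp only [g, if_pos hiK]
      rw [← h5]
      cases w i <;> cases pat j i <;> cases b i <;> rfl
    have q1 : Rel (v1 j) z (F1 (xr w (g j))) := ((rA.il r0).il (r2 j hj)).comp (e2 j)
    have q2 : Rel (v2 j) z (F1 (sh (xr w (g j)))) := q1.comp (e6 j hwb)
    have q3 : Rel (v3 j) z (F1 (sh w)) := by
      have h6 := ((q2.il r0).il (r3 j hj)).comp (e3 j)
      rw [xr_self_right] at h6
      exact h6
    have hw1 : w 1 = xor (s 1) (pat j 1) := by
      have h5 := hws 1 (by omega)
      simp only [xr] at h5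
      rw [← h5]
      cases w 1 <;> cases pat j 1 <;> rfl
    have q4 := q3.comp (Rel.ins (fun _ => xor (s 1) (pat j 1)) 1 (F1 (sh w)))
    have h7 : (fun _ : ℕ => sh w 0) = (fun _ => xor (s 1) (pat j 1)) := by
      funext _
      simp [sh, hw1]
    rw [h7]
    exact q4
  · obtain ⟨j, hj, hj'⟩ := hm' (xr w s')
    refine ⟨j, hj, e5 j ?_⟩
    intro i hi'
    simp only [xr] at hj' ⊢
    rw [hj' i hi']
    cases w i <;> cases s' i <;> rfl

theorem teq_xr {c e : X} (he : TLE e zero) : TEq (xr c e) c := by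
  have he' : ∀ z, TLE e z := fun z => he.trans (tle_zero z)
  refine ⟨(tle_xr c e).trans (TLE.jn (TLE.refl c) (he' c)), ?_⟩
  have : TLE (xr (xr c e) e) (xr c e) :=
    (tle_xr _ e).trans (TLE.jn (TLE.refl _) (he' _))
  rwa [xr_self_right] at this

/-- The main trick. -/
theorem trick {p q : X → X} (h : Auto p q) {F : X → X} (hF : Measurable F)
    (hFp : ∀ᶠ x in residual X, TEq (F x) (p x)) {Z : X}
    (hZ : ∀ᶠ x in residual X, TLE x (jn (F x) Z)) (x : X) : TLE (q x) x := by
  -- Step 0: uniform decoding relative to `Z`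
  have hm0 : ∀ i, MeasurableSet {w : X | Rel (en i) (jn (F w) Z) w} := fun i =>
    measurableSet_rel (measurable_jn hF measurable_const) measurable_id
  obtain ⟨i0, V0, -, hV0, hne0, hev0⟩ := exists_open_of_cover hm0 isOpen_univ univ_nonempty (by
    filter_upwards [hZ] with w hw _
    exact tle_iff_en.mp hw)
  obtain ⟨a0, k0, ha0⟩ := exists_ins hV0 hne0
  have hZ' : ∀ᶠ w in residual X, Rel (en i0) (jn (F (ins a0 k0 w)) Z) (ins a0 k0 w) := by
    filter_upwards [eventually_ins a0 k0 hev0] with w hw
    exact hw (ha0 w)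
  have hF0p : ∀ᶠ w in residual X, TEq (F (ins a0 k0 w)) (p w) := by
    filter_upwards [eventually_ins a0 k0 hFp] with w hw
    exact hw.trans (h.congr (teq_ins a0 k0 w))
  -- uniformisation
  obtain ⟨F1, F2, F3, f1, f2, a, k, hF1, hf1, hf2, hF1p, hF2p, hZ1, h1, h2⟩ :=
    uniformise h (F := fun w => F (ins a0 k0 w)) (hF.comp (measurable_ins a0 k0)) hF0p hZ'
  -- the shift
  have hm3 : ∀ i, MeasurableSet {w : X | Rel (en i) (F1 w) (F1 (sh w))} := fun i =>
    measurableSet_rel hF1 (hF1.comp continuous_sh.measurable)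
  obtain ⟨i3, V3, -, hV3, hne3, hev3⟩ := exists_open_of_cover hm3 isOpen_univ univ_nonempty (by
    have hsh : ∀ᶠ w in residual X, TEq (F1 (sh w)) (p (sh w)) :=
      (tendsto_residual_of_isOpenMap continuous_sh isOpenMap_sh).eventually hF1p
    filter_upwards [hF1p, hsh] with w hw hw' _
    have : TLE (F1 (sh w)) (F1 w) :=
      hw'.1.trans (((h.le_iff _ _).2 (tle_sh w)).trans hw.2)
    exact tle_iff_en.mp this)
  obtain ⟨b, K, hb⟩ := exists_ins hV3 hne3
  have hs : ∀ᶠ w in residual X, (∀ i, i < K → w i = b i) → Rel (en i3) (F1 w) (F1 (sh w)) := by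
    filter_upwards [hev3] with w hw hwb
    apply hw
    rw [eq_ins_of_agree hwb]
    exact hb _
  -- decoding
  obtain ⟨s, s', N, L, t, hi, hii⟩ := decode_data hF1 hZ1 (max K 2)
  obtain ⟨T, dd, m, hT, hdd, hstep⟩ := one_step hf1 hf2 (primrec_en i3) h1 h2 hs
    (le_max_left K 2) (le_max_right K 2) hi hii
  -- iterate
  have hall : ∀ᶠ w in residual (X × X), ∀ n : ℕ,
      Rel T (jn (ins (fun _ => sh^[n] w.1 0) 1 (F1 (sh^[n] w.1))) (params F2 dd m w.2))
        (ins (fun _ => sh^[n + 1] w.1 0) 1 (F1 (sh^[n + 1] w.1))) := by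
    refine eventually_countable_forall.mpr fun n => ?_
    have : ∀ n : ℕ, ∀ P : X × X → Prop, (∀ᶠ w in residual (X × X), P w) →
        ∀ᶠ w in residual (X × X), P (sh^[n] w.1, w.2) := by
      intro n
      induction n with
      | zero => intro P hP; simpa using hP
      | succ n ih =>
        intro P hP
        have := eventually_sh (ih P hP)
        simpa [Function.iterate_succ_apply] using this
    have h3 := this n _ hstep
    filter_upwards [h3] with w hw
    rw [Function.iterate_succ_apply']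
    exact hw
  have hsh0 : ∀ (w : X) (n : ℕ), sh^[n] w 0 = w n := by
    intro w n
    have : ∀ (n : ℕ) (w : X) (i : ℕ), sh^[n] w i = w (n + i) := by
      intro n
      induction n with
      | zero => intro w i; simp
      | succ n ih =>
        intro w i
        rw [Function.iterate_succ_apply, ih]
        simp only [sh]
        congr 1; omega
    simpa using this n w 0
  have hmain : ∀ᶠ w in residual (X × X), TLE w.1 (jn (F1 w.1) (params F2 dd m w.2)) := by
    filter_upwards [hall] with w hw
    have h4 := iterate_tle hT (fun n => ins (fun _ => sh^[n] w.1 0) 1 (F1 (sh^[n] w.1)))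
      (params F2 dd m w.2) hw w.1 (fun n => by
        simp only [ins]
        rw [if_pos (by omega), hsh0])
    exact h4.trans (TLE.jn_mono (by simpa using tle_ins _ 1 (F1 w.1)) (TLE.refl _))
  have hpar : ∀ᶠ c in residual X, TLE (params F2 dd m c) (p c) := by
    have hd : ∀ᶠ c in residual X, ∀ j, TEq (F2 (xr c (dd j))) (p (xr c (dd j))) :=
      eventually_countable_forall.mpr fun j => eventually_xr (dd j) hF2p
    filter_upwards [hd] with c hc
    apply cd_tle_of_finite m
    · intro i hi
      simp only [if_pos hi]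
      exact ((hc i).trans (h.congr (teq_xr (hdd i)))).1
    · intro i hi
      simp only [if_neg (not_lt.mpr hi)]
  have hjoin : ∀ᶠ w in residual (X × X), TLE (q w.1) (jn w.1 w.2) := by
    filter_upwards [hmain, eventually_fst hF1p, eventually_snd hpar] with w hw1 hw2 hw3
    apply h.le_of_le
    exact hw1.trans ((TLE.jn_mono hw2.1 hw3).trans (h.jn_le _ _))
  have hq : ∀ᶠ w in residual X, TLE (q w) w := by
    filter_upwards [ku hjoin] with w hw
    exact tle_of_eventually hw
  -- all reals
  apply tle_of_eventually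
  filter_upwards [hq, eventually_xr x hq] with g hg hg'
  have h5 : TLE x (jn g (xr g x)) := by
    have := tle_xr g (xr g x)
    rwa [xr_self_left] at this
  have h6 : TLE (q x) (jn (q g) (q (xr g x))) := (h.q_mono h5).trans (h.q_jn_le _ _)
  refine h6.trans (TLE.jn (hg.trans (TLE.right _ _)) (hg'.trans ?_))
  exact (tle_xr g x).trans (TLE.jn (TLE.right _ _) (TLE.left _ _))

end P327
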